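import Vale.Agent.Lib.P200.Pair

/-!
# Arithmetic of lexicographic ranks
-/

namespace Vale.Agent.Lib.P200

/-- Number of monomials `x^i y^j z^l` of degree `d` with `j, l < a` in a row `i`. -/
def rw3 (a d i : ℕ) : ℕ := min (d + 1 - i) (2 * a - 1 + i - d)

/-- The rank of `x^i y^j z^l` among the monomials of degree `d` outside `(x^3, y^a, z^a)`. -/
def rk (a d i j : ℕ) : ℕ :=
  (if i = 2 then 0 else if i = 1 then rw3 a d 2 else rw3 a d 2 + rw3 a d 1) + min (a - 1) (d - i) - j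

/-- The number of monomials of degree `d` outside `(x^3, y^a, z^a)`. -/
def nd (a d : ℕ) : ℕ := rw3 a d 2 + rw3 a d 1 + rw3 a d 0

lemma rk_two (a d j : ℕ) : rk a d 2 j = min (a - 1) (d - 2) - j := by
  simp [rk]

lemma rk_one (a d j : ℕ) : rk a d 1 j = rw3 a d 2 + min (a - 1) (d - 1) - j := by
  simp [rk]

lemma rk_zero (a d j : ℕ) : rk a d 0 j = rw3 a d 2 + rw3 a d 1 + min (a - 1) d - j := by
  simp [rk]

lemma shadow_cases {a d q : ℕ} {P : ℕ → Prop} (ha : 3 ≤ a) (hq : 1 ≤ q)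
    (h0 : d = 0 → P 3)
    (h1 : 1 ≤ d → d + 2 ≤ a → P (if q + 1 ≤ d then q + 1 else if q + 1 ≤ 2 * d then q + 2 else q + 3))
    (h2 : 1 ≤ d → d + 1 = a → P (if q + 1 ≤ d then q + 1 else if q ≠ 3 * d then q + 2 else 3 * d + 1))
    (h3 : d = a → P (if q + 2 ≤ 2 * a then q + 1 else if q + 3 ≤ 3 * a then q else 3 * a - 3))
    (h4 : a < d → d + 2 ≤ 2 * a → P (if q + d ≤ 2 * a then q
      else if q + 2 * d ≤ 4 * a then q - 1
      else if q < 3 * (2 * a - d) then q - 2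
      else 3 * (2 * a - d) - 3))
    (h5 : d + 1 = 2 * a → P 1)
    (h6 : 2 * a ≤ d → P 0) : P (tb a d q) := by
  have hq0 : q ≠ 0 := by omega
  by_cases c0 : d = 0
  · subst c0
    rw [tb_of_zero hq0]
    exact h0 rfl
  by_cases c1 : d + 2 ≤ a
  · rw [tb_of_lower hq0 c0 c1]
    exact h1 (by omega) c1
  by_cases c2 : d + 1 = a
  · rw [tb_of_mid hq0 c0 c2]
    exact h2 (by omega) c2
  by_cases c3 : d = a
  · subst c3
    rw [tb_of_eq hq0 (by omega)]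
    exact h3 rfl
  by_cases c4 : d + 2 ≤ 2 * a
  · rw [tb_of_upper hq0 (by omega) c4]
    exact h4 (by omega) c4
  by_cases c5 : d + 1 = 2 * a
  · rw [tb_of_last hq0 (by omega) c5]
    exact h5 c5
  · have : tb a d q = 0 := by
      unfold tb
      rw [if_neg hq0, if_neg c0, if_neg c1, if_neg c2, if_neg c3, if_neg c4, if_neg c5]
    rw [this]
    exact h6 (by omega)

lemma shadow_x0_0 {a d j l q : ℕ} (ha : 3 ≤ a) (hdeg : 0 + j + l = d)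
    (hj : j + 1 ≤ a) (hl : l + 1 ≤ a) (hq : rk a d 0 j < q) (hqn : q ≤ nd a d) (hb : d = 0) :
    rk a (d + 1) (0 + 1) j < 3 := by
  simp only [rk_zero, rk_one, rk_two, nd, rw3, zero_add, Nat.reduceAdd] at *
  omega

lemma shadow_x0_1 {a d j l q : ℕ} (ha : 3 ≤ a) (hdeg : 0 + j + l = d)
    (hj : j + 1 ≤ a) (hl : l + 1 ≤ a) (hq : rk a d 0 j < q) (hqn : q ≤ nd a d) (hb : 1 ≤ d ∧ d + 2 ≤ a) :
    rk a (d + 1) (0 + 1) j < (if q + 1 ≤ d then q + 1 else if q + 1 ≤ 2 * d then q + 2 else q + 3) := by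
  simp only [rk_zero, rk_one, rk_two, nd, rw3, zero_add, Nat.reduceAdd] at *
  split_ifs
  all_goals omega

lemma shadow_x0_2 {a d j l q : ℕ} (ha : 3 ≤ a) (hdeg : 0 + j + l = d)
    (hj : j + 1 ≤ a) (hl : l + 1 ≤ a) (hq : rk a d 0 j < q) (hqn : q ≤ nd a d) (hb : 1 ≤ d ∧ d + 1 = a) :
    rk a (d + 1) (0 + 1) j < (if q + 1 ≤ d then q + 1 else if q ≠ 3 * d then q + 2 else 3 * d + 1) := by
  simp only [rk_zero, rk_one, rk_two, nd, rw3, zero_add, Nat.reduceAdd] at *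
  split_ifs
  all_goals omega

lemma shadow_x0_3 {a d j l q : ℕ} (ha : 3 ≤ a) (hdeg : 0 + j + l = d)
    (hj : j + 1 ≤ a) (hl : l + 1 ≤ a) (hq : rk a d 0 j < q) (hqn : q ≤ nd a d) (hb : d = a) :
    rk a (d + 1) (0 + 1) j < (if q + 2 ≤ 2 * a then q + 1 else if q + 3 ≤ 3 * a then q else 3 * a - 3) := by
  simp only [rk_zero, rk_one, rk_two, nd, rw3, zero_add, Nat.reduceAdd] at *
  split_ifs
  all_goals omega

lemma shadow_x0_4 {a d j l q : ℕ} (ha : 3 ≤ a) (hdeg : 0 + j + l = d)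
    (hj : j + 1 ≤ a) (hl : l + 1 ≤ a) (hq : rk a d 0 j < q) (hqn : q ≤ nd a d) (hb : a < d ∧ d + 2 ≤ 2 * a) :
    rk a (d + 1) (0 + 1) j < (if q + d ≤ 2 * a then q else if q + 2 * d ≤ 4 * a then q - 1 else if q < 3 * (2 * a - d) then q - 2 else 3 * (2 * a - d) - 3) := by
  simp only [rk_zero, rk_one, rk_two, nd, rw3, zero_add, Nat.reduceAdd] at *
  split_ifs
  all_goals omega

lemma shadow_x0_5 {a d j l q : ℕ} (ha : 3 ≤ a) (hdeg : 0 + j + l = d)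
    (hj : j + 1 ≤ a) (hl : l + 1 ≤ a) (hq : rk a d 0 j < q) (hqn : q ≤ nd a d) (hb : d + 1 = 2 * a) :
    rk a (d + 1) (0 + 1) j < 1 := by
  simp only [rk_zero, rk_one, rk_two, nd, rw3, zero_add, Nat.reduceAdd] at *
  omega

lemma shadow_x0_6 {a d j l q : ℕ} (ha : 3 ≤ a) (hdeg : 0 + j + l = d)
    (hj : j + 1 ≤ a) (hl : l + 1 ≤ a) (hq : rk a d 0 j < q) (hqn : q ≤ nd a d) (hb : 2 * a ≤ d) :
    rk a (d + 1) (0 + 1) j < 0 := by
  simp only [rk_zero, rk_one, rk_two, nd, rw3, zero_add, Nat.reduceAdd] at *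
  omega

lemma shadow_x0 {a d j l q : ℕ} (ha : 3 ≤ a) (hdeg : 0 + j + l = d)
    (hj : j + 1 ≤ a) (hl : l + 1 ≤ a) (hq : rk a d 0 j < q) (hqn : q ≤ nd a d) :
    rk a (d + 1) (0 + 1) j < tb a d q := by
  have hq1 : 1 ≤ q := by omega
  refine shadow_cases (P := fun t => rk a (d + 1) (0 + 1) j < t) ha hq1 ?_ ?_ ?_ ?_ ?_ ?_ ?_
  · exact fun h => shadow_x0_0 ha hdeg hj hl hq hqn h
  · exact fun h h' => shadow_x0_1 ha hdeg hj hl hq hqn ⟨h, h'⟩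
  · exact fun h h' => shadow_x0_2 ha hdeg hj hl hq hqn ⟨h, h'⟩
  · exact fun h => shadow_x0_3 ha hdeg hj hl hq hqn h
  · exact fun h h' => shadow_x0_4 ha hdeg hj hl hq hqn ⟨h, h'⟩
  · exact fun h => shadow_x0_5 ha hdeg hj hl hq hqn h
  · exact fun h => shadow_x0_6 ha hdeg hj hl hq hqn h

lemma shadow_x1_0 {a d j l q : ℕ} (ha : 3 ≤ a) (hdeg : 1 + j + l = d)
    (hj : j + 1 ≤ a) (hl : l + 1 ≤ a) (hq : rk a d 1 j < q) (hqn : q ≤ nd a d) (hb : d = 0) :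
    rk a (d + 1) (1 + 1) j < 3 := by
  simp only [rk_zero, rk_one, rk_two, nd, rw3, zero_add, Nat.reduceAdd] at *
  omega

lemma shadow_x1_1 {a d j l q : ℕ} (ha : 3 ≤ a) (hdeg : 1 + j + l = d)
    (hj : j + 1 ≤ a) (hl : l + 1 ≤ a) (hq : rk a d 1 j < q) (hqn : q ≤ nd a d) (hb : 1 ≤ d ∧ d + 2 ≤ a) :
    rk a (d + 1) (1 + 1) j < (if q + 1 ≤ d then q + 1 else if q + 1 ≤ 2 * d then q + 2 else q + 3) := by
  simp only [rk_zero, rk_one, rk_two, nd, rw3, zero_add, Nat.reduceAdd] at *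
  split_ifs
  all_goals omega

lemma shadow_x1_2 {a d j l q : ℕ} (ha : 3 ≤ a) (hdeg : 1 + j + l = d)
    (hj : j + 1 ≤ a) (hl : l + 1 ≤ a) (hq : rk a d 1 j < q) (hqn : q ≤ nd a d) (hb : 1 ≤ d ∧ d + 1 = a) :
    rk a (d + 1) (1 + 1) j < (if q + 1 ≤ d then q + 1 else if q ≠ 3 * d then q + 2 else 3 * d + 1) := by
  simp only [rk_zero, rk_one, rk_two, nd, rw3, zero_add, Nat.reduceAdd] at *
  split_ifs
  all_goals omega

lemma shadow_x1_3 {a d j l q : ℕ} (ha : 3 ≤ a) (hdeg : 1 + j + l = d)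
    (hj : j + 1 ≤ a) (hl : l + 1 ≤ a) (hq : rk a d 1 j < q) (hqn : q ≤ nd a d) (hb : d = a) :
    rk a (d + 1) (1 + 1) j < (if q + 2 ≤ 2 * a then q + 1 else if q + 3 ≤ 3 * a then q else 3 * a - 3) := by
  simp only [rk_zero, rk_one, rk_two, nd, rw3, zero_add, Nat.reduceAdd] at *
  split_ifs
  all_goals omega

lemma shadow_x1_4 {a d j l q : ℕ} (ha : 3 ≤ a) (hdeg : 1 + j + l = d)
    (hj : j + 1 ≤ a) (hl : l + 1 ≤ a) (hq : rk a d 1 j < q) (hqn : q ≤ nd a d) (hb : a < d ∧ d + 2 ≤ 2 * a) :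
    rk a (d + 1) (1 + 1) j < (if q + d ≤ 2 * a then q else if q + 2 * d ≤ 4 * a then q - 1 else if q < 3 * (2 * a - d) then q - 2 else 3 * (2 * a - d) - 3) := by
  simp only [rk_zero, rk_one, rk_two, nd, rw3, zero_add, Nat.reduceAdd] at *
  split_ifs
  all_goals omega

lemma shadow_x1_5 {a d j l q : ℕ} (ha : 3 ≤ a) (hdeg : 1 + j + l = d)
    (hj : j + 1 ≤ a) (hl : l + 1 ≤ a) (hq : rk a d 1 j < q) (hqn : q ≤ nd a d) (hb : d + 1 = 2 * a) :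
    rk a (d + 1) (1 + 1) j < 1 := by
  simp only [rk_zero, rk_one, rk_two, nd, rw3, zero_add, Nat.reduceAdd] at *
  omega

lemma shadow_x1_6 {a d j l q : ℕ} (ha : 3 ≤ a) (hdeg : 1 + j + l = d)
    (hj : j + 1 ≤ a) (hl : l + 1 ≤ a) (hq : rk a d 1 j < q) (hqn : q ≤ nd a d) (hb : 2 * a ≤ d) :
    rk a (d + 1) (1 + 1) j < 0 := by
  simp only [rk_zero, rk_one, rk_two, nd, rw3, zero_add, Nat.reduceAdd] at *
  omega

lemma shadow_x1 {a d j l q : ℕ} (ha : 3 ≤ a) (hdeg : 1 + j + l = d)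
    (hj : j + 1 ≤ a) (hl : l + 1 ≤ a) (hq : rk a d 1 j < q) (hqn : q ≤ nd a d) :
    rk a (d + 1) (1 + 1) j < tb a d q := by
  have hq1 : 1 ≤ q := by omega
  refine shadow_cases (P := fun t => rk a (d + 1) (1 + 1) j < t) ha hq1 ?_ ?_ ?_ ?_ ?_ ?_ ?_
  · exact fun h => shadow_x1_0 ha hdeg hj hl hq hqn h
  · exact fun h h' => shadow_x1_1 ha hdeg hj hl hq hqn ⟨h, h'⟩
  · exact fun h h' => shadow_x1_2 ha hdeg hj hl hq hqn ⟨h, h'⟩
  · exact fun h => shadow_x1_3 ha hdeg hj hl hq hqn h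
  · exact fun h h' => shadow_x1_4 ha hdeg hj hl hq hqn ⟨h, h'⟩
  · exact fun h => shadow_x1_5 ha hdeg hj hl hq hqn h
  · exact fun h => shadow_x1_6 ha hdeg hj hl hq hqn h

/-- Multiplication by `x`. -/
lemma shadow_x {a d i j l q : ℕ} (ha : 3 ≤ a) (hdeg : i + j + l = d) (hi : i + 1 ≤ 2)
    (hj : j + 1 ≤ a) (hl : l + 1 ≤ a) (hq : rk a d i j < q) (hqn : q ≤ nd a d) :
    rk a (d + 1) (i + 1) j < tb a d q := by
  have hi2 : i = 0 ∨ i = 1 := by omega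
  rcases hi2 with rfl | rfl
  · exact shadow_x0 ha hdeg hj hl hq hqn
  · exact shadow_x1 ha hdeg hj hl hq hqn

lemma shadow_y0_0 {a d j l q : ℕ} (ha : 3 ≤ a) (hdeg : 0 + j + l = d)
    (hj : j + 2 ≤ a) (hl : l + 1 ≤ a) (hq : rk a d 0 j < q) (hqn : q ≤ nd a d) (hb : d = 0) :
    rk a (d + 1) 0 (j + 1) < 3 := by
  simp only [rk_zero, rk_one, rk_two, nd, rw3, zero_add, Nat.reduceAdd] at *
  omega

lemma shadow_y0_1 {a d j l q : ℕ} (ha : 3 ≤ a) (hdeg : 0 + j + l = d)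
    (hj : j + 2 ≤ a) (hl : l + 1 ≤ a) (hq : rk a d 0 j < q) (hqn : q ≤ nd a d) (hb : 1 ≤ d ∧ d + 2 ≤ a) :
    rk a (d + 1) 0 (j + 1) < (if q + 1 ≤ d then q + 1 else if q + 1 ≤ 2 * d then q + 2 else q + 3) := by
  obtain ⟨hb1, hb2⟩ := hb
  have e1 : rw3 a d 2 = d - 1 := by unfold rw3; omega
  have e2 : rw3 a d 1 = d := by unfold rw3; omega
  have e3 : rw3 a (d + 1) 2 = d := by unfold rw3; omega
  have e4 : rw3 a (d + 1) 1 = d + 1 := by unfold rw3; omega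
  have e5 : rw3 a d 0 = d + 1 := by unfold rw3; omega
  have e6 : min (a - 1) d = d := by omega
  have e7 : min (a - 1) (d + 1) = d + 1 := by omega
  unfold nd at hqn
  rw [rk_zero, e1, e2, e6] at hq
  rw [e1, e2, e5] at hqn
  rw [rk_zero, e3, e4, e7]
  split_ifs
  all_goals omega

lemma shadow_y0_2 {a d j l q : ℕ} (ha : 3 ≤ a) (hdeg : 0 + j + l = d)
    (hj : j + 2 ≤ a) (hl : l + 1 ≤ a) (hq : rk a d 0 j < q) (hqn : q ≤ nd a d) (hb : 1 ≤ d ∧ d + 1 = a) :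
    rk a (d + 1) 0 (j + 1) < (if q + 1 ≤ d then q + 1 else if q ≠ 3 * d then q + 2 else 3 * d + 1) := by
  simp only [rk_zero, rk_one, rk_two, nd, rw3, zero_add, Nat.reduceAdd] at *
  split_ifs
  all_goals omega

lemma shadow_y0_3 {a d j l q : ℕ} (ha : 3 ≤ a) (hdeg : 0 + j + l = d)
    (hj : j + 2 ≤ a) (hl : l + 1 ≤ a) (hq : rk a d 0 j < q) (hqn : q ≤ nd a d) (hb : d = a) :
    rk a (d + 1) 0 (j + 1) < (if q + 2 ≤ 2 * a then q + 1 else if q + 3 ≤ 3 * a then q else 3 * a - 3) := by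
  simp only [rk_zero, rk_one, rk_two, nd, rw3, zero_add, Nat.reduceAdd] at *
  split_ifs
  all_goals omega

lemma shadow_y0_4 {a d j l q : ℕ} (ha : 3 ≤ a) (hdeg : 0 + j + l = d)
    (hj : j + 2 ≤ a) (hl : l + 1 ≤ a) (hq : rk a d 0 j < q) (hqn : q ≤ nd a d) (hb : a < d ∧ d + 2 ≤ 2 * a) :
    rk a (d + 1) 0 (j + 1) < (if q + d ≤ 2 * a then q else if q + 2 * d ≤ 4 * a then q - 1 else if q < 3 * (2 * a - d) then q - 2 else 3 * (2 * a - d) - 3) := by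
  simp only [rk_zero, rk_one, rk_two, nd, rw3, zero_add, Nat.reduceAdd] at *
  split_ifs
  all_goals omega

lemma shadow_y0_5 {a d j l q : ℕ} (ha : 3 ≤ a) (hdeg : 0 + j + l = d)
    (hj : j + 2 ≤ a) (hl : l + 1 ≤ a) (hq : rk a d 0 j < q) (hqn : q ≤ nd a d) (hb : d + 1 = 2 * a) :
    rk a (d + 1) 0 (j + 1) < 1 := by
  simp only [rk_zero, rk_one, rk_two, nd, rw3, zero_add, Nat.reduceAdd] at *
  omega

lemma shadow_y0_6 {a d j l q : ℕ} (ha : 3 ≤ a) (hdeg : 0 + j + l = d)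
    (hj : j + 2 ≤ a) (hl : l + 1 ≤ a) (hq : rk a d 0 j < q) (hqn : q ≤ nd a d) (hb : 2 * a ≤ d) :
    rk a (d + 1) 0 (j + 1) < 0 := by
  simp only [rk_zero, rk_one, rk_two, nd, rw3, zero_add, Nat.reduceAdd] at *
  omega

lemma shadow_y0 {a d j l q : ℕ} (ha : 3 ≤ a) (hdeg : 0 + j + l = d)
    (hj : j + 2 ≤ a) (hl : l + 1 ≤ a) (hq : rk a d 0 j < q) (hqn : q ≤ nd a d) :
    rk a (d + 1) 0 (j + 1) < tb a d q := by
  have hq1 : 1 ≤ q := by omega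
  refine shadow_cases (P := fun t => rk a (d + 1) 0 (j + 1) < t) ha hq1 ?_ ?_ ?_ ?_ ?_ ?_ ?_
  · exact fun h => shadow_y0_0 ha hdeg hj hl hq hqn h
  · exact fun h h' => shadow_y0_1 ha hdeg hj hl hq hqn ⟨h, h'⟩
  · exact fun h h' => shadow_y0_2 ha hdeg hj hl hq hqn ⟨h, h'⟩
  · exact fun h => shadow_y0_3 ha hdeg hj hl hq hqn h
  · exact fun h h' => shadow_y0_4 ha hdeg hj hl hq hqn ⟨h, h'⟩
  · exact fun h => shadow_y0_5 ha hdeg hj hl hq hqn h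
  · exact fun h => shadow_y0_6 ha hdeg hj hl hq hqn h

lemma shadow_y1_0 {a d j l q : ℕ} (ha : 3 ≤ a) (hdeg : 1 + j + l = d)
    (hj : j + 2 ≤ a) (hl : l + 1 ≤ a) (hq : rk a d 1 j < q) (hqn : q ≤ nd a d) (hb : d = 0) :
    rk a (d + 1) 1 (j + 1) < 3 := by
  simp only [rk_zero, rk_one, rk_two, nd, rw3, zero_add, Nat.reduceAdd] at *
  omega

lemma shadow_y1_1 {a d j l q : ℕ} (ha : 3 ≤ a) (hdeg : 1 + j + l = d)
    (hj : j + 2 ≤ a) (hl : l + 1 ≤ a) (hq : rk a d 1 j < q) (hqn : q ≤ nd a d) (hb : 1 ≤ d ∧ d + 2 ≤ a) :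
    rk a (d + 1) 1 (j + 1) < (if q + 1 ≤ d then q + 1 else if q + 1 ≤ 2 * d then q + 2 else q + 3) := by
  simp only [rk_zero, rk_one, rk_two, nd, rw3, zero_add, Nat.reduceAdd] at *
  split_ifs
  all_goals omega

lemma shadow_y1_2 {a d j l q : ℕ} (ha : 3 ≤ a) (hdeg : 1 + j + l = d)
    (hj : j + 2 ≤ a) (hl : l + 1 ≤ a) (hq : rk a d 1 j < q) (hqn : q ≤ nd a d) (hb : 1 ≤ d ∧ d + 1 = a) :
    rk a (d + 1) 1 (j + 1) < (if q + 1 ≤ d then q + 1 else if q ≠ 3 * d then q + 2 else 3 * d + 1) := by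
  simp only [rk_zero, rk_one, rk_two, nd, rw3, zero_add, Nat.reduceAdd] at *
  split_ifs
  all_goals omega

lemma shadow_y1_3 {a d j l q : ℕ} (ha : 3 ≤ a) (hdeg : 1 + j + l = d)
    (hj : j + 2 ≤ a) (hl : l + 1 ≤ a) (hq : rk a d 1 j < q) (hqn : q ≤ nd a d) (hb : d = a) :
    rk a (d + 1) 1 (j + 1) < (if q + 2 ≤ 2 * a then q + 1 else if q + 3 ≤ 3 * a then q else 3 * a - 3) := by
  simp only [rk_zero, rk_one, rk_two, nd, rw3, zero_add, Nat.reduceAdd] at *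
  split_ifs
  all_goals omega

lemma shadow_y1_4 {a d j l q : ℕ} (ha : 3 ≤ a) (hdeg : 1 + j + l = d)
    (hj : j + 2 ≤ a) (hl : l + 1 ≤ a) (hq : rk a d 1 j < q) (hqn : q ≤ nd a d) (hb : a < d ∧ d + 2 ≤ 2 * a) :
    rk a (d + 1) 1 (j + 1) < (if q + d ≤ 2 * a then q else if q + 2 * d ≤ 4 * a then q - 1 else if q < 3 * (2 * a - d) then q - 2 else 3 * (2 * a - d) - 3) := by
  simp only [rk_zero, rk_one, rk_two, nd, rw3, zero_add, Nat.reduceAdd] at *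
  split_ifs
  all_goals omega

lemma shadow_y1_5 {a d j l q : ℕ} (ha : 3 ≤ a) (hdeg : 1 + j + l = d)
    (hj : j + 2 ≤ a) (hl : l + 1 ≤ a) (hq : rk a d 1 j < q) (hqn : q ≤ nd a d) (hb : d + 1 = 2 * a) :
    rk a (d + 1) 1 (j + 1) < 1 := by
  simp only [rk_zero, rk_one, rk_two, nd, rw3, zero_add, Nat.reduceAdd] at *
  omega

lemma shadow_y1_6 {a d j l q : ℕ} (ha : 3 ≤ a) (hdeg : 1 + j + l = d)
    (hj : j + 2 ≤ a) (hl : l + 1 ≤ a) (hq : rk a d 1 j < q) (hqn : q ≤ nd a d) (hb : 2 * a ≤ d) :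
    rk a (d + 1) 1 (j + 1) < 0 := by
  simp only [rk_zero, rk_one, rk_two, nd, rw3, zero_add, Nat.reduceAdd] at *
  omega

lemma shadow_y1 {a d j l q : ℕ} (ha : 3 ≤ a) (hdeg : 1 + j + l = d)
    (hj : j + 2 ≤ a) (hl : l + 1 ≤ a) (hq : rk a d 1 j < q) (hqn : q ≤ nd a d) :
    rk a (d + 1) 1 (j + 1) < tb a d q := by
  have hq1 : 1 ≤ q := by omega
  refine shadow_cases (P := fun t => rk a (d + 1) 1 (j + 1) < t) ha hq1 ?_ ?_ ?_ ?_ ?_ ?_ ?_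
  · exact fun h => shadow_y1_0 ha hdeg hj hl hq hqn h
  · exact fun h h' => shadow_y1_1 ha hdeg hj hl hq hqn ⟨h, h'⟩
  · exact fun h h' => shadow_y1_2 ha hdeg hj hl hq hqn ⟨h, h'⟩
  · exact fun h => shadow_y1_3 ha hdeg hj hl hq hqn h
  · exact fun h h' => shadow_y1_4 ha hdeg hj hl hq hqn ⟨h, h'⟩
  · exact fun h => shadow_y1_5 ha hdeg hj hl hq hqn h
  · exact fun h => shadow_y1_6 ha hdeg hj hl hq hqn h

lemma shadow_y2_0 {a d j l q : ℕ} (ha : 3 ≤ a) (hdeg : 2 + j + l = d)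
    (hj : j + 2 ≤ a) (hl : l + 1 ≤ a) (hq : rk a d 2 j < q) (hqn : q ≤ nd a d) (hb : d = 0) :
    rk a (d + 1) 2 (j + 1) < 3 := by
  simp only [rk_zero, rk_one, rk_two, nd, rw3, zero_add, Nat.reduceAdd] at *
  omega

lemma shadow_y2_1 {a d j l q : ℕ} (ha : 3 ≤ a) (hdeg : 2 + j + l = d)
    (hj : j + 2 ≤ a) (hl : l + 1 ≤ a) (hq : rk a d 2 j < q) (hqn : q ≤ nd a d) (hb : 1 ≤ d ∧ d + 2 ≤ a) :
    rk a (d + 1) 2 (j + 1) < (if q + 1 ≤ d then q + 1 else if q + 1 ≤ 2 * d then q + 2 else q + 3) := by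
  simp only [rk_zero, rk_one, rk_two, nd, rw3, zero_add, Nat.reduceAdd] at *
  split_ifs
  all_goals omega

lemma shadow_y2_2 {a d j l q : ℕ} (ha : 3 ≤ a) (hdeg : 2 + j + l = d)
    (hj : j + 2 ≤ a) (hl : l + 1 ≤ a) (hq : rk a d 2 j < q) (hqn : q ≤ nd a d) (hb : 1 ≤ d ∧ d + 1 = a) :
    rk a (d + 1) 2 (j + 1) < (if q + 1 ≤ d then q + 1 else if q ≠ 3 * d then q + 2 else 3 * d + 1) := by
  simp only [rk_zero, rk_one, rk_two, nd, rw3, zero_add, Nat.reduceAdd] at *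
  split_ifs
  all_goals omega

lemma shadow_y2_3 {a d j l q : ℕ} (ha : 3 ≤ a) (hdeg : 2 + j + l = d)
    (hj : j + 2 ≤ a) (hl : l + 1 ≤ a) (hq : rk a d 2 j < q) (hqn : q ≤ nd a d) (hb : d = a) :
    rk a (d + 1) 2 (j + 1) < (if q + 2 ≤ 2 * a then q + 1 else if q + 3 ≤ 3 * a then q else 3 * a - 3) := by
  simp only [rk_zero, rk_one, rk_two, nd, rw3, zero_add, Nat.reduceAdd] at *
  split_ifs
  all_goals omega

lemma shadow_y2_4 {a d j l q : ℕ} (ha : 3 ≤ a) (hdeg : 2 + j + l = d)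
    (hj : j + 2 ≤ a) (hl : l + 1 ≤ a) (hq : rk a d 2 j < q) (hqn : q ≤ nd a d) (hb : a < d ∧ d + 2 ≤ 2 * a) :
    rk a (d + 1) 2 (j + 1) < (if q + d ≤ 2 * a then q else if q + 2 * d ≤ 4 * a then q - 1 else if q < 3 * (2 * a - d) then q - 2 else 3 * (2 * a - d) - 3) := by
  simp only [rk_zero, rk_one, rk_two, nd, rw3, zero_add, Nat.reduceAdd] at *
  split_ifs
  all_goals omega

lemma shadow_y2_5 {a d j l q : ℕ} (ha : 3 ≤ a) (hdeg : 2 + j + l = d)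
    (hj : j + 2 ≤ a) (hl : l + 1 ≤ a) (hq : rk a d 2 j < q) (hqn : q ≤ nd a d) (hb : d + 1 = 2 * a) :
    rk a (d + 1) 2 (j + 1) < 1 := by
  simp only [rk_zero, rk_one, rk_two, nd, rw3, zero_add, Nat.reduceAdd] at *
  omega

lemma shadow_y2_6 {a d j l q : ℕ} (ha : 3 ≤ a) (hdeg : 2 + j + l = d)
    (hj : j + 2 ≤ a) (hl : l + 1 ≤ a) (hq : rk a d 2 j < q) (hqn : q ≤ nd a d) (hb : 2 * a ≤ d) :
    rk a (d + 1) 2 (j + 1) < 0 := by
  simp only [rk_zero, rk_one, rk_two, nd, rw3, zero_add, Nat.reduceAdd] at *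
  omega

lemma shadow_y2 {a d j l q : ℕ} (ha : 3 ≤ a) (hdeg : 2 + j + l = d)
    (hj : j + 2 ≤ a) (hl : l + 1 ≤ a) (hq : rk a d 2 j < q) (hqn : q ≤ nd a d) :
    rk a (d + 1) 2 (j + 1) < tb a d q := by
  have hq1 : 1 ≤ q := by omega
  refine shadow_cases (P := fun t => rk a (d + 1) 2 (j + 1) < t) ha hq1 ?_ ?_ ?_ ?_ ?_ ?_ ?_
  · exact fun h => shadow_y2_0 ha hdeg hj hl hq hqn h
  · exact fun h h' => shadow_y2_1 ha hdeg hj hl hq hqn ⟨h, h'⟩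
  · exact fun h h' => shadow_y2_2 ha hdeg hj hl hq hqn ⟨h, h'⟩
  · exact fun h => shadow_y2_3 ha hdeg hj hl hq hqn h
  · exact fun h h' => shadow_y2_4 ha hdeg hj hl hq hqn ⟨h, h'⟩
  · exact fun h => shadow_y2_5 ha hdeg hj hl hq hqn h
  · exact fun h => shadow_y2_6 ha hdeg hj hl hq hqn h

/-- Multiplication by `y`. -/
lemma shadow_y {a d i j l q : ℕ} (ha : 3 ≤ a) (hdeg : i + j + l = d) (hi : i ≤ 2)
    (hj : j + 2 ≤ a) (hl : l + 1 ≤ a) (hq : rk a d i j < q) (hqn : q ≤ nd a d) :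
    rk a (d + 1) i (j + 1) < tb a d q := by
  have hi2 : i = 0 ∨ i = 1 ∨ i = 2 := by omega
  rcases hi2 with rfl | rfl | rfl
  · exact shadow_y0 ha hdeg hj hl hq hqn
  · exact shadow_y1 ha hdeg hj hl hq hqn
  · exact shadow_y2 ha hdeg hj hl hq hqn

lemma shadow_z0_0 {a d j l q : ℕ} (ha : 3 ≤ a) (hdeg : 0 + j + l = d)
    (hj : j + 1 ≤ a) (hl : l + 2 ≤ a) (hq : rk a d 0 j < q) (hqn : q ≤ nd a d) (hb : d = 0) :
    rk a (d + 1) 0 j < 3 := by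
  simp only [rk_zero, rk_one, rk_two, nd, rw3, zero_add, Nat.reduceAdd] at *
  omega

lemma shadow_z0_1 {a d j l q : ℕ} (ha : 3 ≤ a) (hdeg : 0 + j + l = d)
    (hj : j + 1 ≤ a) (hl : l + 2 ≤ a) (hq : rk a d 0 j < q) (hqn : q ≤ nd a d) (hb : 1 ≤ d ∧ d + 2 ≤ a) :
    rk a (d + 1) 0 j < (if q + 1 ≤ d then q + 1 else if q + 1 ≤ 2 * d then q + 2 else q + 3) := by
  obtain ⟨hb1, hb2⟩ := hb
  have e1 : rw3 a d 2 = d - 1 := by unfold rw3; omega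
  have e2 : rw3 a d 1 = d := by unfold rw3; omega
  have e3 : rw3 a (d + 1) 2 = d := by unfold rw3; omega
  have e4 : rw3 a (d + 1) 1 = d + 1 := by unfold rw3; omega
  have e5 : rw3 a d 0 = d + 1 := by unfold rw3; omega
  have e6 : min (a - 1) d = d := by omega
  have e7 : min (a - 1) (d + 1) = d + 1 := by omega
  unfold nd at hqn
  rw [rk_zero, e1, e2, e6] at hq
  rw [e1, e2, e5] at hqn
  rw [rk_zero, e3, e4, e7]
  split_ifs
  all_goals omega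

lemma shadow_z0_2 {a d j l q : ℕ} (ha : 3 ≤ a) (hdeg : 0 + j + l = d)
    (hj : j + 1 ≤ a) (hl : l + 2 ≤ a) (hq : rk a d 0 j < q) (hqn : q ≤ nd a d) (hb : 1 ≤ d ∧ d + 1 = a) :
    rk a (d + 1) 0 j < (if q + 1 ≤ d then q + 1 else if q ≠ 3 * d then q + 2 else 3 * d + 1) := by
  simp only [rk_zero, rk_one, rk_two, nd, rw3, zero_add, Nat.reduceAdd] at *
  split_ifs
  all_goals omega

lemma shadow_z0_3 {a d j l q : ℕ} (ha : 3 ≤ a) (hdeg : 0 + j + l = d)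
    (hj : j + 1 ≤ a) (hl : l + 2 ≤ a) (hq : rk a d 0 j < q) (hqn : q ≤ nd a d) (hb : d = a) :
    rk a (d + 1) 0 j < (if q + 2 ≤ 2 * a then q + 1 else if q + 3 ≤ 3 * a then q else 3 * a - 3) := by
  simp only [rk_zero, rk_one, rk_two, nd, rw3, zero_add, Nat.reduceAdd] at *
  split_ifs
  all_goals omega

lemma shadow_z0_4 {a d j l q : ℕ} (ha : 3 ≤ a) (hdeg : 0 + j + l = d)
    (hj : j + 1 ≤ a) (hl : l + 2 ≤ a) (hq : rk a d 0 j < q) (hqn : q ≤ nd a d) (hb : a < d ∧ d + 2 ≤ 2 * a) :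
    rk a (d + 1) 0 j < (if q + d ≤ 2 * a then q else if q + 2 * d ≤ 4 * a then q - 1 else if q < 3 * (2 * a - d) then q - 2 else 3 * (2 * a - d) - 3) := by
  simp only [rk_zero, rk_one, rk_two, nd, rw3, zero_add, Nat.reduceAdd] at *
  split_ifs
  all_goals omega

lemma shadow_z0_5 {a d j l q : ℕ} (ha : 3 ≤ a) (hdeg : 0 + j + l = d)
    (hj : j + 1 ≤ a) (hl : l + 2 ≤ a) (hq : rk a d 0 j < q) (hqn : q ≤ nd a d) (hb : d + 1 = 2 * a) :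
    rk a (d + 1) 0 j < 1 := by
  simp only [rk_zero, rk_one, rk_two, nd, rw3, zero_add, Nat.reduceAdd] at *
  omega

lemma shadow_z0_6 {a d j l q : ℕ} (ha : 3 ≤ a) (hdeg : 0 + j + l = d)
    (hj : j + 1 ≤ a) (hl : l + 2 ≤ a) (hq : rk a d 0 j < q) (hqn : q ≤ nd a d) (hb : 2 * a ≤ d) :
    rk a (d + 1) 0 j < 0 := by
  simp only [rk_zero, rk_one, rk_two, nd, rw3, zero_add, Nat.reduceAdd] at *
  omega

lemma shadow_z0 {a d j l q : ℕ} (ha : 3 ≤ a) (hdeg : 0 + j + l = d)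
    (hj : j + 1 ≤ a) (hl : l + 2 ≤ a) (hq : rk a d 0 j < q) (hqn : q ≤ nd a d) :
    rk a (d + 1) 0 j < tb a d q := by
  have hq1 : 1 ≤ q := by omega
  refine shadow_cases (P := fun t => rk a (d + 1) 0 j < t) ha hq1 ?_ ?_ ?_ ?_ ?_ ?_ ?_
  · exact fun h => shadow_z0_0 ha hdeg hj hl hq hqn h
  · exact fun h h' => shadow_z0_1 ha hdeg hj hl hq hqn ⟨h, h'⟩
  · exact fun h h' => shadow_z0_2 ha hdeg hj hl hq hqn ⟨h, h'⟩
  · exact fun h => shadow_z0_3 ha hdeg hj hl hq hqn h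
  · exact fun h h' => shadow_z0_4 ha hdeg hj hl hq hqn ⟨h, h'⟩
  · exact fun h => shadow_z0_5 ha hdeg hj hl hq hqn h
  · exact fun h => shadow_z0_6 ha hdeg hj hl hq hqn h

lemma shadow_z1_0 {a d j l q : ℕ} (ha : 3 ≤ a) (hdeg : 1 + j + l = d)
    (hj : j + 1 ≤ a) (hl : l + 2 ≤ a) (hq : rk a d 1 j < q) (hqn : q ≤ nd a d) (hb : d = 0) :
    rk a (d + 1) 1 j < 3 := by
  simp only [rk_zero, rk_one, rk_two, nd, rw3, zero_add, Nat.reduceAdd] at *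
  omega

lemma shadow_z1_1 {a d j l q : ℕ} (ha : 3 ≤ a) (hdeg : 1 + j + l = d)
    (hj : j + 1 ≤ a) (hl : l + 2 ≤ a) (hq : rk a d 1 j < q) (hqn : q ≤ nd a d) (hb : 1 ≤ d ∧ d + 2 ≤ a) :
    rk a (d + 1) 1 j < (if q + 1 ≤ d then q + 1 else if q + 1 ≤ 2 * d then q + 2 else q + 3) := by
  simp only [rk_zero, rk_one, rk_two, nd, rw3, zero_add, Nat.reduceAdd] at *
  split_ifs
  all_goals omega

lemma shadow_z1_2 {a d j l q : ℕ} (ha : 3 ≤ a) (hdeg : 1 + j + l = d)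
    (hj : j + 1 ≤ a) (hl : l + 2 ≤ a) (hq : rk a d 1 j < q) (hqn : q ≤ nd a d) (hb : 1 ≤ d ∧ d + 1 = a) :
    rk a (d + 1) 1 j < (if q + 1 ≤ d then q + 1 else if q ≠ 3 * d then q + 2 else 3 * d + 1) := by
  simp only [rk_zero, rk_one, rk_two, nd, rw3, zero_add, Nat.reduceAdd] at *
  split_ifs
  all_goals omega

lemma shadow_z1_3 {a d j l q : ℕ} (ha : 3 ≤ a) (hdeg : 1 + j + l = d)
    (hj : j + 1 ≤ a) (hl : l + 2 ≤ a) (hq : rk a d 1 j < q) (hqn : q ≤ nd a d) (hb : d = a) :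
    rk a (d + 1) 1 j < (if q + 2 ≤ 2 * a then q + 1 else if q + 3 ≤ 3 * a then q else 3 * a - 3) := by
  simp only [rk_zero, rk_one, rk_two, nd, rw3, zero_add, Nat.reduceAdd] at *
  split_ifs
  all_goals omega

lemma shadow_z1_4 {a d j l q : ℕ} (ha : 3 ≤ a) (hdeg : 1 + j + l = d)
    (hj : j + 1 ≤ a) (hl : l + 2 ≤ a) (hq : rk a d 1 j < q) (hqn : q ≤ nd a d) (hb : a < d ∧ d + 2 ≤ 2 * a) :
    rk a (d + 1) 1 j < (if q + d ≤ 2 * a then q else if q + 2 * d ≤ 4 * a then q - 1 else if q < 3 * (2 * a - d) then q - 2 else 3 * (2 * a - d) - 3) := by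
  simp only [rk_zero, rk_one, rk_two, nd, rw3, zero_add, Nat.reduceAdd] at *
  split_ifs
  all_goals omega

lemma shadow_z1_5 {a d j l q : ℕ} (ha : 3 ≤ a) (hdeg : 1 + j + l = d)
    (hj : j + 1 ≤ a) (hl : l + 2 ≤ a) (hq : rk a d 1 j < q) (hqn : q ≤ nd a d) (hb : d + 1 = 2 * a) :
    rk a (d + 1) 1 j < 1 := by
  simp only [rk_zero, rk_one, rk_two, nd, rw3, zero_add, Nat.reduceAdd] at *
  omega

lemma shadow_z1_6 {a d j l q : ℕ} (ha : 3 ≤ a) (hdeg : 1 + j + l = d)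
    (hj : j + 1 ≤ a) (hl : l + 2 ≤ a) (hq : rk a d 1 j < q) (hqn : q ≤ nd a d) (hb : 2 * a ≤ d) :
    rk a (d + 1) 1 j < 0 := by
  simp only [rk_zero, rk_one, rk_two, nd, rw3, zero_add, Nat.reduceAdd] at *
  omega

lemma shadow_z1 {a d j l q : ℕ} (ha : 3 ≤ a) (hdeg : 1 + j + l = d)
    (hj : j + 1 ≤ a) (hl : l + 2 ≤ a) (hq : rk a d 1 j < q) (hqn : q ≤ nd a d) :
    rk a (d + 1) 1 j < tb a d q := by
  have hq1 : 1 ≤ q := by omega
  refine shadow_cases (P := fun t => rk a (d + 1) 1 j < t) ha hq1 ?_ ?_ ?_ ?_ ?_ ?_ ?_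
  · exact fun h => shadow_z1_0 ha hdeg hj hl hq hqn h
  · exact fun h h' => shadow_z1_1 ha hdeg hj hl hq hqn ⟨h, h'⟩
  · exact fun h h' => shadow_z1_2 ha hdeg hj hl hq hqn ⟨h, h'⟩
  · exact fun h => shadow_z1_3 ha hdeg hj hl hq hqn h
  · exact fun h h' => shadow_z1_4 ha hdeg hj hl hq hqn ⟨h, h'⟩
  · exact fun h => shadow_z1_5 ha hdeg hj hl hq hqn h
  · exact fun h => shadow_z1_6 ha hdeg hj hl hq hqn h

lemma shadow_z2_0 {a d j l q : ℕ} (ha : 3 ≤ a) (hdeg : 2 + j + l = d)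
    (hj : j + 1 ≤ a) (hl : l + 2 ≤ a) (hq : rk a d 2 j < q) (hqn : q ≤ nd a d) (hb : d = 0) :
    rk a (d + 1) 2 j < 3 := by
  simp only [rk_zero, rk_one, rk_two, nd, rw3, zero_add, Nat.reduceAdd] at *
  omega

lemma shadow_z2_1 {a d j l q : ℕ} (ha : 3 ≤ a) (hdeg : 2 + j + l = d)
    (hj : j + 1 ≤ a) (hl : l + 2 ≤ a) (hq : rk a d 2 j < q) (hqn : q ≤ nd a d) (hb : 1 ≤ d ∧ d + 2 ≤ a) :
    rk a (d + 1) 2 j < (if q + 1 ≤ d then q + 1 else if q + 1 ≤ 2 * d then q + 2 else q + 3) := by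
  simp only [rk_zero, rk_one, rk_two, nd, rw3, zero_add, Nat.reduceAdd] at *
  split_ifs
  all_goals omega

lemma shadow_z2_2 {a d j l q : ℕ} (ha : 3 ≤ a) (hdeg : 2 + j + l = d)
    (hj : j + 1 ≤ a) (hl : l + 2 ≤ a) (hq : rk a d 2 j < q) (hqn : q ≤ nd a d) (hb : 1 ≤ d ∧ d + 1 = a) :
    rk a (d + 1) 2 j < (if q + 1 ≤ d then q + 1 else if q ≠ 3 * d then q + 2 else 3 * d + 1) := by
  simp only [rk_zero, rk_one, rk_two, nd, rw3, zero_add, Nat.reduceAdd] at *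
  split_ifs
  all_goals omega

lemma shadow_z2_3 {a d j l q : ℕ} (ha : 3 ≤ a) (hdeg : 2 + j + l = d)
    (hj : j + 1 ≤ a) (hl : l + 2 ≤ a) (hq : rk a d 2 j < q) (hqn : q ≤ nd a d) (hb : d = a) :
    rk a (d + 1) 2 j < (if q + 2 ≤ 2 * a then q + 1 else if q + 3 ≤ 3 * a then q else 3 * a - 3) := by
  simp only [rk_zero, rk_one, rk_two, nd, rw3, zero_add, Nat.reduceAdd] at *
  split_ifs
  all_goals omega

lemma shadow_z2_4 {a d j l q : ℕ} (ha : 3 ≤ a) (hdeg : 2 + j + l = d)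
    (hj : j + 1 ≤ a) (hl : l + 2 ≤ a) (hq : rk a d 2 j < q) (hqn : q ≤ nd a d) (hb : a < d ∧ d + 2 ≤ 2 * a) :
    rk a (d + 1) 2 j < (if q + d ≤ 2 * a then q else if q + 2 * d ≤ 4 * a then q - 1 else if q < 3 * (2 * a - d) then q - 2 else 3 * (2 * a - d) - 3) := by
  simp only [rk_zero, rk_one, rk_two, nd, rw3, zero_add, Nat.reduceAdd] at *
  split_ifs
  all_goals omega

lemma shadow_z2_5 {a d j l q : ℕ} (ha : 3 ≤ a) (hdeg : 2 + j + l = d)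
    (hj : j + 1 ≤ a) (hl : l + 2 ≤ a) (hq : rk a d 2 j < q) (hqn : q ≤ nd a d) (hb : d + 1 = 2 * a) :
    rk a (d + 1) 2 j < 1 := by
  simp only [rk_zero, rk_one, rk_two, nd, rw3, zero_add, Nat.reduceAdd] at *
  omega

lemma shadow_z2_6 {a d j l q : ℕ} (ha : 3 ≤ a) (hdeg : 2 + j + l = d)
    (hj : j + 1 ≤ a) (hl : l + 2 ≤ a) (hq : rk a d 2 j < q) (hqn : q ≤ nd a d) (hb : 2 * a ≤ d) :
    rk a (d + 1) 2 j < 0 := by
  simp only [rk_zero, rk_one, rk_two, nd, rw3, zero_add, Nat.reduceAdd] at *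
  omega

lemma shadow_z2 {a d j l q : ℕ} (ha : 3 ≤ a) (hdeg : 2 + j + l = d)
    (hj : j + 1 ≤ a) (hl : l + 2 ≤ a) (hq : rk a d 2 j < q) (hqn : q ≤ nd a d) :
    rk a (d + 1) 2 j < tb a d q := by
  have hq1 : 1 ≤ q := by omega
  refine shadow_cases (P := fun t => rk a (d + 1) 2 j < t) ha hq1 ?_ ?_ ?_ ?_ ?_ ?_ ?_
  · exact fun h => shadow_z2_0 ha hdeg hj hl hq hqn h
  · exact fun h h' => shadow_z2_1 ha hdeg hj hl hq hqn ⟨h, h'⟩
  · exact fun h h' => shadow_z2_2 ha hdeg hj hl hq hqn ⟨h, h'⟩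
  · exact fun h => shadow_z2_3 ha hdeg hj hl hq hqn h
  · exact fun h h' => shadow_z2_4 ha hdeg hj hl hq hqn ⟨h, h'⟩
  · exact fun h => shadow_z2_5 ha hdeg hj hl hq hqn h
  · exact fun h => shadow_z2_6 ha hdeg hj hl hq hqn h

/-- Multiplication by `z`. -/
lemma shadow_z {a d i j l q : ℕ} (ha : 3 ≤ a) (hdeg : i + j + l = d) (hi : i ≤ 2)
    (hj : j + 1 ≤ a) (hl : l + 2 ≤ a) (hq : rk a d i j < q) (hqn : q ≤ nd a d) :
    rk a (d + 1) i j < tb a d q := by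
  have hi2 : i = 0 ∨ i = 1 ∨ i = 2 := by omega
  rcases hi2 with rfl | rfl | rfl
  · exact shadow_z0 ha hdeg hj hl hq hqn
  · exact shadow_z1 ha hdeg hj hl hq hqn
  · exact shadow_z2 ha hdeg hj hl hq hqn

end Vale.Agent.Lib.P200
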