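import Vale.Agent.Lib.P200.Pair

/-!
# Passing to an extension field
-/

namespace Vale.Agent.Lib.P200

open MvPolynomial Module

variable {K L : Type*} [Field K] [Field L] [Algebra K L]

/-- The inclusion of polynomial rings. -/
noncomputable abbrev incl (K L : Type*) [Field K] [Field L] [Algebra K L] : Sr K →+* Sr L :=
  MvPolynomial.map (algebraMap K L)

/-- Apply a `K`-linear functional of `L` to all coefficients. -/
noncomputable def psi (φ : L →ₗ[K] K) (u : Sr L) : Sr K :=
  ∑ m ∈ u.support, monomial m (φ (coeff m u))

lemma coeff_psi (φ : L →ₗ[K] K) (u : Sr L) (n : Fin 3 →₀ ℕ) : coeff n (psi φ u) = φ (coeff n u) := by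
  classical
  unfold psi
  rw [coeff_sum]
  simp only [coeff_monomial]
  rw [Finset.sum_ite_eq']
  split_ifs with h
  · rfl
  · rw [notMem_support_iff.mp h, map_zero]

lemma psi_add (φ : L →ₗ[K] K) (u v : Sr L) : psi φ (u + v) = psi φ u + psi φ v := by
  ext n
  simp [coeff_psi]

lemma psi_zero (φ : L →ₗ[K] K) : psi φ (0 : Sr L) = 0 := by
  ext n
  simp [coeff_psi]

lemma psi_incl_mul (φ : L →ₗ[K] K) (r : Sr K) (u : Sr L) :
    psi φ (incl K L r * u) = r * psi φ u := by
  ext n
  rw [coeff_psi, coeff_mul, coeff_mul, map_sum]
  apply Finset.sum_congr rfl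
  intro x _
  rw [coeff_map, coeff_psi, ← Algebra.smul_def, map_smul, smul_eq_mul]

lemma psi_C_mul (φ : L →ₗ[K] K) (l : L) (u : Sr L) :
    psi φ (C l * u) = psi (φ.comp (LinearMap.mulLeft K l)) u := by
  ext n
  simp [coeff_psi, coeff_C_mul]

lemma psi_C (φ : L →ₗ[K] K) (l : L) : psi φ (C l : Sr L) = C (φ l) := by
  ext n
  rw [coeff_psi, coeff_C, coeff_C]
  split_ifs
  · rfl
  · exact map_zero φ

/-- Reconstruction from coordinates. -/
lemma exists_recon (u : Sr L) :
    ∃ (s : Finset (Basis.ofVectorSpaceIndex K L)),
      u = ∑ β ∈ s, C (Basis.ofVectorSpace K L β) *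
        incl K L (psi ((Basis.ofVectorSpace K L).coord β) u) := by
  classical
  set b := Basis.ofVectorSpace K L with hb
  refine ⟨u.support.biUnion (fun m => (b.repr (coeff m u)).support), ?_⟩
  ext n
  rw [coeff_sum]
  simp only [coeff_C_mul, coeff_map, coeff_psi]
  by_cases hn : n ∈ u.support
  · have hsub : (b.repr (coeff n u)).support ⊆
        u.support.biUnion (fun m => (b.repr (coeff m u)).support) :=
      Finset.subset_biUnion_of_mem (fun m => (b.repr (coeff m u)).support) hn
    have h1 := b.linearCombination_repr (coeff n u)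
    rw [Finsupp.linearCombination_apply, Finsupp.sum_of_support_subset _ hsub _ (by simp)] at h1
    nth_rewrite 1 [← h1]
    apply Finset.sum_congr rfl
    intro β _
    rw [Algebra.smul_def, mul_comm]
    rfl
  · have h0 : coeff n u = 0 := notMem_support_iff.mp hn
    rw [h0]
    simp

lemma forall_psi_iff {I : Ideal (Sr K)} {u : Sr L} :
    u ∈ I.map (incl K L) ↔ ∀ φ : L →ₗ[K] K, psi φ u ∈ I := by
  constructor
  · intro hu
    unfold Ideal.map at hu
    induction hu using Submodule.span_induction with
    | mem x hx =>
      obtain ⟨i, hi, rfl⟩ := hx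
      intro φ
      have : incl K L i = incl K L i * 1 := (mul_one _).symm
      rw [this, psi_incl_mul]
      exact I.mul_mem_right _ hi
    | zero =>
      intro φ
      rw [psi_zero]
      exact I.zero_mem
    | add x y _ _ hx hy =>
      intro φ
      rw [psi_add]
      exact I.add_mem (hx φ) (hy φ)
    | smul a x _ hx =>
      rw [smul_eq_mul]
      induction a using MvPolynomial.induction_on' with
      | monomial m l =>
        intro φ
        have he : (monomial m l : Sr L) = C l * incl K L (monomial m 1) := by
          rw [map_monomial, map_one, C_mul_monomial, mul_one]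
        rw [he, mul_assoc, psi_C_mul, psi_incl_mul]
        exact I.mul_mem_left _ (hx _)
      | add p q hp hq =>
        intro φ
        rw [add_mul, psi_add]
        exact I.add_mem (hp φ) (hq φ)
  · intro h
    obtain ⟨s, hs⟩ := exists_recon (K := K) u
    rw [hs]
    apply Ideal.sum_mem
    intro β _
    exact Ideal.mul_mem_left _ _ (Ideal.mem_map_of_mem _ (h _))

lemma incl_injective : Function.Injective (incl K L) :=
  map_injective _ (algebraMap K L).injective

lemma regular_incl {I : Ideal (Sr K)} {g : Sr K} (hg : ∀ r, g * r ∈ I → r ∈ I) (u : Sr L)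
    (hu : incl K L g * u ∈ I.map (incl K L)) : u ∈ I.map (incl K L) := by
  rw [forall_psi_iff] at hu ⊢
  intro φ
  apply hg
  rw [← psi_incl_mul]
  exact hu φ

lemma psi_isHomogeneous (φ : L →ₗ[K] K) {u : Sr L} {d : ℕ} (hu : u.IsHomogeneous d) :
    (psi φ u).IsHomogeneous d := by
  intro m hm
  apply hu
  rw [coeff_psi] at hm
  intro h0
  apply hm
  rw [h0, map_zero]

/-- Slices have the same dimension after extending the field. -/
theorem finrank_slice_map (I : Ideal (Sr K)) (d : ℕ) :
    finrank L (slice (I.map (incl K L)) d) = finrank K (slice I d) := by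
  classical
  have hfd : FiniteDimensional K (slice I d) :=
    Submodule.finiteDimensional_of_le (slice_le_Sd I d)
  set B := Module.finBasis K (slice I d) with hB
  set v : Fin (finrank K (slice I d)) → Sr L := fun j => incl K L (B j : Sr K) with hv
  have hli : LinearIndependent L v := by
    rw [Fintype.linearIndependent_iff]
    intro l hl j
    by_contra hne
    obtain ⟨φ, hφ⟩ : ∃ φ : L →ₗ[K] K, φ (l j) ≠ 0 := by
      by_contra hcon
      push Not at hcon
      exact hne ((Module.forall_dual_apply_eq_zero_iff K (l j)).mp hcon)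
    have h1 : ∑ i, φ (l i) • (B i) = 0 := by
      apply Subtype.ext
      have h2 := congrArg (psi φ) hl
      rw [psi_zero] at h2
      have h3 : ∀ (s : Finset (Fin (finrank K (slice I d)))),
          psi φ (∑ i ∈ s, l i • v i) = ∑ i ∈ s, φ (l i) • (B i : Sr K) := by
        intro s
        induction s using Finset.induction_on with
        | empty => simp [psi_zero]
        | insert a s ha ih =>
          rw [Finset.sum_insert ha, Finset.sum_insert ha, psi_add, ih]
          congr 1
          rw [smul_eq_C_mul, hv]
          simp only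
          rw [mul_comm, psi_incl_mul, psi_C, smul_eq_C_mul, mul_comm]
      rw [h3] at h2
      simpa using h2
    have h4 := (Fintype.linearIndependent_iff.mp B.linearIndependent) (fun i => φ (l i)) h1 j
    exact hφ h4
  have hspan : slice (I.map (incl K L)) d = Submodule.span L (Set.range v) := by
    apply le_antisymm
    · intro u hu
      obtain ⟨s, hs⟩ := exists_recon (K := K) u
      rw [hs]
      apply Submodule.sum_mem
      intro β _
      rw [← smul_eq_C_mul]
      apply Submodule.smul_mem
      set φ := (Basis.ofVectorSpace K L).coord β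
      have hmem : psi φ u ∈ slice I d :=
        ⟨(forall_psi_iff.mp hu.1) φ, psi_isHomogeneous φ hu.2⟩
      have hrep := B.sum_repr ⟨psi φ u, hmem⟩
      have hrep' : psi φ u = ∑ i, (B.repr ⟨psi φ u, hmem⟩ i) • (B i : Sr K) := by
        have := congrArg Subtype.val hrep
        simp only [Submodule.coe_sum, Submodule.coe_smul] at this
        exact this.symm
      rw [hrep', map_sum]
      apply Submodule.sum_mem
      intro i _
      have he : incl K L ((B.repr ⟨psi φ u, hmem⟩ i) • (B i : Sr K)) =
          (algebraMap K L (B.repr ⟨psi φ u, hmem⟩ i)) • v i := by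
        rw [smul_eq_C_mul, map_mul, smul_eq_C_mul, map_C]
      rw [he]
      exact Submodule.smul_mem _ _ (Submodule.subset_span ⟨i, rfl⟩)
    · rw [Submodule.span_le]
      rintro _ ⟨j, rfl⟩
      have hj := (B j).2
      exact ⟨Ideal.mem_map_of_mem _ hj.1, hj.2.map _⟩
  rw [hspan, finrank_span_eq_card hli]
  simp

lemma map_three (f g h : Sr K) :
    (Ideal.span {f} ⊔ Ideal.span {g} ⊔ Ideal.span {h} : Ideal (Sr K)).map (incl K L) =
      Ideal.span {incl K L f} ⊔ Ideal.span {incl K L g} ⊔ Ideal.span {incl K L h} := by
  rw [Ideal.map_sup, Ideal.map_sup, Ideal.map_span, Ideal.map_span, Ideal.map_span,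
    Set.image_singleton, Set.image_singleton, Set.image_singleton]

lemma map_two (f g : Sr K) :
    (Ideal.span {f} ⊔ Ideal.span {g} : Ideal (Sr K)).map (incl K L) =
      Ideal.span {incl K L f} ⊔ Ideal.span {incl K L g} := by
  rw [Ideal.map_sup, Ideal.map_span, Ideal.map_span, Set.image_singleton, Set.image_singleton]

lemma map_one' (f : Sr K) :
    (Ideal.span {f} : Ideal (Sr K)).map (incl K L) = Ideal.span {incl K L f} := by
  rw [Ideal.map_span, Set.image_singleton]

/-- A regular sequence stays regular over an extension field. -/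
lemma RegSeq.map {f g h : Sr K} {a : ℕ} (R : RegSeq f g h a) :
    RegSeq (incl K L f) (incl K L g) (incl K L h) a where
  ht := R.ht
  hf := R.hf.map _
  f0 := by
    intro h0
    apply R.f0
    apply incl_injective (L := L)
    rw [h0, map_zero]
  hv := R.hv.map _
  hw := R.hw.map _
  rv := by
    intro r hr
    rw [← map_one' (K := K) f] at hr ⊢
    exact regular_incl R.rv r hr
  rw := by
    intro r hr
    rw [← map_two (K := K) f g] at hr ⊢
    exact regular_incl R.rw r hr

/-- The table, for every homogeneous ideal containing the complete intersection, over any field. -/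
theorem RegSeq.table_general {K : Type*} [Field K] {f g h : Sr K} {a : ℕ} (R : RegSeq f g h a)
    (ha : 3 ≤ a) {I : Ideal (Sr K)}
    (hI : Ideal.span {f} ⊔ Ideal.span {g} ⊔ Ideal.span {h} ≤ I) (d : ℕ) :
    tb a d (Nd I d - Nd (Ideal.span {f} ⊔ Ideal.span {g} ⊔ Ideal.span {h}) d) ≤
      Nd I (d + 1) - Nd (Ideal.span {f} ⊔ Ideal.span {g} ⊔ Ideal.span {h}) (d + 1) := by
  let L := AlgebraicClosure K
  have R' : RegSeq (incl K L f) (incl K L g) (incl K L h) a := R.map
  have hI' : Ideal.span {incl K L f} ⊔ Ideal.span {incl K L g} ⊔ Ideal.span {incl K L h} ≤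
      I.map (incl K L) := by
    rw [← map_three]
    exact Ideal.map_mono hI
  have ht := R'.table ha hI' d
  have e1 : ∀ n, finrank L (slice (I.map (incl K L)) n) = Nd I n :=
    fun n => finrank_slice_map I n
  have e2 : ∀ n, Nd (Ideal.span {incl K L f} ⊔ Ideal.span {incl K L g} ⊔ Ideal.span {incl K L h}) n =
      Nd (Ideal.span {f} ⊔ Ideal.span {g} ⊔ Ideal.span {h}) n := by
    intro n
    rw [← map_three]
    exact finrank_slice_map _ n
  unfold qd at ht
  rw [e1, e1, e2, e2] at ht
  exact ht

end Vale.Agent.Lib.P200
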