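import Mathlib

/-!
# Basic graded algebra for `K[x,y,z]`: helper lemmas for the EGH hand-in.
-/

namespace Vale.Agent.Lib.P200

open MvPolynomial Module

variable {K : Type*} [Field K]

/-- The polynomial ring in three variables. -/
abbrev Sr (K : Type*) [Field K] := MvPolynomial (Fin 3) K

/-- The degree `d` part of `K[x,y,z]`. -/
abbrev Sd (K : Type*) [Field K] (d : ℕ) : Submodule K (Sr K) := homogeneousSubmodule (Fin 3) K d

lemma mem_Sd {d : ℕ} {u : Sr K} : u ∈ Sd K d ↔ u.IsHomogeneous d := Iff.rfl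

instance finiteDimensional_Sd (d : ℕ) : FiniteDimensional K (Sd K d) := by
  have := homogeneousSubmodule_fg (σ := Fin 3) (R := K) d
  exact Module.Finite.iff_fg.mpr this

lemma finrank_Sd (d : ℕ) : finrank K (Sd K d) = (d + 1) * (d + 2) / 2 := by
  classical
  have h1 : (Sd K d) = restrictSupport K {m : Fin 3 →₀ ℕ | m.degree = d} :=
    homogeneousSubmodule_eq_finsupp_supported (Fin 3) K d
  have hfin : ({m : Fin 3 →₀ ℕ | m.degree = d}) = ↑((Finset.univ : Finset (Fin 3)).finsuppAntidiag d) := by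
    ext m
    simp [Finset.mem_finsuppAntidiag, Finsupp.degree_eq_sum]
  rw [h1, hfin]
  rw [finrank_eq_card_basis (basisRestrictSupport K _)]
  simp only [Finset.coe_sort_coe, Fintype.card_coe]
  rw [Finset.card_finsuppAntidiag_nat_eq_choose]
  simp only [Finset.card_univ, Fintype.card_fin]
  rw [show 3 + d - 1 = d + 2 by omega]
  rw [show (d + 2).choose d = (d + 2).choose 2 by
    rw [← Nat.choose_symm_of_eq_add (show d + 2 = d + 2 from rfl)]]
  rw [Nat.choose_two_right]
  rw [show d + 2 - 1 = d + 1 by omega]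
  rw [Nat.mul_comm]


lemma homogeneousComponent_mul_left {φ : Sr K} {δ : ℕ} (hφ : φ.IsHomogeneous δ) (n : ℕ) (r : Sr K) :
    homogeneousComponent (δ + n) (φ * r) = φ * homogeneousComponent n r := by
  induction r using MvPolynomial.induction_on' with
  | monomial m c =>
    have h1 : (monomial m c : Sr K).IsHomogeneous m.degree := isHomogeneous_monomial c rfl
    have h2 : (φ * monomial m c).IsHomogeneous (δ + m.degree) := hφ.mul h1
    rw [homogeneousComponent_of_mem (h2 : _ ∈ homogeneousSubmodule (Fin 3) K _)]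
    rw [homogeneousComponent_of_mem (h1 : _ ∈ homogeneousSubmodule (Fin 3) K _)]
    by_cases h : n = m.degree
    · rw [if_pos (by omega), if_pos h]
    · rw [if_neg (by omega), if_neg h, mul_zero]
  | add p q hp hq =>
    rw [mul_add, map_add, map_add, hp, hq, mul_add]

lemma homogeneousComponent_mul_left_of_lt {φ : Sr K} {δ : ℕ} (hφ : φ.IsHomogeneous δ) {d : ℕ}
    (hd : d < δ) (r : Sr K) : homogeneousComponent d (φ * r) = 0 := by
  induction r using MvPolynomial.induction_on' with
  | monomial m c =>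
    have h1 : (monomial m c : Sr K).IsHomogeneous m.degree := isHomogeneous_monomial c rfl
    have h2 : (φ * monomial m c).IsHomogeneous (δ + m.degree) := hφ.mul h1
    rw [homogeneousComponent_of_mem (h2 : _ ∈ homogeneousSubmodule (Fin 3) K _)]
    rw [if_neg (by omega)]
  | add p q hp hq =>
    rw [mul_add, map_add, hp, hq, add_zero]

/-- The grading homomorphism `u(x) ↦ u(T x)` to polynomials in `T`. -/
noncomputable def gradeHom (K : Type*) [Field K] : Sr K →ₐ[K] Polynomial (Sr K) :=
  aeval (fun i => Polynomial.C (X i) * Polynomial.X)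

lemma gradeHom_monomial (m : Fin 3 →₀ ℕ) (c : K) :
    gradeHom K (monomial m c) = Polynomial.C (monomial m c) * Polynomial.X ^ m.degree := by
  classical
  unfold gradeHom
  rw [aeval_monomial]
  simp only [Finsupp.prod, mul_pow, Finset.prod_mul_distrib, Finset.prod_pow_eq_pow_sum]
  have h1 : (∏ x ∈ m.support, (Polynomial.C (X x) : Polynomial (Sr K)) ^ m x)
      = Polynomial.C (∏ x ∈ m.support, (X x : Sr K) ^ m x) := by
    rw [map_prod]
    exact Finset.prod_congr rfl (fun x _ => by rw [map_pow])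
  rw [h1, Finsupp.degree_apply]
  rw [← mul_assoc]
  congr 1
  have h2 : (algebraMap K (Polynomial (Sr K))) c = Polynomial.C (C c) := rfl
  rw [h2, ← Polynomial.C_mul]
  congr 1
  rw [monomial_eq (s := m) (a := c), Finsupp.prod]

lemma coeff_gradeHom (u : Sr K) (j : ℕ) :
    (gradeHom K u).coeff j = homogeneousComponent j u := by
  induction u using MvPolynomial.induction_on' with
  | monomial m c =>
    rw [gradeHom_monomial, Polynomial.coeff_C_mul, Polynomial.coeff_X_pow]
    have h1 : (monomial m c : Sr K).IsHomogeneous m.degree := isHomogeneous_monomial c rfl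
    rw [homogeneousComponent_of_mem (h1 : _ ∈ homogeneousSubmodule (Fin 3) K _)]
    by_cases h : j = m.degree
    · simp [h]
    · simp [h]
  | add p q hp hq =>
    rw [map_add, Polynomial.coeff_add, hp, hq, map_add]

/-- A factor of a nonzero homogeneous polynomial is homogeneous. -/
lemma isHomogeneous_of_mul {u v : Sr K} {n : ℕ} (h : (u * v).IsHomogeneous n) (hne : u * v ≠ 0) :
    ∃ m, u.IsHomogeneous m := by
  have hu : u ≠ 0 := left_ne_zero_of_mul hne
  have hv : v ≠ 0 := right_ne_zero_of_mul hne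
  have hgu : gradeHom K u ≠ 0 := by
    intro h0
    apply hu
    rw [← sum_homogeneousComponent u]
    apply Finset.sum_eq_zero
    intro i _
    rw [← coeff_gradeHom, h0, Polynomial.coeff_zero]
  have hgv : gradeHom K v ≠ 0 := by
    intro h0
    apply hv
    rw [← sum_homogeneousComponent v]
    apply Finset.sum_eq_zero
    intro i _
    rw [← coeff_gradeHom, h0, Polynomial.coeff_zero]
  have hmul : gradeHom K (u * v) = gradeHom K u * gradeHom K v := map_mul _ _ _
  have hcoeff : ∀ j, j ≠ n → (gradeHom K (u * v)).coeff j = 0 := by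
    intro j hj
    rw [coeff_gradeHom, homogeneousComponent_of_mem (h : _ ∈ homogeneousSubmodule (Fin 3) K _),
      if_neg hj]
  have hn : (gradeHom K (u * v)).coeff n ≠ 0 := by
    rw [coeff_gradeHom, homogeneousComponent_of_mem (h : _ ∈ homogeneousSubmodule (Fin 3) K _),
      if_pos rfl]
    exact hne
  have hp : gradeHom K (u * v) ≠ 0 := by
    intro h0
    rw [h0, Polynomial.coeff_zero] at hn
    exact hn rfl
  have hdeg : (gradeHom K (u * v)).natDegree = n := by
    apply le_antisymm
    · rw [Polynomial.natDegree_le_iff_coeff_eq_zero]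
      intro j hj
      exact hcoeff j (by omega)
    · exact Polynomial.le_natDegree_of_ne_zero hn
  have htr : (gradeHom K (u * v)).natTrailingDegree = n := by
    apply le_antisymm
    · exact Polynomial.natTrailingDegree_le_of_ne_zero hn
    · exact Polynomial.le_natTrailingDegree hp (fun j hj => hcoeff j (by omega))
  rw [hmul, Polynomial.natDegree_mul hgu hgv] at hdeg
  rw [hmul, Polynomial.natTrailingDegree_mul hgu hgv] at htr
  have h1 := Polynomial.natTrailingDegree_le_natDegree (gradeHom K u)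
  have h2 := Polynomial.natTrailingDegree_le_natDegree (gradeHom K v)
  have h3 : (gradeHom K u).natDegree = (gradeHom K u).natTrailingDegree := by omega
  refine ⟨(gradeHom K u).natDegree, ?_⟩
  have : ∀ j, j ≠ (gradeHom K u).natDegree → homogeneousComponent j u = 0 := by
    intro j hj
    rw [← coeff_gradeHom]
    by_cases hlt : j < (gradeHom K u).natDegree
    · rw [h3] at hlt
      exact Polynomial.coeff_eq_zero_of_lt_natTrailingDegree hlt
    · exact Polynomial.coeff_eq_zero_of_natDegree_lt (by omega)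
  have hu2 : u = homogeneousComponent (gradeHom K u).natDegree u := by
    conv_lhs => rw [← sum_homogeneousComponent u]
    by_cases hmem : (gradeHom K u).natDegree ∈ Finset.range (u.totalDegree + 1)
    · rw [Finset.sum_eq_single_of_mem _ hmem]
      intro b _ hb
      exact this b hb
    · rw [Finset.sum_eq_zero]
      · rw [homogeneousComponent_eq_zero]
        simpa [Nat.lt_succ_iff] using hmem
      · intro b hb
        apply this
        intro hbeq
        rw [hbeq] at hb
        exact hmem hb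
  have hfin := homogeneousComponent_isHomogeneous (gradeHom K u).natDegree u
  rwa [← hu2] at hfin


/-! ### Homogeneous ideals and their graded pieces -/

/-- A homogeneous ideal, stated elementwise. -/
def IsHomog (I : Ideal (Sr K)) : Prop := ∀ u ∈ I, ∀ d, homogeneousComponent d u ∈ I

lemma isHomog_bot : IsHomog (⊥ : Ideal (Sr K)) := by
  intro u hu d
  rw [Ideal.mem_bot] at hu
  simp [hu]

lemma mem_sup_span_iff {I : Ideal (Sr K)} {φ u : Sr K} :
    u ∈ I ⊔ Ideal.span {φ} ↔ ∃ r, u - φ * r ∈ I := by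
  rw [Submodule.mem_sup]
  constructor
  · rintro ⟨i, hi, j, hj, rfl⟩
    obtain ⟨r, rfl⟩ := Ideal.mem_span_singleton'.mp hj
    refine ⟨r, ?_⟩
    have : i + r * φ - φ * r = i := by ring
    rwa [this]
  · rintro ⟨r, hr⟩
    refine ⟨_, hr, φ * r, Ideal.mul_mem_right _ _ (Ideal.mem_span_singleton_self φ), by ring⟩

lemma IsHomog.sup_span {I : Ideal (Sr K)} (hI : IsHomog I) {φ : Sr K} {δ : ℕ}
    (hφ : φ.IsHomogeneous δ) : IsHomog (I ⊔ Ideal.span {φ}) := by
  intro u hu d
  obtain ⟨r, hr⟩ := mem_sup_span_iff.mp hu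
  rw [mem_sup_span_iff]
  by_cases hd : δ ≤ d
  · obtain ⟨n, rfl⟩ := Nat.exists_eq_add_of_le hd
    refine ⟨homogeneousComponent n r, ?_⟩
    have := hI _ hr (δ + n)
    rwa [map_sub, homogeneousComponent_mul_left hφ] at this
  · refine ⟨0, ?_⟩
    have := hI _ hr d
    rwa [map_sub, homogeneousComponent_mul_left_of_lt hφ (by omega), sub_zero, ← sub_zero (homogeneousComponent d u),
      ← mul_zero φ] at this

/-- The degree `d` part of an ideal. -/
noncomputable def slice (I : Ideal (Sr K)) (d : ℕ) : Submodule K (Sr K) := (I.restrictScalars K) ⊓ Sd K d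

lemma mem_slice {I : Ideal (Sr K)} {d : ℕ} {u : Sr K} :
    u ∈ slice I d ↔ u ∈ I ∧ u.IsHomogeneous d := Iff.rfl

lemma slice_le_Sd (I : Ideal (Sr K)) (d : ℕ) : slice I d ≤ Sd K d := inf_le_right

instance finiteDimensional_slice (I : Ideal (Sr K)) (d : ℕ) : FiniteDimensional K (slice I d) :=
  Submodule.finiteDimensional_of_le (slice_le_Sd I d)

lemma slice_mono {I J : Ideal (Sr K)} (h : I ≤ J) (d : ℕ) : slice I d ≤ slice J d :=
  fun _ hu => ⟨h hu.1, hu.2⟩

/-- Dimension of the degree `d` part of an ideal. -/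
noncomputable abbrev Nd (I : Ideal (Sr K)) (d : ℕ) : ℕ := finrank K (slice I d)

/-- The dimension of `S_d`. -/
noncomputable abbrev Dd (K : Type*) [Field K] (d : ℕ) : ℕ := finrank K (Sd K d)

lemma Nd_le_Dd (I : Ideal (Sr K)) (d : ℕ) : Nd I d ≤ Dd K d :=
  Submodule.finrank_mono (slice_le_Sd I d)

/-- Multiplication by `φ` as a `K`-linear map. -/
noncomputable abbrev mulBy (φ : Sr K) : Sr K →ₗ[K] Sr K := LinearMap.mulLeft K φ

lemma mulBy_injective {φ : Sr K} (h : φ ≠ 0) : Function.Injective (mulBy φ) := by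
  intro a b hab
  exact mul_left_cancel₀ h hab

lemma finrank_map_mulBy {φ : Sr K} (h : φ ≠ 0) (X : Submodule K (Sr K)) :
    finrank K (X.map (mulBy φ)) = finrank K X :=
  (Submodule.equivMapOfInjective _ (mulBy_injective h) X).finrank_eq.symm

/-- Graded form of membership in `I + (φ)`. -/
lemma homog_lift {I : Ideal (Sr K)} (hI : IsHomog I) {φ : Sr K} {δ : ℕ}
    (hφ : φ.IsHomogeneous δ) {u : Sr K} {k : ℕ} (hu : u.IsHomogeneous k)
    (hmem : u ∈ I ⊔ Ideal.span {φ}) :
    ∃ r, r.IsHomogeneous (k - δ) ∧ (k < δ → r = 0) ∧ u - φ * r ∈ slice I k := by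
  obtain ⟨r, hr⟩ := mem_sup_span_iff.mp hmem
  have huk : homogeneousComponent k u = u := by
    rw [homogeneousComponent_of_mem (hu : _ ∈ homogeneousSubmodule (Fin 3) K _), if_pos rfl]
  by_cases hd : δ ≤ k
  · obtain ⟨n, rfl⟩ := Nat.exists_eq_add_of_le hd
    refine ⟨homogeneousComponent n r, ?_, fun h => by omega, ?_⟩
    · rw [Nat.add_sub_cancel_left]
      exact homogeneousComponent_isHomogeneous _ _
    · have h1 := hI _ hr (δ + n)
      rw [map_sub, homogeneousComponent_mul_left hφ, huk] at h1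
      refine ⟨h1, ?_⟩
      exact IsHomogeneous.sub hu (hφ.mul (homogeneousComponent_isHomogeneous _ _))
  · refine ⟨0, isHomogeneous_zero _ _ _, fun _ => rfl, ?_⟩
    have h1 := hI _ hr k
    rw [map_sub, homogeneousComponent_mul_left_of_lt hφ (by omega), huk, sub_zero] at h1
    rw [mul_zero, sub_zero]
    exact ⟨h1, hu⟩

/-- The degree `d` part of `I + (φ)`. -/
lemma slice_sup_span {I : Ideal (Sr K)} (hI : IsHomog I) {φ : Sr K} {δ : ℕ}
    (hφ : φ.IsHomogeneous δ) {d : ℕ} (hd : δ ≤ d) :
    slice (I ⊔ Ideal.span {φ}) d = slice I d ⊔ (Sd K (d - δ)).map (mulBy φ) := by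
  apply le_antisymm
  · intro u hu
    obtain ⟨r, hr, -, hmem⟩ := homog_lift hI hφ hu.2 hu.1
    have h1 : u = (u - φ * r) + φ * r := by ring
    rw [h1]
    exact Submodule.add_mem _ (Submodule.mem_sup_left hmem)
      (Submodule.mem_sup_right ⟨r, hr, rfl⟩)
  · apply sup_le
    · exact slice_mono le_sup_left d
    · rintro u ⟨r, hr, rfl⟩
      refine ⟨?_, ?_⟩
      · exact Ideal.mem_sup_right (Ideal.mul_mem_right _ _ (Ideal.mem_span_singleton_self φ))
      · have := hφ.mul (mem_Sd.mp hr)
        rwa [Nat.add_sub_cancel' hd] at this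

lemma slice_sup_span_of_lt {I : Ideal (Sr K)} (hI : IsHomog I) {φ : Sr K} {δ : ℕ}
    (hφ : φ.IsHomogeneous δ) {d : ℕ} (hd : d < δ) :
    slice (I ⊔ Ideal.span {φ}) d = slice I d := by
  apply le_antisymm
  · intro u hu
    obtain ⟨r, -, h0, hmem⟩ := homog_lift hI hφ hu.2 hu.1
    rw [h0 hd, mul_zero, sub_zero] at hmem
    exact hmem
  · exact slice_mono le_sup_left d

/-- The Hilbert function recursion for a nonzerodivisor. -/
lemma Nd_sup_span {I : Ideal (Sr K)} (hI : IsHomog I) {φ : Sr K} {δ : ℕ}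
    (hφ : φ.IsHomogeneous δ) (h0 : φ ≠ 0) (hreg : ∀ w, φ * w ∈ I → w ∈ I) {d : ℕ} (hd : δ ≤ d) :
    Nd (I ⊔ Ideal.span {φ}) d + Nd I (d - δ) = Nd I d + Dd K (d - δ) := by
  have hinf : slice I d ⊓ (Sd K (d - δ)).map (mulBy φ) = (slice I (d - δ)).map (mulBy φ) := by
    apply le_antisymm
    · rintro u ⟨hu1, r, hr, rfl⟩
      exact ⟨r, ⟨hreg r hu1.1, hr⟩, rfl⟩
    · rintro u ⟨r, hr, rfl⟩
      refine ⟨⟨Ideal.mul_mem_left _ _ hr.1, ?_⟩, ⟨r, hr.2, rfl⟩⟩
      have := hφ.mul hr.2
      rwa [Nat.add_sub_cancel' hd] at this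
  have hfd : FiniteDimensional K ((Sd K (d - δ)).map (mulBy φ)) := inferInstance
  have h1 := Submodule.finrank_sup_add_finrank_inf_eq (slice I d) ((Sd K (d - δ)).map (mulBy φ))
  rw [hinf, finrank_map_mulBy h0, finrank_map_mulBy h0, ← slice_sup_span hI hφ hd] at h1
  exact h1

lemma Dd_eq (d : ℕ) : Dd K d = (d + 1) * (d + 2) / 2 := finrank_Sd d

lemma Dd_succ (d : ℕ) : Dd K (d + 1) = Dd K d + (d + 2) := by
  rw [Dd_eq, Dd_eq]
  have h : (d + 1 + 1) * (d + 1 + 2) = (d + 1) * (d + 2) + 2 * (d + 2) := by ring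
  rw [h, Nat.add_mul_div_left _ _ (by norm_num : 0 < 2)]

end Vale.Agent.Lib.P200
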