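import Vale.Agent.Lib.P200.Duality

/-!
# Complete intersections of type `(3, t, t)`
-/

namespace Vale.Agent.Lib.P200

open MvPolynomial Module

variable {K : Type*} [Field K]

lemma cd_sup_span {I : Ideal (Sr K)} (hI : IsHomog I) {φ : Sr K} {δ : ℕ}
    (hφ : φ.IsHomogeneous δ) (h0 : φ ≠ 0) (hreg : ∀ w, φ * w ∈ I → w ∈ I) {d : ℕ} (hd : δ ≤ d) :
    cd (I ⊔ Ideal.span {φ}) d + cd I (d - δ) = cd I d := by
  have h1 := Nd_sup_span hI hφ h0 hreg hd
  have h2 := Nd_le_Dd I (d - δ)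
  have h3 := Nd_le_Dd I d
  have h4 := Nd_le_Dd (I ⊔ Ideal.span {φ}) d
  unfold cd
  omega

lemma cd_sup_span_of_lt {I : Ideal (Sr K)} (hI : IsHomog I) {φ : Sr K} {δ : ℕ}
    (hφ : φ.IsHomogeneous δ) {d : ℕ} (hd : d < δ) :
    cd (I ⊔ Ideal.span {φ}) d = cd I d := by
  unfold cd Nd
  rw [slice_sup_span_of_lt hI hφ hd]

/-- A homogeneous regular sequence of degrees `(3, t, t)`. -/
structure RegSeq (f v w : Sr K) (t : ℕ) : Prop where
  ht : 1 ≤ t
  hf : f.IsHomogeneous 3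
  f0 : f ≠ 0
  hv : v.IsHomogeneous t
  hw : w.IsHomogeneous t
  rv : ∀ r, v * r ∈ Ideal.span {f} → r ∈ Ideal.span {f}
  rw : ∀ r, w * r ∈ Ideal.span {f} ⊔ Ideal.span {v} → r ∈ Ideal.span {f} ⊔ Ideal.span {v}

namespace RegSeq

variable {f v w : Sr K} {t : ℕ} (R : RegSeq f v w t)

include R

lemma homog1 : IsHomog (Ideal.span {f}) := isHomog_span R.hf

lemma homog2 : IsHomog (Ideal.span {f} ⊔ Ideal.span {v}) := R.homog1.sup_span R.hv

lemma homog3 : IsHomog (Ideal.span {f} ⊔ Ideal.span {v} ⊔ Ideal.span {w}) := R.homog2.sup_span R.hw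

lemma v0 : v ≠ 0 := nzd_ne_zero R.hf R.f0 (by omega) R.rv

lemma one_not_mem2 : (1 : Sr K) ∉ Ideal.span {f} ⊔ Ideal.span {v} := by
  intro h
  obtain ⟨r, -, h0, hm⟩ := homog_lift R.homog1 R.hv (isHomogeneous_one (Fin 3) K) h
  rw [h0 (by have := R.ht; omega), mul_zero, sub_zero] at hm
  exact one_not_mem_span R.hf R.f0 (by omega) hm.1

lemma w0 : w ≠ 0 := by
  rintro rfl
  apply R.one_not_mem2
  apply R.rw
  simp

lemma cd1 (j : ℕ) (hj : 1 ≤ j) : cd (Ideal.span {f}) j = 3 * j := cd_span_three R.hf R.f0 j hj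

lemma cd1_zero : cd (Ideal.span {f}) 0 = 1 := cd_span_zero R.hf (by omega)

lemma cd2_lt {d : ℕ} (hd : d < t) : cd (Ideal.span {f} ⊔ Ideal.span {v}) d = cd (Ideal.span {f}) d :=
  cd_sup_span_of_lt R.homog1 R.hv hd

lemma cd2_eq : cd (Ideal.span {f} ⊔ Ideal.span {v}) t + 1 = 3 * t := by
  have h1 := cd_sup_span R.homog1 R.hv R.v0 R.rv (le_refl t)
  rw [Nat.sub_self, R.cd1_zero, R.cd1 t R.ht] at h1
  exact h1

lemma cd2_gt {d : ℕ} (hd : t < d) : cd (Ideal.span {f} ⊔ Ideal.span {v}) d = 3 * t := by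
  have h1 := cd_sup_span R.homog1 R.hv R.v0 R.rv (le_of_lt hd)
  rw [R.cd1 (d - t) (by omega), R.cd1 d (by have := R.ht; omega)] at h1
  omega

lemma cd3_lt {d : ℕ} (hd : d < t) :
    cd (Ideal.span {f} ⊔ Ideal.span {v} ⊔ Ideal.span {w}) d = cd (Ideal.span {f}) d := by
  rw [cd_sup_span_of_lt R.homog2 R.hw hd, R.cd2_lt hd]

lemma cd3_eq : cd (Ideal.span {f} ⊔ Ideal.span {v} ⊔ Ideal.span {w}) t + 2 = 3 * t := by
  have h1 := cd_sup_span R.homog2 R.hw R.w0 R.rw (le_refl t)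
  rw [Nat.sub_self, R.cd2_lt (by have := R.ht; omega), R.cd1_zero] at h1
  have h2 := R.cd2_eq
  omega

lemma cd3_mid {d : ℕ} (h1 : t < d) (h2 : d < 2 * t) :
    cd (Ideal.span {f} ⊔ Ideal.span {v} ⊔ Ideal.span {w}) d + 3 * (d - t) = 3 * t := by
  have h3 := cd_sup_span R.homog2 R.hw R.w0 R.rw (le_of_lt h1)
  rw [R.cd2_lt (by omega), R.cd1 (d - t) (by omega), R.cd2_gt h1] at h3
  exact h3

lemma cd3_top : cd (Ideal.span {f} ⊔ Ideal.span {v} ⊔ Ideal.span {w}) (2 * t) = 1 := by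
  have h3 := cd_sup_span R.homog2 R.hw R.w0 R.rw (show t ≤ 2 * t by omega)
  rw [show 2 * t - t = t by omega, R.cd2_gt (show t < 2 * t by have := R.ht; omega)] at h3
  have h2 := R.cd2_eq
  omega

lemma cd3_above {d : ℕ} (h1 : 2 * t < d) :
    cd (Ideal.span {f} ⊔ Ideal.span {v} ⊔ Ideal.span {w}) d = 0 := by
  have h3 := cd_sup_span R.homog2 R.hw R.w0 R.rw (show t ≤ d by omega)
  rw [R.cd2_gt (show t < d - t by omega), R.cd2_gt (show t < d by have := R.ht; omega)] at h3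
  omega

lemma mem_of_above {d : ℕ} (h1 : 2 * t < d) {u : Sr K} (hu : u ∈ Sd K d) :
    u ∈ Ideal.span {f} ⊔ Ideal.span {v} ⊔ Ideal.span {w} := by
  have h2 := R.cd3_above h1
  have h3 := Nd_le_Dd (Ideal.span {f} ⊔ Ideal.span {v} ⊔ Ideal.span {w}) d
  unfold cd at h2
  have heq : slice (Ideal.span {f} ⊔ Ideal.span {v} ⊔ Ideal.span {w}) d = Sd K d :=
    Submodule.eq_of_le_of_finrank_le (slice_le_Sd _ _) (by
      have : Nd (Ideal.span {f} ⊔ Ideal.span {v} ⊔ Ideal.span {w}) d =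
        finrank K (slice (Ideal.span {f} ⊔ Ideal.span {v} ⊔ Ideal.span {w}) d) := rfl
      have h5 : Dd K d = finrank K (Sd K d) := rfl
      omega)
  have : u ∈ slice (Ideal.span {f} ⊔ Ideal.span {v} ⊔ Ideal.span {w}) d := by rw [heq]; exact hu
  exact this.1

/-- The Gorenstein data of the complete intersection. -/
theorem gorData : GorData (Ideal.span {f} ⊔ Ideal.span {v} ⊔ Ideal.span {w}) (2 * t) where
  homog := R.homog3
  r0 := koszul_chain R.f0 R.rv R.rw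
  top := R.cd3_top
  above := fun _ hu => R.mem_of_above (by omega) hu

/-- `X_i` lies in a prime containing the complete intersection. -/
lemma all_X_mem_of_le_prime {𝔭 : Ideal (Sr K)} (hp : 𝔭.IsPrime)
    (hf : f ∈ 𝔭) (hv : v ∈ 𝔭) (hw : w ∈ 𝔭) (i : Fin 3) : (X i : Sr K) ∈ 𝔭 := by
  have hle : Ideal.span {f} ⊔ Ideal.span {v} ⊔ Ideal.span {w} ≤ 𝔭 := by
    refine sup_le (sup_le ?_ ?_) ?_
    · exact (Ideal.span_singleton_le_iff_mem _).mpr hf
    · exact (Ideal.span_singleton_le_iff_mem _).mpr hv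
    · exact (Ideal.span_singleton_le_iff_mem _).mpr hw
  have h1 : (X i : Sr K) ^ (2 * t + 1) ∈ 𝔭 :=
    hle (R.mem_of_above (by omega : 2 * t < 2 * t + 1) (isHomogeneous_X_pow i (2 * t + 1)))
  exact hp.mem_of_pow_mem _ h1

end RegSeq

end Vale.Agent.Lib.P200
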