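import Vale.Agent.Lib.P200.Growth

/-!
# The Cayley-Bacharach core lemmas and the existence of nonzerodivisors
-/

namespace Vale.Agent.Lib.P200

open MvPolynomial Module

variable {K : Type*} [Field K]

lemma isUnit_of_totalDegree_zero {a : Sr K} (ha : a ≠ 0) (h : a.totalDegree = 0) : IsUnit a := by
  rw [totalDegree_eq_zero_iff_eq_C] at h
  rw [h]
  refine IsUnit.map (C : K →+* Sr K) (isUnit_iff_ne_zero.mpr ?_)
  intro h0
  rw [h0, map_zero] at h
  exact ha h

/-- A nonzero linear form is prime. -/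
lemma prime_of_linear {L : Sr K} (hL : L.IsHomogeneous 1) (h0 : L ≠ 0) : Prime L := by
  have hdeg : L.totalDegree = 1 := hL.totalDegree h0
  apply Irreducible.prime
  refine ⟨?_, ?_⟩
  · intro hu
    obtain ⟨v, hv⟩ := hu.exists_right_inv
    have h1 : (L * v).totalDegree = 0 := by rw [hv]; exact totalDegree_one
    rw [totalDegree_mul_of_isDomain h0 (right_ne_zero_of_mul_eq_one hv)] at h1
    omega
  · rintro a b rfl
    have ha : a ≠ 0 := left_ne_zero_of_mul h0
    have hb : b ≠ 0 := right_ne_zero_of_mul h0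
    rw [totalDegree_mul_of_isDomain ha hb] at hdeg
    by_cases h : a.totalDegree = 0
    · exact Or.inl (isUnit_of_totalDegree_zero ha h)
    · exact Or.inr (isUnit_of_totalDegree_zero hb (by omega))

/-- Two independent forms vanishing at a point. -/
lemma two_forms_aux (P : Fin 3 → K) {i j k : Fin 3} (hij : i ≠ j) (hik : i ≠ k) (hjk : j ≠ k)
    (hP : P i ≠ 0) :
    Prime (P i • (X j : Sr K) - P j • X i) ∧
      ¬ (P i • (X j : Sr K) - P j • X i) ∣ (P i • (X k : Sr K) - P k • X i) := by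
  have hom : (P i • (X j : Sr K) - P j • X i).IsHomogeneous 1 := by
    apply IsHomogeneous.sub
    · exact (homogeneousSubmodule (Fin 3) K 1).smul_mem _ (isHomogeneous_X K _)
    · exact (homogeneousSubmodule (Fin 3) K 1).smul_mem _ (isHomogeneous_X K _)
  constructor
  · apply prime_of_linear hom
    intro h
    have h1 := congrArg (eval (fun l => if l = j then (1 : K) else 0)) h
    simp [hij] at h1
    exact hP h1
  · intro hdvd
    have hev : eval (fun l => if l = k then (1 : K) else 0) (P i • (X j : Sr K) - P j • X i) = 0 := by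
      simp [hik, hjk]
    have h2 : eval (fun l => if l = k then (1 : K) else 0) (P i • (X k : Sr K) - P k • X i) = 0 := by
      obtain ⟨c, hc⟩ := hdvd
      rw [hc, map_mul, hev, zero_mul]
    simp [hik] at h2
    exact hP h2

lemma two_forms (P : Fin 3 → K) (hP : P ≠ 0) : ∃ (i j k : Fin 3), i ≠ j ∧ i ≠ k ∧ j ≠ k ∧
    Prime (P i • (X j : Sr K) - P j • X i) ∧
      ¬ (P i • (X j : Sr K) - P j • X i) ∣ (P i • (X k : Sr K) - P k • X i) := by
  have : ∃ i, P i ≠ 0 := by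
    by_contra h
    push Not at h
    exact hP (funext h)
  obtain ⟨i, hi⟩ := this
  fin_cases i
  · exact ⟨0, 1, 2, by decide, by decide, by decide, two_forms_aux P (by decide) (by decide) (by decide) hi⟩
  · exact ⟨1, 0, 2, by decide, by decide, by decide, two_forms_aux P (by decide) (by decide) (by decide) hi⟩
  · exact ⟨2, 0, 1, by decide, by decide, by decide, two_forms_aux P (by decide) (by decide) (by decide) hi⟩

/-- Core lemma modulo one form. -/
lemma core_one {p w L₁ L₂ : Sr K} (hp : p ≠ 0) (hL₁ : Prime L₁) (hL₁₂ : ¬ L₁ ∣ L₂)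
    (h₁ : L₁ * w ∈ Ideal.span {p}) (h₂ : L₂ * w ∈ Ideal.span {p}) : w ∈ Ideal.span {p} := by
  obtain ⟨α, hα⟩ := Ideal.mem_span_singleton'.mp h₁
  obtain ⟨γ, hγ⟩ := Ideal.mem_span_singleton'.mp h₂
  have h3 : L₂ * α = L₁ * γ := by
    apply mul_right_cancel₀ hp
    linear_combination L₂ * hα - L₁ * hγ
  have hdvd : L₁ ∣ L₂ * α := ⟨γ, h3⟩
  obtain ⟨c, rfl⟩ := (hL₁.dvd_or_dvd hdvd).resolve_left hL₁₂
  have h4 : w = c * p := by
    apply mul_left_cancel₀ hL₁.ne_zero
    linear_combination -hα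
  rw [h4]
  exact Ideal.mul_mem_left _ _ (Ideal.mem_span_singleton_self p)

lemma isHomog_span {p : Sr K} {δ : ℕ} (hp : p.IsHomogeneous δ) : IsHomog (Ideal.span {p}) := by
  have := isHomog_bot.sup_span hp
  rwa [bot_sup_eq] at this

lemma eq_zero_of_mem_span_of_lt {p u : Sr K} {δ n : ℕ} (hp : p.IsHomogeneous δ)
    (hu : u.IsHomogeneous n) (hlt : n < δ) (hmem : u ∈ Ideal.span {p}) : u = 0 := by
  obtain ⟨s, rfl⟩ := Ideal.mem_span_singleton'.mp hmem
  have h1 : homogeneousComponent n (p * s) = 0 := homogeneousComponent_mul_left_of_lt hp hlt s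
  rw [mul_comm] at hu
  rw [homogeneousComponent_of_mem (hu : _ ∈ homogeneousSubmodule (Fin 3) K _), if_pos rfl] at h1
  rw [mul_comm]
  exact h1

/-- Core lemma modulo two forms: Cayley-Bacharach for a point. -/
lemma core_two {p v w L₁ L₂ : Sr K} {δ t k : ℕ} (hp : p.IsHomogeneous δ) (hp0 : p ≠ 0)
    (hv : v.IsHomogeneous t) (hreg : ∀ r, v * r ∈ Ideal.span {p} → r ∈ Ideal.span {p})
    (hw : w.IsHomogeneous k) (hdeg : k + 2 < t + δ)
    (hL₁ : Prime L₁) (hL₁h : L₁.IsHomogeneous 1) (hL₂h : L₂.IsHomogeneous 1) (hL₁₂ : ¬ L₁ ∣ L₂)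
    (h₁ : L₁ * w ∈ Ideal.span {p} ⊔ Ideal.span {v}) (h₂ : L₂ * w ∈ Ideal.span {p} ⊔ Ideal.span {v}) :
    w ∈ Ideal.span {p} ⊔ Ideal.span {v} := by
  have hI := isHomog_span hp
  obtain ⟨r, hr, hr0, hrm⟩ := homog_lift hI hv (hL₁h.mul hw) h₁
  obtain ⟨r', hr', hr'0, hrm'⟩ := homog_lift hI hv (hL₂h.mul hw) h₂
  obtain ⟨α, hα⟩ := Ideal.mem_span_singleton'.mp hrm.1
  obtain ⟨γ, hγ⟩ := Ideal.mem_span_singleton'.mp hrm'.1
  have hdiff : L₂ * r - L₁ * r' = 0 := by
    have h3 : L₂ * r - L₁ * r' ∈ Ideal.span {p} := by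
      apply hreg
      rw [Ideal.mem_span_singleton']
      refine ⟨L₁ * γ - L₂ * α, ?_⟩
      have h5 : α * p = L₁ * w - v * r := hα
      have h6 : γ * p = L₂ * w - v * r' := hγ
      linear_combination L₁ * h6 - L₂ * h5
    by_cases hlt : 1 + k < t
    · rw [hr0 hlt, hr'0 hlt]; simp
    · have hh : (L₂ * r - L₁ * r').IsHomogeneous (1 + (1 + k - t)) :=
        IsHomogeneous.sub (hL₂h.mul hr) (hL₁h.mul hr')
      exact eq_zero_of_mem_span_of_lt hp hh (by omega) h3
  have hsym : L₂ * α = L₁ * γ := by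
    apply mul_right_cancel₀ hp0
    have h5 : α * p = L₁ * w - v * r := hα
    have h6 : γ * p = L₂ * w - v * r' := hγ
    linear_combination L₂ * h5 - L₁ * h6 - v * hdiff
  have hdvd : L₁ ∣ L₂ * α := ⟨γ, hsym⟩
  obtain ⟨c', rfl⟩ := (hL₁.dvd_or_dvd hdvd).resolve_left hL₁₂
  have hdvd2 : L₁ ∣ L₂ * r := ⟨r', by linear_combination hdiff⟩
  obtain ⟨c, rfl⟩ := (hL₁.dvd_or_dvd hdvd2).resolve_left hL₁₂
  have h7 : w = c * v + c' * p := by
    apply mul_left_cancel₀ hL₁.ne_zero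
    have h5 : L₁ * c' * p = L₁ * w - v * (L₁ * c) := hα
    linear_combination -h5
  rw [h7]
  exact Ideal.add_mem _ (Ideal.mem_sup_right (Ideal.mul_mem_left _ _ (Ideal.mem_span_singleton_self v)))
    (Ideal.mem_sup_left (Ideal.mul_mem_left _ _ (Ideal.mem_span_singleton_self p)))

/-! ### Avoiding associated primes -/

/-- A subspace not contained in any associated prime of `S/I` contains a nonzerodivisor mod `I`. -/
theorem exists_nzd_of_avoid [Infinite K] {I : Ideal (Sr K)} (X' : Submodule K (Sr K))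
    (hav : ∀ 𝔭 ∈ associatedPrimes (Sr K) (Sr K ⧸ I), ¬ (∀ x ∈ X', x ∈ 𝔭)) :
    ∃ v ∈ X', ∀ w, v * w ∈ I → w ∈ I := by
  classical
  have hfin : (associatedPrimes (Sr K) (Sr K ⧸ I)).Finite := associatedPrimes.finite _ _
  let fam : Finset (Subspace K X') := hfin.toFinset.image
    (fun 𝔭 => (𝔭.restrictScalars K).comap X'.subtype)
  have htop : (⊤ : Subspace K X') ∉ fam := by
    intro hmem
    rw [Finset.mem_image] at hmem
    obtain ⟨𝔭, h𝔭, he⟩ := hmem
    apply hav 𝔭 (hfin.mem_toFinset.mp h𝔭)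
    intro x hx
    have : (⟨x, hx⟩ : X') ∈ (𝔭.restrictScalars K).comap X'.subtype := by
      rw [he]; trivial
    exact this
  have hne := Subspace.biUnion_ne_univ_of_top_notMem htop
  obtain ⟨v, hv⟩ : ∃ v : X', v ∉ ⋃ p ∈ fam, (p : Set X') := by
    by_contra hcon
    push Not at hcon
    exact hne (Set.eq_univ_of_forall hcon)
  refine ⟨v, v.2, ?_⟩
  have hreg : IsSMulRegular (Sr K ⧸ I) (v : Sr K) := by
    by_contra hnreg
    have hmem : (v : Sr K) ∈ ({r | IsSMulRegular (Sr K ⧸ I) r}ᶜ : Set (Sr K)) := hnreg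
    rw [← biUnion_associatedPrimes_eq_compl_regular] at hmem
    simp only [Set.mem_iUnion] at hmem
    obtain ⟨𝔭, h𝔭, hv𝔭⟩ := hmem
    apply hv
    simp only [Set.mem_iUnion]
    refine ⟨_, Finset.mem_image.mpr ⟨𝔭, hfin.mem_toFinset.mpr h𝔭, rfl⟩, ?_⟩
    exact hv𝔭
  intro w hw
  have h1 : (v : Sr K) • (Ideal.Quotient.mk I w) = (v : Sr K) • (0 : Sr K ⧸ I) := by
    rw [smul_zero, ← Ideal.Quotient.mk_eq_mk]
    rw [← Submodule.Quotient.mk_smul, Ideal.Quotient.mk_eq_mk, Ideal.Quotient.eq_zero_iff_mem]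
    exact hw
  have h2 := hreg h1
  exact Ideal.Quotient.eq_zero_iff_mem.mp h2

/-- An associated prime of `S/I` cannot contain all variables if depth is positive. -/
lemma not_all_X_mem_of_V0 {I : Ideal (Sr K)} (h0 : V0 (xx K) (yy K) (zz K) I) {𝔭 : Ideal (Sr K)}
    (h𝔭 : 𝔭 ∈ associatedPrimes (Sr K) (Sr K ⧸ I)) : ¬ (∀ i, (X i : Sr K) ∈ 𝔭) := by
  intro hall
  have hass : IsAssociatedPrime 𝔭 (Sr K ⧸ I) := h𝔭
  rw [isAssociatedPrime_iff] at hass
  obtain ⟨hpr, x, hx⟩ := hass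
  obtain ⟨u, rfl⟩ := Ideal.Quotient.mk_surjective x
  have hkey : ∀ i, (X i : Sr K) * u ∈ I := by
    intro i
    have h1 : (X i : Sr K) ∈ (⊥ : Submodule (Sr K) (Sr K ⧸ I)).colon {Ideal.Quotient.mk I u} := by
      rw [← hx]; exact hall i
    rw [Submodule.mem_colon_singleton, Submodule.mem_bot] at h1
    rw [← Ideal.Quotient.eq_zero_iff_mem, map_mul]
    exact h1
  have hu : u ∈ I := h0 u (hkey 0) (hkey 1) (hkey 2)
  apply hpr.ne_top
  rw [hx]
  ext r
  simp [Submodule.mem_colon_singleton, Ideal.Quotient.eq_zero_iff_mem.mpr hu]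

end Vale.Agent.Lib.P200
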