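import Mathlib

/-!
# The lex-plus-powers space of an ideal of `K[x₀, x₁, x₂]`
-/

namespace Vale.Agent.Lib.P200.Statement

open MvPolynomial Module

variable {K : Type*} [Field K]

/-- `m` is lexicographically greater than `n`, for the order with `x₀ > x₁ > x₂`. -/
def LexGt (m n : Fin 3 →₀ ℕ) : Prop :=
  ∃ i, (∀ j, j < i → m j = n j) ∧ n i < m i

/-- The ideal `P = (x₀ ^ e₀, x₁ ^ e₁, x₂ ^ e₂)`. -/
noncomputable def powerIdeal (K : Type*) [Field K] (e : Fin 3 → ℕ) :
    Ideal (MvPolynomial (Fin 3) K) :=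
  Ideal.span (Set.range fun i : Fin 3 => (X i : MvPolynomial (Fin 3) K) ^ e i)

/-- The degree `d` part `I_d` of an ideal `I`, as a `K`-subspace. -/
noncomputable def piece (I : Ideal (MvPolynomial (Fin 3) K)) (d : ℕ) :
    Submodule K (MvPolynomial (Fin 3) K) :=
  I.restrictScalars K ⊓ homogeneousSubmodule (Fin 3) K d

/-- `q_d = dim I_d - dim P_d`. -/
noncomputable def excess (e : Fin 3 → ℕ) (I : Ideal (MvPolynomial (Fin 3) K)) (d : ℕ) : ℕ :=
  finrank K (piece I d) - finrank K (piece (powerIdeal K e) d)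

/-- The number of monomials outside `P`, of the same degree as `m`, that are lexicographically
greater than `m`. -/
noncomputable def lexRank (e : Fin 3 → ℕ) (m : Fin 3 →₀ ℕ) : ℕ :=
  Set.ncard {n : Fin 3 →₀ ℕ | n.degree = m.degree ∧ (∀ i, n i < e i) ∧ LexGt n m}

/-- `J_d`: the span of `P_d` and of the `q_d` lexicographically greatest monomials of degree `d`
outside `P`. -/
noncomputable def lexPiece (e : Fin 3 → ℕ) (I : Ideal (MvPolynomial (Fin 3) K)) (d : ℕ) :
    Submodule K (MvPolynomial (Fin 3) K) :=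
  piece (powerIdeal K e) d ⊔
    Submodule.span K ((fun m : Fin 3 →₀ ℕ => monomial m (1 : K)) ''
      {m | m.degree = d ∧ (∀ i, m i < e i) ∧ lexRank e m < excess e I d})

/-- `J`, the sum of all the `J_d`. -/
noncomputable def lexSpace (e : Fin 3 → ℕ) (I : Ideal (MvPolynomial (Fin 3) K)) :
    Submodule K (MvPolynomial (Fin 3) K) :=
  ⨆ d, lexPiece e I d

end Vale.Agent.Lib.P200.Statement
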