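import Vale.Agent.Lib.P200.Macaulay

/-!
# Gorenstein duality for complete intersections in `K[x,y,z]`
-/

namespace Vale.Agent.Lib.P200

open MvPolynomial Module

variable {K : Type*} [Field K]

lemma finrank_bilin {U W : Type*} [AddCommGroup U] [Module K U] [AddCommGroup W] [Module K W]
    [FiniteDimensional K U] [FiniteDimensional K W] (B : W →ₗ[K] U →ₗ[K] K) :
    finrank K (LinearMap.ker B.flip) + finrank K W = finrank K (LinearMap.ker B) + finrank K U := by
  have h1 := LinearMap.finrank_range_add_finrank_ker B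
  have h2 := LinearMap.finrank_range_add_finrank_ker B.flip
  have hflip : B.flip = B.dualMap ∘ₗ (Module.evalEquiv K U).toLinearMap := by
    ext u w
    rfl
  have h3 : LinearMap.range B.flip = LinearMap.range B.dualMap := by
    rw [hflip, LinearMap.range_comp_of_range_eq_top]
    exact LinearMap.range_eq_top.mpr (Module.evalEquiv K U).surjective
  have h4 : finrank K (LinearMap.range B.flip) = finrank K (LinearMap.range B) := by
    rw [h3]
    exact LinearMap.finrank_range_dualMap_eq_finrank_range B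
  omega

/-- The perpendicular space. -/
noncomputable def perp (F : Ideal (Sr K)) (d' : ℕ) (W : Submodule K (Sr K)) : Submodule K (Sr K) where
  carrier := {u | u ∈ Sd K d' ∧ ∀ w ∈ W, u * w ∈ F}
  zero_mem' := ⟨(Sd K d').zero_mem, fun w _ => by simp⟩
  add_mem' := by
    rintro a b ⟨ha, ha'⟩ ⟨hb, hb'⟩
    exact ⟨(Sd K d').add_mem ha hb, fun w hw => by
      rw [add_mul]; exact F.add_mem (ha' w hw) (hb' w hw)⟩
  smul_mem' := by
    rintro c a ⟨ha, ha'⟩
    exact ⟨(Sd K d').smul_mem c ha, fun w hw => by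
      rw [smul_mul_assoc]; exact Submodule.smul_of_tower_mem _ c (ha' w hw)⟩

lemma mem_perp {F : Ideal (Sr K)} {d' : ℕ} {W : Submodule K (Sr K)} {u : Sr K} :
    u ∈ perp F d' W ↔ u ∈ Sd K d' ∧ ∀ w ∈ W, u * w ∈ F := Iff.rfl

lemma perp_grd (F : Ideal (Sr K)) (d' : ℕ) (W : Submodule K (Sr K)) : Grd F d' (perp F d' W) :=
  ⟨fun _ hu => ⟨hu.2, fun _ _ => F.mul_mem_right _ hu.1⟩, fun _ hu => hu.1⟩

/-- A package of hypotheses: `F` is homogeneous with socle concentrated in degree `e`. -/
structure GorData (F : Ideal (Sr K)) (e : ℕ) : Prop where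
  homog : IsHomog F
  r0 : R0 K (xx K) (yy K) (zz K) F
  top : cd F e = 1
  above : ∀ u ∈ Sd K (e + 1), u ∈ F

lemma X_mul_mem_Sd {i : Fin 3} {w : Sr K} {d : ℕ} (hw : w ∈ Sd K d) : (X i : Sr K) * w ∈ Sd K (d + 1) := by
  have := (isHomogeneous_X K i).mul (mem_Sd.mp hw)
  rwa [add_comm] at this

lemma mul_X_mem_Sd {i : Fin 3} {w : Sr K} {d : ℕ} (hw : w ∈ Sd K d) : w * (X i : Sr K) ∈ Sd K (d + 1) :=
  (mem_Sd.mp hw).mul (isHomogeneous_X K i)

lemma exists_not_mem_of_cd_pos {F : Ideal (Sr K)} {e : ℕ} (h : 1 ≤ cd F e) : ∃ g ∈ Sd K e, g ∉ F := by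
  by_contra hcon
  push Not at hcon
  have hle : Sd K e ≤ slice F e := fun u hu => ⟨hcon u hu, hu⟩
  have : Dd K e ≤ Nd F e := Submodule.finrank_mono hle
  unfold cd at h
  omega

/-- Socle elements of `S/F` in degree below `e` vanish. -/
lemma socle_zero {F : Ideal (Sr K)} {e d : ℕ} (G : GorData F e) (hd : d < e) {w : Sr K} (hw : w ∈ Sd K d)
    (hx : ∀ i, (X i : Sr K) * w ∈ F) : w ∈ F := by
  obtain ⟨g, hg, hgF⟩ := exists_not_mem_of_cd_pos (by rw [G.top] : 1 ≤ cd F e)
  have hgx : ∀ i, (X i : Sr K) * g ∈ F := fun i => G.above _ (X_mul_mem_Sd hg)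
  obtain ⟨l, l', hl, hmem⟩ := G.r0 w g (hx 0) (hx 1) (hx 2) (hgx 0) (hgx 1) (hgx 2)
  have hcomp := G.homog _ hmem e
  rw [map_add, map_smul, map_smul,
    homogeneousComponent_of_mem (mem_Sd.mp hw : _ ∈ homogeneousSubmodule (Fin 3) K _),
    homogeneousComponent_of_mem (mem_Sd.mp hg : _ ∈ homogeneousSubmodule (Fin 3) K _),
    if_neg (by omega), if_pos rfl, smul_zero, zero_add] at hcomp
  have hl'0 : l' = 0 := by
    by_contra hne
    apply hgF
    have := Submodule.smul_of_tower_mem F (l'⁻¹) hcomp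
    rwa [smul_smul, inv_mul_cancel₀ hne, one_smul] at this
  have hl0 : l ≠ 0 := by
    rcases hl with h | h
    · exact h
    · exact absurd hl'0 h
  rw [hl'0, zero_smul, add_zero] at hmem
  have := Submodule.smul_of_tower_mem F (l⁻¹) hmem
  rwa [smul_smul, inv_mul_cancel₀ hl0, one_smul] at this

/-- Left nondegeneracy of the multiplication pairing. -/
lemma nondeg {F : Ideal (Sr K)} {e : ℕ} (G : GorData F e) (d' : ℕ) :
    ∀ d, d + d' = e → ∀ w ∈ Sd K d, (∀ u ∈ Sd K d', u * w ∈ F) → w ∈ F := by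
  induction d' with
  | zero =>
    intro d _ w _ h
    have := h 1 (isHomogeneous_one (Fin 3) K)
    rwa [one_mul] at this
  | succ d' ih =>
    intro d hd w hw h
    refine socle_zero G (by omega) hw ?_
    intro i
    refine ih (d + 1) (by omega) _ (X_mul_mem_Sd hw) ?_
    intro u hu
    have h1 := h (u * X i) (mul_X_mem_Sd hu)
    rwa [mul_assoc] at h1

/-- A functional detecting membership in `F` in degree `e`. -/
lemma exists_functional {F : Ideal (Sr K)} {e : ℕ} (G : GorData F e) :
    ∃ τ : Module.Dual K (Sr K), ∀ u ∈ Sd K e, (τ u = 0 ↔ u ∈ F) := by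
  obtain ⟨g, hg, hgF⟩ := exists_not_mem_of_cd_pos (by rw [G.top] : 1 ≤ cd F e)
  have hgs : g ∉ slice F e := fun h => hgF h.1
  obtain ⟨τ, hτ, hle⟩ := Submodule.exists_le_ker_of_notMem hgs
  refine ⟨τ, ?_⟩
  have hsup : slice F e ⊔ Submodule.span K {g} = Sd K e := by
    apply Submodule.eq_of_le_of_finrank_le
    · exact sup_le (slice_le_Sd _ _) ((Submodule.span_singleton_le_iff_mem _ _).mpr hg)
    · have h1 := Submodule.finrank_sup_add_finrank_inf_eq (slice F e) (Submodule.span K {g})
      have h2 : finrank K (Submodule.span K {g}) = 1 :=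
        finrank_span_singleton (by rintro rfl; exact hgF F.zero_mem)
      have h3 : slice F e ⊓ Submodule.span K {g} = ⊥ := by
        rw [eq_bot_iff]
        rintro x ⟨hx1, hx2⟩
        obtain ⟨c, rfl⟩ := Submodule.mem_span_singleton.mp hx2
        by_cases hc : c = 0
        · simp [hc]
        · exfalso
          apply hgs
          have := (slice F e).smul_mem c⁻¹ hx1
          rwa [smul_smul, inv_mul_cancel₀ hc, one_smul] at this
      rw [h3, h2] at h1
      have h4 := G.top
      unfold cd at h4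
      simp only [finrank_bot, add_zero] at h1
      have h5 : finrank K (Sd K e) = Dd K e := rfl
      have h6 := Nd_le_Dd F e
      have h7 : finrank K (slice F e) = Nd F e := rfl
      omega
  intro u hu
  rw [← hsup] at hu
  obtain ⟨s, hs, t, ht, rfl⟩ := Submodule.mem_sup.mp hu
  obtain ⟨c, rfl⟩ := Submodule.mem_span_singleton.mp ht
  have hτs : τ s = 0 := hle hs
  rw [map_add, hτs, zero_add, map_smul, smul_eq_mul]
  constructor
  · intro h
    have hc : c = 0 := (mul_eq_zero.mp h).resolve_right hτ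
    rw [hc, zero_smul, add_zero]
    exact hs.1
  · intro h
    have h2 : c • g ∈ F := by
      have := F.sub_mem h hs.1
      rwa [add_sub_cancel_left] at this
    by_cases hc : c = 0
    · simp [hc]
    · exfalso
      apply hgF
      have := Submodule.smul_of_tower_mem F c⁻¹ h2
      rwa [smul_smul, inv_mul_cancel₀ hc, one_smul] at this

/-- The dimension formula for perpendicular spaces. -/
theorem finrank_perp {F : Ideal (Sr K)} {e d d' : ℕ} (G : GorData F e) (hdd : d + d' = e)
    {W : Submodule K (Sr K)} (hW : Grd F d W) :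
    finrank K (perp F d' W) + finrank K W = Dd K d' + Nd F d := by
  obtain ⟨τ, hτ⟩ := exists_functional G
  have hfdW := hW.fd
  let B : W →ₗ[K] (Sd K d') →ₗ[K] K :=
    LinearMap.mk₂ K (fun w u => τ ((u : Sr K) * w))
      (by intro a b c; simp [mul_add])
      (by intro c a b; simp [mul_smul_comm])
      (by intro a b c; simp [add_mul])
      (by intro c a b; simp [smul_mul_assoc])
  have hmemS : ∀ (u : Sd K d') (w : W), (u : Sr K) * w ∈ Sd K e := by
    intro u w
    have := (mem_Sd.mp u.2).mul (mem_Sd.mp (hW.2 w.2))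
    rwa [add_comm, hdd] at this
  have hB := finrank_bilin B
  have h1 : finrank K (LinearMap.ker B.flip) = finrank K (perp F d' W) := by
    have hE : (LinearMap.ker B.flip).map (Sd K d').subtype = perp F d' W := by
      ext u
      constructor
      · rintro ⟨x, hx, rfl⟩
        refine ⟨x.2, fun w hw => ?_⟩
        have h2 : B.flip x ⟨w, hw⟩ = 0 := by
          rw [LinearMap.mem_ker.mp hx]; rfl
        exact (hτ _ (hmemS x ⟨w, hw⟩)).mp h2
      · intro hu
        refine ⟨⟨u, hu.1⟩, LinearMap.mem_ker.mpr ?_, rfl⟩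
        ext w
        exact (hτ _ (hmemS ⟨u, hu.1⟩ w)).mpr (hu.2 w w.2)
    rw [← hE, Submodule.finrank_map_subtype_eq]
  have h2 : finrank K (LinearMap.ker B) = Nd F d := by
    have hE : (LinearMap.ker B).map W.subtype = slice F d := by
      ext w
      constructor
      · rintro ⟨x, hx, rfl⟩
        refine ⟨?_, hW.2 x.2⟩
        refine nondeg G d' d hdd _ (hW.2 x.2) ?_
        intro u hu
        have h3 : B x ⟨u, hu⟩ = 0 := by
          rw [LinearMap.mem_ker.mp hx]; rfl
        exact (hτ _ (hmemS ⟨u, hu⟩ x)).mp h3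
      · intro hw
        refine ⟨⟨w, hW.1 hw⟩, LinearMap.mem_ker.mpr ?_, rfl⟩
        ext u
        exact (hτ _ (hmemS u ⟨w, hW.1 hw⟩)).mpr (F.mul_mem_left _ hw.1)
    unfold Nd
    rw [← hE, Submodule.finrank_map_subtype_eq]
  rw [h1, h2] at hB
  rw [hB]
  exact add_comm _ _

/-- Duality in terms of `qd`. -/
theorem qd_perp {F : Ideal (Sr K)} {e d d' : ℕ} (G : GorData F e) (hdd : d + d' = e)
    {W : Submodule K (Sr K)} (hW : Grd F d W) :
    qd F d' (perp F d' W) + qd F d W = cd F d' := by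
  have h1 := finrank_perp G hdd hW
  have h2 := (perp_grd F d' W).add_qd
  have h3 := hW.add_qd
  have h4 := Nd_le_Dd F d'
  unfold cd
  omega

/-- `S_1` maps the perp of `W'` into the perp of `W`. -/
lemma up_perp_le {F : Ideal (Sr K)} {d' : ℕ} {W W' : Submodule K (Sr K)}
    (hle : Sd K 1 * W ≤ W') : up F d' (perp F d' W') ≤ perp F (d' + 1) W := by
  unfold up
  apply sup_le
  · rw [Submodule.mul_le]
    intro ℓ hℓ u hu
    refine ⟨?_, ?_⟩
    · have := (mem_Sd.mp hℓ).mul (mem_Sd.mp hu.1)
      rwa [add_comm] at this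
    · intro w hw
      have h1 : ℓ * w ∈ W' := hle (Submodule.mul_mem_mul hℓ hw)
      have h2 := hu.2 _ h1
      rwa [show u * (ℓ * w) = ℓ * u * w by ring] at h2
  · exact (perp_grd F (d' + 1) W).1

end Vale.Agent.Lib.P200
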