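import Vale.Agent.Lib.P200.Koszul

/-!
# Common eigenvectors and the basic growth lemma
-/

namespace Vale.Agent.Lib.P200

open MvPolynomial Module

section Linear

variable {K : Type*} [Field K] [IsAlgClosed K]
variable {V : Type*} [AddCommGroup V] [Module K V] [FiniteDimensional K V]

lemma exists_eigen_in {f : Module.End K V} {W : Submodule K V} (hW : W ≠ ⊥)
    (hinv : ∀ v ∈ W, f v ∈ W) : ∃ (c : K) (v : V), v ∈ W ∧ v ≠ 0 ∧ f v = c • v := by
  have hnt : Nontrivial W := Submodule.nontrivial_iff_ne_bot.mpr hW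
  obtain ⟨c, hc⟩ := Module.End.exists_eigenvalue (f.restrict hinv)
  obtain ⟨x, hx⟩ := hc.exists_hasEigenvector
  refine ⟨c, x, x.2, ?_, ?_⟩
  · intro h
    exact hx.2 (Subtype.ext h)
  · have := hx.apply_eq_smul
    have h2 := congrArg Subtype.val this
    simpa using h2

/-- Three commuting endomorphisms have a common eigenvector. -/
lemma exists_common_eigen [Nontrivial V] (f : Fin 3 → Module.End K V)
    (hcomm : ∀ i j v, f i (f j v) = f j (f i v)) :
    ∃ (c : Fin 3 → K) (v : V), v ≠ 0 ∧ ∀ i, f i v = c i • v := by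
  -- first eigenspace
  obtain ⟨c0, v0, -, hv0, h0⟩ := exists_eigen_in (f := f 0) (W := ⊤) (by simp) (by simp)
  let W1 : Submodule K V := (f 0 - algebraMap K _ c0).ker
  have hW1 : W1 ≠ ⊥ := by
    intro h
    have : v0 ∈ W1 := by
      simp [W1, h0, Module.algebraMap_end_apply]
    rw [h] at this
    exact hv0 (by simpa using this)
  have hmem1 : ∀ v, v ∈ W1 ↔ f 0 v = c0 • v := by
    intro v
    simp [W1, sub_eq_zero, Module.algebraMap_end_apply]
  obtain ⟨c1, v1, hv1m, hv1, h1⟩ := exists_eigen_in (f := f 1) hW1 (by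
    intro v hv
    rw [hmem1] at hv ⊢
    rw [hcomm 0 1, hv, map_smul])
  let W2 : Submodule K V := W1 ⊓ (f 1 - algebraMap K _ c1).ker
  have hmem2 : ∀ v, v ∈ W2 ↔ f 0 v = c0 • v ∧ f 1 v = c1 • v := by
    intro v
    simp only [W2, Submodule.mem_inf, hmem1, LinearMap.mem_ker, LinearMap.sub_apply,
      Module.algebraMap_end_apply, sub_eq_zero]
  have hW2 : W2 ≠ ⊥ := by
    intro h
    have : v1 ∈ W2 := (hmem2 v1).mpr ⟨(hmem1 v1).mp hv1m, h1⟩
    rw [h] at this
    exact hv1 (by simpa using this)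
  obtain ⟨c2, v2, hv2m, hv2, h2⟩ := exists_eigen_in (f := f 2) hW2 (by
    intro v hv
    rw [hmem2] at hv ⊢
    refine ⟨?_, ?_⟩
    · rw [hcomm 0 2, hv.1, map_smul]
    · rw [hcomm 1 2, hv.2, map_smul])
  have hm := (hmem2 v2).mp hv2m
  refine ⟨![c0, c1, c2], v2, hv2, ?_⟩
  intro i
  fin_cases i
  · exact hm.1
  · exact hm.2
  · exact h2

end Linear

section Alg

variable {K : Type*} [Field K] [IsAlgClosed K]
variable {T : Type*} [CommRing T] [Algebra K T]

/-- Eigenvector lemma: if `ℓ` is a nonzerodivisor and `a i • V ⊆ ℓ • V` then there is a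
common eigenvector. -/
theorem exists_eigen_mul (V : Submodule K T) [FiniteDimensional K V] (hV : V ≠ ⊥)
    {ℓ : T} (hℓ : ∀ t, ℓ * t = 0 → t = 0) (a : Fin 3 → T)
    (ha : ∀ i, ∀ v ∈ V, a i * v ∈ V.map (LinearMap.mulLeft K ℓ)) :
    ∃ (c : Fin 3 → K) (w : T), w ∈ V ∧ w ≠ 0 ∧ ∀ i, a i * w = c i • (ℓ * w) := by
  classical
  have hnt : Nontrivial V := Submodule.nontrivial_iff_ne_bot.mpr hV
  -- choose the division maps
  have hch : ∀ i (v : V), ∃ v' : V, ℓ * (v' : T) = a i * v := by
    intro i v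
    obtain ⟨x, hx, hxe⟩ := ha i v v.2
    exact ⟨⟨x, hx⟩, hxe⟩
  choose g hg using hch
  have hinj : ∀ {s t : T}, ℓ * s = ℓ * t → s = t := by
    intro s t h
    have := hℓ (s - t) (by rw [mul_sub, h, sub_self])
    exact sub_eq_zero.mp this
  let f : Fin 3 → Module.End K V := fun i =>
    { toFun := g i
      map_add' := by
        intro v v'
        apply Subtype.ext
        apply hinj
        simp only [Submodule.coe_add, mul_add, hg]
      map_smul' := by
        intro c v
        apply Subtype.ext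
        apply hinj
        simp only [Submodule.coe_smul, RingHom.id_apply, hg, mul_smul_comm] }
  have hf : ∀ i v, ℓ * ((f i v : V) : T) = a i * v := fun i v => hg i v
  have hcomm : ∀ i j v, f i (f j v) = f j (f i v) := by
    intro i j v
    apply Subtype.ext
    apply hinj
    apply hinj
    calc ℓ * (ℓ * (f i (f j v) : V)) = ℓ * (a i * (f j v : V)) := by rw [hf]
      _ = a i * (ℓ * (f j v : V)) := by ring
      _ = a i * (a j * v) := by rw [hf]
      _ = a j * (a i * v) := by ring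
      _ = a j * (ℓ * (f i v : V)) := by rw [hf]
      _ = ℓ * (a j * (f i v : V)) := by ring
      _ = ℓ * (ℓ * (f j (f i v) : V)) := by rw [hf]
  obtain ⟨c, v, hv, hcv⟩ := exists_common_eigen f hcomm
  refine ⟨c, v, v.2, ?_, ?_⟩
  · intro h
    exact hv (Subtype.ext h)
  · intro i
    rw [← hf i v, hcv i]
    simp only [Submodule.coe_smul, mul_smul_comm]

/-- Growth lemma in an algebra. -/
theorem finrank_growth (V U : Submodule K T) [FiniteDimensional K V] [FiniteDimensional K U]
    (hV : V ≠ ⊥) {ℓ : T} (hℓ : ∀ t, ℓ * t = 0 → t = 0) (a : Fin 3 → T)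
    (hℓU : ∀ v ∈ V, ℓ * v ∈ U) (haU : ∀ i, ∀ v ∈ V, a i * v ∈ U)
    (hno : ∀ (c : Fin 3 → K) (w : T), w ∈ V → w ≠ 0 → ¬ ∀ i, a i * w = c i • (ℓ * w)) :
    finrank K V + 1 ≤ finrank K U := by
  by_contra hlt
  have hinj : Function.Injective (LinearMap.mulLeft K ℓ) := by
    intro s t h
    have := hℓ (s - t) (by
      have h' : ℓ * s = ℓ * t := h
      rw [mul_sub, h', sub_self])
    exact sub_eq_zero.mp this
  have hle : V.map (LinearMap.mulLeft K ℓ) ≤ U := by
    rintro x ⟨v, hv, rfl⟩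
    exact hℓU v hv
  have hdim : finrank K (V.map (LinearMap.mulLeft K ℓ)) = finrank K V :=
    (Submodule.equivMapOfInjective _ hinj V).finrank_eq.symm
  have heq : V.map (LinearMap.mulLeft K ℓ) = U :=
    Submodule.eq_of_le_of_finrank_le hle (by omega)
  obtain ⟨c, w, hw, hw0, hi⟩ := exists_eigen_mul V hV hℓ a (fun i v hv => by
    rw [heq]; exact haU i v hv)
  exact hno c w hw hw0 hi

end Alg

end Vale.Agent.Lib.P200
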