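import Vale.Agent.Lib.P200.BaseChange
import Vale.Agent.Lib.P200.Arith
import Vale.Agent.Lib.P200.Defs

/-!
# Assembling the theorem: from the table to the lex-plus-powers space
-/

namespace Vale.Agent.Lib.P200

open MvPolynomial Module Statement

variable {K : Type*} [Field K]

/-! ### The value of the Hilbert function -/

lemma RegSeq.cd_eq_nd {f v w : Sr K} {a : ℕ} (R : RegSeq f v w a) (ha : 3 ≤ a) (d : ℕ) :
    cd (Ideal.span {f} ⊔ Ideal.span {v} ⊔ Ideal.span {w}) d = nd a d := by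
  unfold nd rw3
  by_cases h0 : d = 0
  · subst h0
    rw [R.cd3_lt (by omega), R.cd1_zero]
    omega
  by_cases h1 : d < a
  · rw [R.cd3_lt h1, R.cd1 d (by omega)]
    omega
  by_cases h2 : d = a
  · subst h2
    have := R.cd3_eq
    omega
  by_cases h3 : d < 2 * a
  · have := R.cd3_mid (by omega) h3
    omega
  by_cases h4 : d = 2 * a
  · subst h4
    rw [R.cd3_top]
    omega
  · rw [R.cd3_above (by omega)]
    omega

/-! ### Monomial regular sequences -/

lemma reg_X_pow {s : Set (Fin 3 →₀ ℕ)} {v : Fin 3} {b : ℕ} (hs : ∀ t ∈ s, t v = 0) (r : Sr K)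
    (hr : (X v : Sr K) ^ b * r ∈ Ideal.span ((fun t => monomial t (1 : K)) '' s)) :
    r ∈ Ideal.span ((fun t => monomial t (1 : K)) '' s) := by
  rw [mem_ideal_span_monomial_image] at hr ⊢
  intro xi hxi
  have h1 : coeff (Finsupp.single v b + xi) ((X v : Sr K) ^ b * r) = coeff xi r := by
    rw [X_pow_eq_monomial, coeff_monomial_mul, one_mul]
  have h2 : Finsupp.single v b + xi ∈ ((X v : Sr K) ^ b * r).support := by
    rw [MvPolynomial.mem_support_iff, h1]
    exact MvPolynomial.mem_support_iff.mp hxi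
  obtain ⟨si, hsi, hle⟩ := hr _ h2
  refine ⟨si, hsi, fun u => ?_⟩
  by_cases huv : u = v
  · subst huv
    rw [hs si hsi]
    exact Nat.zero_le _
  · have := hle u
    rwa [Finsupp.add_apply, Finsupp.single_apply, if_neg (Ne.symm huv), zero_add] at this

lemma span_X_pow_eq (v : Fin 3) (b : ℕ) :
    (Ideal.span {(X v : Sr K) ^ b}) =
      Ideal.span ((fun t => monomial t (1 : K)) '' {Finsupp.single v b}) := by
  rw [Set.image_singleton, X_pow_eq_monomial]

lemma span_X_pow_sup (v v' : Fin 3) (b b' : ℕ) :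
    (Ideal.span {(X v : Sr K) ^ b} ⊔ Ideal.span {(X v' : Sr K) ^ b'}) =
      Ideal.span ((fun t => monomial t (1 : K)) '' {Finsupp.single v b, Finsupp.single v' b'}) := by
  rw [span_X_pow_eq, span_X_pow_eq, ← Ideal.span_union, ← Set.image_union]
  rfl

/-- The monomial complete intersection. -/
lemma regSeq_monomial (a : ℕ) (ha : 3 ≤ a) :
    RegSeq ((X 0 : Sr K) ^ 3) ((X 1 : Sr K) ^ a) ((X 2 : Sr K) ^ a) a where
  ht := by omega
  hf := by simpa using isHomogeneous_X_pow (R := K) (0 : Fin 3) 3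
  f0 := pow_ne_zero _ (X_ne_zero _)
  hv := isHomogeneous_X_pow _ _
  hw := isHomogeneous_X_pow _ _
  rv := by
    intro r hr
    rw [span_X_pow_eq] at hr ⊢
    refine reg_X_pow (v := 1) (b := a) ?_ r hr
    rintro t rfl
    simp
  rw := by
    intro r hr
    rw [span_X_pow_sup] at hr ⊢
    refine reg_X_pow (v := 2) (b := a) ?_ r hr
    rintro t (rfl | rfl)
    · simp
    · simp

lemma powerIdeal_eq (a : ℕ) :
    powerIdeal K ![3, a, a] =
      Ideal.span {(X 0 : Sr K) ^ 3} ⊔ Ideal.span {(X 1 : Sr K) ^ a} ⊔ Ideal.span {(X 2 : Sr K) ^ a} := by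
  unfold powerIdeal
  apply le_antisymm
  · rw [Ideal.span_le]
    rintro _ ⟨i, rfl⟩
    fin_cases i
    · exact Ideal.mem_sup_left (Ideal.mem_sup_left (Ideal.mem_span_singleton_self _))
    · exact Ideal.mem_sup_left (Ideal.mem_sup_right (Ideal.mem_span_singleton_self _))
    · exact Ideal.mem_sup_right (Ideal.mem_span_singleton_self _)
  · refine sup_le (sup_le ?_ ?_) ?_
    · rw [Ideal.span_singleton_le_iff_mem]
      exact Ideal.subset_span ⟨0, rfl⟩
    · rw [Ideal.span_singleton_le_iff_mem]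
      exact Ideal.subset_span ⟨1, rfl⟩
    · rw [Ideal.span_singleton_le_iff_mem]
      exact Ideal.subset_span ⟨2, rfl⟩

/-! ### The rank formula -/

/-- Order of the ranks. -/
lemma rk_lt_of_row {a d i j l i' j' l' : ℕ} (h1 : i + j + l = d) (h2 : i' + j' + l' = d)
    (hi : i ≤ 2) (hj : j + 1 ≤ a) (hl : l + 1 ≤ a) (hi' : i' ≤ 2) (hj' : j' + 1 ≤ a)
    (hl' : l' + 1 ≤ a) (hlt : i' < i) : rk a d i j < rk a d i' j' := by
  have h3 : i' = 0 ∧ i = 1 ∨ i' = 0 ∧ i = 2 ∨ i' = 1 ∧ i = 2 := by omega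
  rcases h3 with ⟨rfl, rfl⟩ | ⟨rfl, rfl⟩ | ⟨rfl, rfl⟩
  all_goals
    simp only [rk_zero, rk_one, rk_two, rw3]
    omega

lemma rk_lt_of_col {a d i j l j' l' : ℕ} (h1 : i + j + l = d) (h2 : i + j' + l' = d)
    (hi : i ≤ 2) (hj : j + 1 ≤ a) (hl : l + 1 ≤ a) (hj' : j' + 1 ≤ a)
    (hl' : l' + 1 ≤ a) (hlt : j' < j) : rk a d i j < rk a d i j' := by
  have h3 : i = 0 ∨ i = 1 ∨ i = 2 := by omega
  rcases h3 with rfl | rfl | rfl
  all_goals
    simp only [rk_zero, rk_one, rk_two, rw3]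
    omega

lemma rk_surj {a d v : ℕ} (ha : 3 ≤ a) (hv : v < nd a d) :
    ∃ i j l, i ≤ 2 ∧ j + 1 ≤ a ∧ l + 1 ≤ a ∧ i + j + l = d ∧ rk a d i j = v := by
  unfold nd at hv
  by_cases h2 : v < rw3 a d 2
  · refine ⟨2, min (a - 1) (d - 2) - v, d - 2 - (min (a - 1) (d - 2) - v), ?_⟩
    rw [rk_two]
    unfold rw3 at *
    omega
  by_cases h1 : v < rw3 a d 2 + rw3 a d 1
  · refine ⟨1, min (a - 1) (d - 1) - (v - rw3 a d 2), d - 1 - (min (a - 1) (d - 1) - (v - rw3 a d 2)), ?_⟩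
    rw [rk_one]
    unfold rw3 at *
    omega
  · refine ⟨0, min (a - 1) d - (v - rw3 a d 2 - rw3 a d 1),
      d - (min (a - 1) d - (v - rw3 a d 2 - rw3 a d 1)), ?_⟩
    rw [rk_zero]
    unfold rw3 at *
    omega

lemma rk_lt_nd {a d i j l : ℕ} (h1 : i + j + l = d) (hi : i ≤ 2) (hj : j + 1 ≤ a) (hl : l + 1 ≤ a) :
    rk a d i j < nd a d := by
  have h3 : i = 0 ∨ i = 1 ∨ i = 2 := by omega
  unfold nd
  rcases h3 with rfl | rfl | rfl
  all_goals
    simp only [rk_zero, rk_one, rk_two, rw3]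
    omega

/-! ### Exponent vectors in three variables -/

lemma deg_three (m : Fin 3 →₀ ℕ) : m.degree = m 0 + m 1 + m 2 := by
  rw [Finsupp.degree_eq_sum, Fin.sum_univ_three]

lemma ext_three {m n : Fin 3 →₀ ℕ} (h0 : m 0 = n 0) (h1 : m 1 = n 1) (h2 : m 2 = n 2) : m = n := by
  ext i
  fin_cases i
  · exact h0
  · exact h1
  · exact h2

/-- The exponent vector with given coordinates. -/
noncomputable def mk3 (i j l : ℕ) : Fin 3 →₀ ℕ := Finsupp.equivFunOnFinite.symm ![i, j, l]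

@[simp] lemma mk3_zero (i j l : ℕ) : mk3 i j l 0 = i := rfl
@[simp] lemma mk3_one (i j l : ℕ) : mk3 i j l 1 = j := rfl
@[simp] lemma mk3_two (i j l : ℕ) : mk3 i j l 2 = l := rfl

lemma outside_iff {a : ℕ} {m : Fin 3 →₀ ℕ} :
    (∀ i, m i < (![3, a, a] : Fin 3 → ℕ) i) ↔ m 0 ≤ 2 ∧ m 1 + 1 ≤ a ∧ m 2 + 1 ≤ a := by
  constructor
  · intro h
    have h0 := h 0
    have h1 := h 1
    have h2 := h 2
    simp at h0 h1 h2
    omega
  · rintro ⟨h0, h1, h2⟩ i
    fin_cases i
    · simp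
      omega
    · simp
      omega
    · simp
      omega

lemma lexGt_iff {m n : Fin 3 →₀ ℕ} :
    LexGt m n ↔ n 0 < m 0 ∨ (m 0 = n 0 ∧ n 1 < m 1) ∨ (m 0 = n 0 ∧ m 1 = n 1 ∧ n 2 < m 2) := by
  unfold LexGt
  constructor
  · rintro ⟨i, hi, hlt⟩
    fin_cases i
    · exact Or.inl hlt
    · exact Or.inr (Or.inl ⟨hi 0 (by decide), hlt⟩)
    · exact Or.inr (Or.inr ⟨hi 0 (by decide), hi 1 (by decide), hlt⟩)
  · rintro (h | ⟨h1, h⟩ | ⟨h1, h2, h⟩)
    · exact ⟨0, fun j hj => absurd hj (by simp), h⟩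
    · refine ⟨1, fun j hj => ?_, h⟩
      have : j = 0 := by omega
      rw [this]
      exact h1
    · refine ⟨2, fun j hj => ?_, h⟩
      have : j = 0 ∨ j = 1 := by omega
      rcases this with rfl | rfl
      · exact h1
      · exact h2

lemma rk_order {a : ℕ} {n n' : Fin 3 →₀ ℕ} (hd : n.degree = n'.degree)
    (hn : n 0 ≤ 2 ∧ n 1 + 1 ≤ a ∧ n 2 + 1 ≤ a) (hn' : n' 0 ≤ 2 ∧ n' 1 + 1 ≤ a ∧ n' 2 + 1 ≤ a)
    (hgt : LexGt n n') : rk a n.degree (n 0) (n 1) < rk a n.degree (n' 0) (n' 1) := by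
  rw [deg_three] at hd
  rw [deg_three] at hd
  rw [lexGt_iff] at hgt
  rcases hgt with h | ⟨h1, h⟩ | ⟨h1, h2, h⟩
  · exact rk_lt_of_row (l := n 2) (l' := n' 2) (deg_three n).symm (by rw [deg_three]; omega)
      hn.1 hn.2.1 hn.2.2 hn'.1 hn'.2.1 hn'.2.2 h
  · rw [← h1]
    exact rk_lt_of_col (l := n 2) (l' := n' 2) (deg_three n).symm (by rw [deg_three]; omega)
      hn.1 hn.2.1 hn.2.2 hn'.2.1 hn'.2.2 h
  · omega

lemma lexGt_trichotomy {n n' : Fin 3 →₀ ℕ} (hd : n.degree = n'.degree) (hne : n ≠ n') :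
    LexGt n n' ∨ LexGt n' n := by
  rw [lexGt_iff, lexGt_iff]
  rw [deg_three] at hd
  rw [deg_three] at hd
  by_contra hcon
  push Not at hcon
  apply hne
  apply ext_three <;> omega

lemma rk_inj {a : ℕ} {n n' : Fin 3 →₀ ℕ} (hd : n.degree = n'.degree)
    (hn : n 0 ≤ 2 ∧ n 1 + 1 ≤ a ∧ n 2 + 1 ≤ a) (hn' : n' 0 ≤ 2 ∧ n' 1 + 1 ≤ a ∧ n' 2 + 1 ≤ a)
    (he : rk a n.degree (n 0) (n 1) = rk a n.degree (n' 0) (n' 1)) : n = n' := by
  by_contra hne
  rcases lexGt_trichotomy hd hne with h | h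
  · have := rk_order hd hn hn' h
    omega
  · have := rk_order hd.symm hn' hn h
    rw [← hd] at this
    omega

/-- The rank formula. -/
theorem lexRank_eq {a : ℕ} (ha : 3 ≤ a) {m : Fin 3 →₀ ℕ}
    (hm : m 0 ≤ 2 ∧ m 1 + 1 ≤ a ∧ m 2 + 1 ≤ a) :
    lexRank ![3, a, a] m = rk a m.degree (m 0) (m 1) := by
  unfold lexRank
  set T : Set (Fin 3 →₀ ℕ) := {n | n.degree = m.degree ∧ (∀ i, n i < (![3, a, a] : Fin 3 → ℕ) i) ∧ LexGt n m}
    with hT
  have hinj : Set.InjOn (fun n : Fin 3 →₀ ℕ => rk a m.degree (n 0) (n 1)) T := by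
    rintro n ⟨hn1, hn2, -⟩ n' ⟨hn1', hn2', -⟩ he
    simp only at he
    rw [← hn1] at he
    exact rk_inj (hn1.trans hn1'.symm) (outside_iff.mp hn2) (outside_iff.mp hn2') he
  have himg : (fun n : Fin 3 →₀ ℕ => rk a m.degree (n 0) (n 1)) '' T =
      ↑(Finset.range (rk a m.degree (m 0) (m 1))) := by
    ext v
    simp only [Set.mem_image, Finset.coe_range, Set.mem_Iio]
    constructor
    · rintro ⟨n, ⟨hn1, hn2, hn3⟩, rfl⟩
      have := rk_order hn1 (outside_iff.mp hn2) hm hn3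
      rwa [hn1] at this
    · intro hv
      have hlt := rk_lt_nd (deg_three m).symm hm.1 hm.2.1 hm.2.2
      obtain ⟨i, j, l, hi, hj, hl, hs, hr⟩ := rk_surj ha (lt_trans hv hlt)
      have hd : (mk3 i j l).degree = m.degree := by
        rw [deg_three]
        simpa using hs
      have hout : (mk3 i j l) 0 ≤ 2 ∧ (mk3 i j l) 1 + 1 ≤ a ∧ (mk3 i j l) 2 + 1 ≤ a := ⟨hi, hj, hl⟩
      refine ⟨mk3 i j l, ⟨hd, outside_iff.mpr hout, ?_⟩, hr⟩
      have hne : mk3 i j l ≠ m := by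
        rintro rfl
        simp only [mk3_zero, mk3_one] at hv
        omega
      rcases lexGt_trichotomy hd hne with h | h
      · exact h
      · exfalso
        have := rk_order hd.symm hm hout h
        simp only [mk3_zero, mk3_one] at this
        omega
  rw [← Set.ncard_image_of_injOn hinj, himg, Set.ncard_coe_finset, Finset.card_range]

/-! ### The lex-plus-powers space -/

section main

variable {f g h : Sr K} {a : ℕ}

lemma monomial_mem_powerIdeal {e : Fin 3 → ℕ} {n : Fin 3 →₀ ℕ} {i : Fin 3} (hi : e i ≤ n i) :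
    (monomial n (1 : K)) ∈ powerIdeal K e := by
  have hle : Finsupp.single i (e i) ≤ n := by
    rw [Finsupp.single_le_iff]
    exact hi
  have he : (monomial n (1 : K) : Sr K) =
      (X i : Sr K) ^ (e i) * monomial (n - Finsupp.single i (e i)) 1 := by
    rw [X_pow_eq_monomial, monomial_mul, one_mul, add_tsub_cancel_of_le hle]
  rw [he]
  exact Ideal.mul_mem_right _ _ (Ideal.subset_span ⟨i, rfl⟩)

lemma degree_add_single (m : Fin 3 →₀ ℕ) (v : Fin 3) : (m + Finsupp.single v 1).degree = m.degree + 1 := by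
  rw [map_add, Finsupp.degree_single]

lemma Nd_power (R : RegSeq f g h a) (ha : 3 ≤ a) (d : ℕ) :
    Nd (powerIdeal K ![3, a, a]) d =
      Nd (Ideal.span {f} ⊔ Ideal.span {g} ⊔ Ideal.span {h}) d := by
  have h1 := R.cd_eq_nd ha d
  have h2 := (regSeq_monomial (K := K) a ha).cd_eq_nd ha d
  rw [← powerIdeal_eq] at h2
  have h3 := Nd_le_Dd (Ideal.span {f} ⊔ Ideal.span {g} ⊔ Ideal.span {h}) d
  have h4 := Nd_le_Dd (powerIdeal K ![3, a, a]) d
  unfold cd at h1 h2
  omega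

lemma excess_eq (R : RegSeq f g h a) (ha : 3 ≤ a) (I : Ideal (Sr K)) (d : ℕ) :
    excess ![3, a, a] I d = Nd I d - Nd (Ideal.span {f} ⊔ Ideal.span {g} ⊔ Ideal.span {h}) d := by
  rw [← Nd_power R ha d]
  rfl

lemma table_excess (R : RegSeq f g h a) (ha : 3 ≤ a) {I : Ideal (Sr K)}
    (hI : Ideal.span {f} ⊔ Ideal.span {g} ⊔ Ideal.span {h} ≤ I) (d : ℕ) :
    tb a d (excess ![3, a, a] I d) ≤ excess ![3, a, a] I (d + 1) := by
  rw [excess_eq R ha, excess_eq R ha]
  exact R.table_general ha hI d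

lemma excess_le (R : RegSeq f g h a) (ha : 3 ≤ a) (I : Ideal (Sr K)) (d : ℕ) :
    excess ![3, a, a] I d ≤ nd a d := by
  rw [excess_eq R ha, ← R.cd_eq_nd ha d]
  have h1 := Nd_le_Dd I d
  unfold cd
  omega

lemma rank_step (R : RegSeq f g h a) (ha : 3 ≤ a) {I : Ideal (Sr K)}
    (hI : Ideal.span {f} ⊔ Ideal.span {g} ⊔ Ideal.span {h} ≤ I) {d : ℕ} {m : Fin 3 →₀ ℕ}
    (hd : m.degree = d) (hout : ∀ i, m i < (![3, a, a] : Fin 3 → ℕ) i)
    (hr : lexRank ![3, a, a] m < excess ![3, a, a] I d) (v : Fin 3)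
    (hout' : ∀ i, (m + Finsupp.single v 1 : Fin 3 →₀ ℕ) i < (![3, a, a] : Fin 3 → ℕ) i) :
    lexRank ![3, a, a] (m + Finsupp.single v 1) < excess ![3, a, a] I (d + 1) := by
  have hm := outside_iff.mp hout
  have hm' := outside_iff.mp hout'
  rw [lexRank_eq ha hm, hd] at hr
  rw [lexRank_eq ha hm', degree_add_single, hd]
  refine lt_of_lt_of_le ?_ (table_excess R ha hI d)
  have hqn := excess_le R ha I d
  have hdeg : m 0 + m 1 + m 2 = d := by rw [← deg_three, hd]
  have hv : v = 0 ∨ v = 1 ∨ v = 2 := by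
    fin_cases v <;> simp
  rcases hv with rfl | rfl | rfl
  · have c0 : (m + Finsupp.single (0 : Fin 3) 1 : Fin 3 →₀ ℕ) 0 = m 0 + 1 := by simp
    have c1 : (m + Finsupp.single (0 : Fin 3) 1 : Fin 3 →₀ ℕ) 1 = m 1 := by simp
    have c2 : (m + Finsupp.single (0 : Fin 3) 1 : Fin 3 →₀ ℕ) 2 = m 2 := by simp
    rw [c0, c1, c2] at hm'
    rw [c0, c1]
    exact shadow_x ha hdeg hm'.1 hm.2.1 hm.2.2 hr hqn
  · have c0 : (m + Finsupp.single (1 : Fin 3) 1 : Fin 3 →₀ ℕ) 0 = m 0 := by simp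
    have c1 : (m + Finsupp.single (1 : Fin 3) 1 : Fin 3 →₀ ℕ) 1 = m 1 + 1 := by simp
    have c2 : (m + Finsupp.single (1 : Fin 3) 1 : Fin 3 →₀ ℕ) 2 = m 2 := by simp
    rw [c0, c1, c2] at hm'
    rw [c0, c1]
    exact shadow_y ha hdeg hm.1 hm'.2.1 hm.2.2 hr hqn
  · have c0 : (m + Finsupp.single (2 : Fin 3) 1 : Fin 3 →₀ ℕ) 0 = m 0 := by simp
    have c1 : (m + Finsupp.single (2 : Fin 3) 1 : Fin 3 →₀ ℕ) 1 = m 1 := by simp
    have c2 : (m + Finsupp.single (2 : Fin 3) 1 : Fin 3 →₀ ℕ) 2 = m 2 + 1 := by simp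
    rw [c0, c1, c2] at hm'
    rw [c0, c1]
    exact shadow_z ha hdeg hm.1 hm.2.1 hm'.2.2 hr hqn

lemma X_mul_mem_lexPiece (R : RegSeq f g h a) (ha : 3 ≤ a) {I : Ideal (Sr K)}
    (hI : Ideal.span {f} ⊔ Ideal.span {g} ⊔ Ideal.span {h} ≤ I) (d : ℕ) (v : Fin 3) :
    lexPiece ![3, a, a] I d ≤
      (lexPiece ![3, a, a] I (d + 1)).comap (LinearMap.mulLeft K (X v : Sr K)) := by
  apply sup_le
  · intro u hu
    apply Submodule.mem_sup_left
    refine ⟨Ideal.mul_mem_left _ _ hu.1, ?_⟩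
    have := (isHomogeneous_X K v).mul (mem_Sd.mp hu.2)
    rw [add_comm] at this
    exact this
  · rw [Submodule.span_le]
    rintro _ ⟨m, ⟨hd, hout, hr⟩, rfl⟩
    change (X v : Sr K) * monomial m (1 : K) ∈ lexPiece ![3, a, a] I (d + 1)
    have hmon : (X v : Sr K) * monomial m (1 : K) = monomial (m + Finsupp.single v 1) 1 := by
      rw [X, monomial_mul, one_mul, add_comm]
    rw [hmon]
    have hdeg : (m + Finsupp.single v 1).degree = d + 1 := by
      rw [degree_add_single, hd]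
    by_cases hout' : ∀ i, (m + Finsupp.single v 1 : Fin 3 →₀ ℕ) i < (![3, a, a] : Fin 3 → ℕ) i
    · apply Submodule.mem_sup_right
      exact Submodule.subset_span ⟨_, ⟨hdeg, hout', rank_step R ha hI hd hout hr v hout'⟩, rfl⟩
    · apply Submodule.mem_sup_left
      push Not at hout'
      obtain ⟨i, hi⟩ := hout'
      exact ⟨monomial_mem_powerIdeal hi, isHomogeneous_monomial _ hdeg⟩

/-- The space `J` is an ideal. -/
theorem mul_mem_lexSpace (R : RegSeq f g h a) (ha : 3 ≤ a) {I : Ideal (Sr K)}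
    (hI : Ideal.span {f} ⊔ Ideal.span {g} ⊔ Ideal.span {h} ≤ I) (r : Sr K) :
    ∀ u ∈ lexSpace ![3, a, a] I, r * u ∈ lexSpace ![3, a, a] I := by
  induction r using MvPolynomial.induction_on with
  | C c =>
    intro u hu
    rw [← smul_eq_C_mul]
    exact Submodule.smul_mem _ _ hu
  | add p q hp hq =>
    intro u hu
    rw [add_mul]
    exact Submodule.add_mem _ (hp u hu) (hq u hu)
  | mul_X p v hp =>
    intro u hu
    rw [mul_assoc]
    apply hp
    have hle : lexSpace ![3, a, a] I ≤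
        (lexSpace ![3, a, a] I).comap (LinearMap.mulLeft K (X v : Sr K)) := by
      unfold lexSpace
      apply iSup_le
      intro d
      refine le_trans (X_mul_mem_lexPiece R ha hI d v) ?_
      exact Submodule.comap_mono (le_iSup (fun d => lexPiece ![3, a, a] I d) (d + 1))
    exact hle hu

/-- The dimension of `J_d` equals that of `I_d`. -/
theorem finrank_lexPiece (R : RegSeq f g h a) (ha : 3 ≤ a) {I : Ideal (Sr K)}
    (hI : Ideal.span {f} ⊔ Ideal.span {g} ⊔ Ideal.span {h} ≤ I) (d : ℕ) :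
    finrank K (lexPiece ![3, a, a] I d) = finrank K (piece I d) := by
  set A : Set (Fin 3 →₀ ℕ) := {m | m.degree = d ∧ (∀ i, m i < (![3, a, a] : Fin 3 → ℕ) i) ∧
    lexRank ![3, a, a] m < excess ![3, a, a] I d} with hA
  set q := excess ![3, a, a] I d with hq
  have hspan : Submodule.span K ((fun m : Fin 3 →₀ ℕ => monomial m (1 : K)) '' A) =
      restrictSupport K A := (restrictSupport_eq_span K A).symm
  have hcard : A.ncard = q := by
    have hinj : Set.InjOn (fun n : Fin 3 →₀ ℕ => rk a d (n 0) (n 1)) A := by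
      rintro n ⟨hn1, hn2, -⟩ n' ⟨hn1', hn2', -⟩ he
      simp only at he
      rw [← hn1] at he
      exact rk_inj (hn1.trans hn1'.symm) (outside_iff.mp hn2) (outside_iff.mp hn2') he
    have himg : (fun n : Fin 3 →₀ ℕ => rk a d (n 0) (n 1)) '' A = ↑(Finset.range q) := by
      ext v
      simp only [Set.mem_image, Finset.coe_range, Set.mem_Iio]
      constructor
      · rintro ⟨n, ⟨hn1, hn2, hn3⟩, rfl⟩
        rw [lexRank_eq ha (outside_iff.mp hn2), hn1] at hn3
        exact hn3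
      · intro hv
        obtain ⟨i, j, l, hi, hj, hl, hs, hr⟩ :=
          rk_surj ha (lt_of_lt_of_le hv (excess_le R ha I d))
        have hd : (mk3 i j l).degree = d := by
          rw [deg_three]
          simpa using hs
        have hout : (mk3 i j l) 0 ≤ 2 ∧ (mk3 i j l) 1 + 1 ≤ a ∧ (mk3 i j l) 2 + 1 ≤ a := ⟨hi, hj, hl⟩
        refine ⟨mk3 i j l, ⟨hd, outside_iff.mpr hout, ?_⟩, hr⟩
        rw [lexRank_eq ha hout, hd]
        simp only [mk3_zero, mk3_one]
        rw [hr]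
        exact hv
    rw [← Set.ncard_image_of_injOn hinj, himg, Set.ncard_coe_finset, Finset.card_range]
  have hfr : finrank K (restrictSupport K A) = q := by
    rw [finrank_eq_nat_card_basis (basisRestrictSupport K A), Nat.card_coe_set_eq, hcard]
  have hbot : piece (powerIdeal K ![3, a, a]) d ⊓ restrictSupport K A = ⊥ := by
    rw [Submodule.eq_bot_iff]
    rintro u ⟨hu1, hu2⟩
    by_contra hne
    obtain ⟨m, hm⟩ : ∃ m, m ∈ u.support := by
      by_contra hcon
      push Not at hcon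
      exact hne (support_eq_empty.mp (Finset.eq_empty_of_forall_notMem hcon))
    have hmA : m ∈ A := ((mem_restrictSupport_iff K).mp hu2) hm
    have hP : powerIdeal K ![3, a, a] =
        Ideal.span ((fun t => monomial t (1 : K)) ''
          (Set.range fun i : Fin 3 => Finsupp.single i ((![3, a, a] : Fin 3 → ℕ) i))) := by
      unfold powerIdeal
      congr 1
      ext x
      constructor
      · rintro ⟨i, rfl⟩
        exact ⟨_, ⟨i, rfl⟩, (X_pow_eq_monomial).symm⟩
      · rintro ⟨_, ⟨i, rfl⟩, rfl⟩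
        exact ⟨i, X_pow_eq_monomial⟩
    have h1 : u ∈ powerIdeal K ![3, a, a] := hu1.1
    rw [hP, mem_ideal_span_monomial_image] at h1
    obtain ⟨_, ⟨i, rfl⟩, hle⟩ := h1 m hm
    have h2 := hmA.2.1 i
    have h3 := hle i
    simp only [Finsupp.single_eq_same] at h3
    omega
  have hfd1 : FiniteDimensional K (piece (powerIdeal K ![3, a, a]) d) :=
    Submodule.finiteDimensional_of_le (slice_le_Sd _ d)
  have hfd2 : FiniteDimensional K (restrictSupport K A) := by
    apply Submodule.finiteDimensional_of_le (S₂ := Sd K d)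
    intro u hu
    intro m hm
    have h6 := ((mem_restrictSupport_iff K).mp hu (MvPolynomial.mem_support_iff.mpr hm)).1
    rw [Finsupp.degree_eq_weight_one] at h6
    exact h6
  have hsum := Submodule.finrank_sup_add_finrank_inf_eq
    (piece (powerIdeal K ![3, a, a]) d) (restrictSupport K A)
  rw [hbot, finrank_bot, add_zero, hfr] at hsum
  unfold lexPiece
  rw [← hq, ← hA, hspan, hsum]
  have h1 : finrank K (piece (powerIdeal K ![3, a, a]) d) ≤ finrank K (piece I d) := by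
    have h2 : Nd (powerIdeal K ![3, a, a]) d = finrank K (piece (powerIdeal K ![3, a, a]) d) := rfl
    have h3 : Nd I d = finrank K (piece I d) := rfl
    rw [← h2, ← h3, Nd_power R ha d]
    have hfd3 : FiniteDimensional K (slice I d) :=
      Submodule.finiteDimensional_of_le (slice_le_Sd _ d)
    exact Submodule.finrank_mono (slice_mono hI d)
  have h4 : q = finrank K (piece I d) - finrank K (piece (powerIdeal K ![3, a, a]) d) := rfl
  omega

end main

end Vale.Agent.Lib.P200
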