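import Vale.Agent.Lib.P200.Eigen

/-!
# Growth of graded pieces modulo one or two forms
-/

namespace Vale.Agent.Lib.P200

open MvPolynomial Module

variable {K : Type*} [Field K]

/-- The dimension of `W / I_k`. -/
noncomputable def qd (I : Ideal (Sr K)) (k : ℕ) (W : Submodule K (Sr K)) : ℕ :=
  finrank K W - Nd I k

/-- The dimension of `(S/I)_d`. -/
noncomputable def cd (I : Ideal (Sr K)) (d : ℕ) : ℕ := Dd K d - Nd I d

/-- `S_1 W + I_{k+1}`. -/
noncomputable def up (I : Ideal (Sr K)) (k : ℕ) (W : Submodule K (Sr K)) : Submodule K (Sr K) :=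
  Sd K 1 * W ⊔ slice I (k + 1)

/-- `W` is a subspace of `S_k` containing `I_k`. -/
def Grd (I : Ideal (Sr K)) (k : ℕ) (W : Submodule K (Sr K)) : Prop := slice I k ≤ W ∧ W ≤ Sd K k

lemma Grd.fd {I : Ideal (Sr K)} {k : ℕ} {W : Submodule K (Sr K)} (h : Grd I k W) :
    FiniteDimensional K W := Submodule.finiteDimensional_of_le h.2

lemma Grd.N_le {I : Ideal (Sr K)} {k : ℕ} {W : Submodule K (Sr K)} (h : Grd I k W) :
    Nd I k ≤ finrank K W := by
  have := h.fd
  exact Submodule.finrank_mono h.1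

lemma Grd.add_qd {I : Ideal (Sr K)} {k : ℕ} {W : Submodule K (Sr K)} (h : Grd I k W) :
    Nd I k + qd I k W = finrank K W := by
  have := h.N_le
  unfold qd
  omega

lemma Sd_one_mul_le {k : ℕ} {W : Submodule K (Sr K)} (h : W ≤ Sd K k) : Sd K 1 * W ≤ Sd K (k + 1) := by
  rw [Submodule.mul_le]
  intro m hm n hn
  have := (mem_Sd.mp hm).mul (mem_Sd.mp (h hn))
  rwa [add_comm] at this

lemma up_grd {I : Ideal (Sr K)} {k : ℕ} {W : Submodule K (Sr K)} (h : W ≤ Sd K k) :
    Grd I (k + 1) (up I k W) :=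
  ⟨le_sup_right, sup_le (Sd_one_mul_le h) (slice_le_Sd _ _)⟩

lemma Grd_slice (I : Ideal (Sr K)) (k : ℕ) : Grd I k (slice I k) := ⟨le_rfl, slice_le_Sd _ _⟩

lemma Grd_top (I : Ideal (Sr K)) (k : ℕ) : Grd I k (Sd K k) := ⟨slice_le_Sd _ _, le_rfl⟩

lemma mem_up_of {I : Ideal (Sr K)} {k : ℕ} {W : Submodule K (Sr K)} {ℓ w : Sr K} (hℓ : ℓ ∈ Sd K 1)
    (hw : w ∈ W) : ℓ * w ∈ up I k W :=
  Submodule.mem_sup_left (Submodule.mul_mem_mul hℓ hw)

lemma X_mem_Sd_one (i : Fin 3) : (X i : Sr K) ∈ Sd K 1 := isHomogeneous_X _ _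

/-- The projection to the quotient as a `K`-linear map. -/
noncomputable abbrev piK (I : Ideal (Sr K)) : Sr K →ₗ[K] (Sr K ⧸ I) :=
  (Ideal.Quotient.mkₐ K I).toLinearMap

lemma piK_apply (I : Ideal (Sr K)) (u : Sr K) : piK I u = Ideal.Quotient.mk I u := rfl

lemma piK_eq_zero {I : Ideal (Sr K)} {u : Sr K} : piK I u = 0 ↔ u ∈ I := by
  rw [piK_apply, Ideal.Quotient.eq_zero_iff_mem]

/-- The dimension of the image of `W` in `S/I` is `qd I k W`. -/
lemma finrank_map_piK {I : Ideal (Sr K)} {k : ℕ} {W : Submodule K (Sr K)} (h : Grd I k W) :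
    finrank K (W.map (piK I)) = qd I k W := by
  have := h.fd
  have h1 := LinearMap.finrank_range_add_finrank_ker ((piK I).domRestrict W)
  have h2 : ((piK I).domRestrict W).range = W.map (piK I) := by
    rw [LinearMap.range_domRestrict]
  have h3 : finrank K ((piK I).domRestrict W).ker = Nd I k := by
    have hE : Submodule.map W.subtype ((piK I).domRestrict W).ker = slice I k := by
      ext u
      constructor
      · rintro ⟨x, hx, rfl⟩
        have hx' : piK I (x : Sr K) = 0 := hx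
        exact ⟨piK_eq_zero.mp hx', h.2 x.2⟩
      · intro hu
        refine ⟨⟨u, h.1 hu⟩, ?_, rfl⟩
        exact piK_eq_zero.mpr hu.1
    rw [← Submodule.finrank_map_subtype_eq W ((piK I).domRestrict W).ker, hE]
  rw [h2, h3] at h1
  unfold qd
  omega

lemma map_piK_ne_bot {I : Ideal (Sr K)} {W : Submodule K (Sr K)} {w : Sr K} (hw : w ∈ W)
    (hwI : w ∉ I) : W.map (piK I) ≠ ⊥ := by
  intro h
  have : piK I w ∈ W.map (piK I) := ⟨w, hw, rfl⟩
  rw [h, Submodule.mem_bot] at this
  exact hwI (piK_eq_zero.mp this)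

/-- Multiplication by a nonzerodivisor does not lower `qd`. -/
lemma qd_le_qd_up {I : Ideal (Sr K)} {k : ℕ} {W : Submodule K (Sr K)} (h : Grd I k W)
    {ℓ : Sr K} (hℓ : ℓ ∈ Sd K 1) (hreg : ∀ w, ℓ * w ∈ I → w ∈ I) :
    qd I k W ≤ qd I (k + 1) (up I k W) := by
  have hU := up_grd (I := I) h.2
  have := h.fd
  have := hU.fd
  rw [← finrank_map_piK h, ← finrank_map_piK hU]
  have hinj : Function.Injective (LinearMap.mulLeft K (piK I ℓ)) := by
    rw [injective_iff_map_eq_zero]
    intro t ht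
    obtain ⟨u, rfl⟩ := Ideal.Quotient.mk_surjective t
    have h1 : piK I (ℓ * u) = 0 := by
      rw [piK_apply, map_mul]
      exact ht
    rw [Ideal.Quotient.eq_zero_iff_mem]
    exact hreg u (piK_eq_zero.mp h1)
  have hle : (W.map (piK I)).map (LinearMap.mulLeft K (piK I ℓ)) ≤ (up I k W).map (piK I) := by
    rintro _ ⟨_, ⟨w, hw, rfl⟩, rfl⟩
    refine ⟨ℓ * w, mem_up_of hℓ hw, ?_⟩
    simp [map_mul]
  have := Submodule.finrank_mono hle
  rwa [show finrank K ((W.map (piK I)).map (LinearMap.mulLeft K (piK I ℓ))) =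
    finrank K (W.map (piK I)) from
    (Submodule.equivMapOfInjective _ hinj _).finrank_eq.symm] at this

/-- The linear forms vanishing at a point annihilate the eigenvector. -/
theorem growth [IsAlgClosed K] {I : Ideal (Sr K)} {k : ℕ} {W : Submodule K (Sr K)} (h : Grd I k W)
    {ℓ : Sr K} (hℓ : ℓ ∈ Sd K 1) (hreg : ∀ w, ℓ * w ∈ I → w ∈ I)
    {w₀ : Sr K} (hw₀ : w₀ ∈ W) (hw₀I : w₀ ∉ I)
    (hcore : ∀ w ∈ W, ∀ P : Fin 3 → K, P ≠ 0 →
      (∀ i j, (P i • (X j : Sr K) - P j • X i) * w ∈ I) → w ∈ I) :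
    qd I k W + 1 ≤ qd I (k + 1) (up I k W) := by
  have hU := up_grd (I := I) h.2
  have := h.fd
  have := hU.fd
  rw [← finrank_map_piK h, ← finrank_map_piK hU]
  refine finrank_growth (W.map (piK I)) ((up I k W).map (piK I)) (map_piK_ne_bot hw₀ hw₀I)
    (ℓ := piK I ℓ) ?_ (fun i => piK I (X i)) ?_ ?_ ?_
  · intro t ht
    obtain ⟨u, rfl⟩ := Ideal.Quotient.mk_surjective t
    have h1 : piK I (ℓ * u) = 0 := by
      rw [piK_apply, map_mul]
      exact ht
    rw [Ideal.Quotient.eq_zero_iff_mem]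
    exact hreg u (piK_eq_zero.mp h1)
  · rintro _ ⟨w, hw, rfl⟩
    refine ⟨ℓ * w, mem_up_of hℓ hw, ?_⟩
    simp [map_mul]
  · rintro i _ ⟨w, hw, rfl⟩
    refine ⟨X i * w, mem_up_of (X_mem_Sd_one i) hw, ?_⟩
    simp [map_mul]
  · rintro c _ ⟨w, hw, rfl⟩ hw0 hi
    have hwI : w ∉ I := fun hh => hw0 (piK_eq_zero.mpr hh)
    apply hwI
    have hsmul : ∀ i, piK I (X i * w) = c i • piK I (ℓ * w) := by
      intro i
      have := hi i
      simpa [piK_apply, map_mul] using this
    refine hcore w hw c ?_ ?_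
    · rintro rfl
      apply hwI
      apply hreg
      have hall : ∀ i, (X i : Sr K) * w ∈ I := by
        intro i
        have := hsmul i
        simp only [Pi.zero_apply, zero_smul] at this
        exact piK_eq_zero.mp this
      have : ∀ u ∈ Sd K 1, u * w ∈ I := by
        intro u hu
        have hu' : u ∈ Submodule.span K (Set.range (X : Fin 3 → Sr K)) := by
          rw [← homogeneousSubmodule_one_eq_span_X]; exact hu
        induction hu' using Submodule.span_induction with
        | mem x hx =>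
          obtain ⟨i, rfl⟩ := hx
          exact hall i
        | zero => simp
        | add x y _ _ hx hy =>
          rw [add_mul]
          exact I.add_mem (hx (by
            rw [show Sd K 1 = Submodule.span K (Set.range (X : Fin 3 → Sr K)) from
              homogeneousSubmodule_one_eq_span_X]; assumption)) (hy (by
            rw [show Sd K 1 = Submodule.span K (Set.range (X : Fin 3 → Sr K)) from
              homogeneousSubmodule_one_eq_span_X]; assumption))
        | smul a x _ hx =>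
          rw [smul_mul_assoc]
          exact Submodule.smul_of_tower_mem _ a (hx (by
            rw [show Sd K 1 = Submodule.span K (Set.range (X : Fin 3 → Sr K)) from
              homogeneousSubmodule_one_eq_span_X]; assumption))
      exact this ℓ hℓ
    · intro i j
      rw [← piK_eq_zero, sub_mul, map_sub, smul_mul_assoc, smul_mul_assoc, map_smul, map_smul,
        hsmul i, hsmul j, smul_smul, smul_smul, mul_comm (c i), sub_self]

end Vale.Agent.Lib.P200
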