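import Vale.Agent.Lib.P200.Basic

/-!
# Koszul cohomology with respect to `x, y, z`, modulo a regular sequence

Elementary versions of the facts `H^i(x,y,z; S/(φ_1..φ_j)) = 0` for `i + j < 3` and
`dim H^{3-j}(x,y,z; S/(φ_1..φ_j)) ≤ 1`.
-/

namespace Vale.Agent.Lib.P200

open MvPolynomial Module

section General

variable {R : Type*} [CommRing R]

lemma mem_sup_span_iff' {I : Ideal R} {φ u : R} :
    u ∈ I ⊔ Ideal.span {φ} ↔ ∃ r, u - φ * r ∈ I := by
  rw [Submodule.mem_sup]
  constructor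
  · rintro ⟨i, hi, j, hj, rfl⟩
    obtain ⟨r, rfl⟩ := Ideal.mem_span_singleton'.mp hj
    refine ⟨r, ?_⟩
    have : i + r * φ - φ * r = i := by ring
    rwa [this]
  · rintro ⟨r, hr⟩
    refine ⟨_, hr, φ * r, Ideal.mul_mem_right _ _ (Ideal.mem_span_singleton_self φ), by ring⟩

variable (x y z : R)

/-- Vanishing of `H^0`. -/
def V0 (I : Ideal R) : Prop := ∀ u, x * u ∈ I → y * u ∈ I → z * u ∈ I → u ∈ I

/-- Vanishing of `H^1`. -/
def V1 (I : Ideal R) : Prop :=
  ∀ a b c, y * a - x * b ∈ I → z * a - x * c ∈ I → z * b - y * c ∈ I →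
    ∃ u, a - x * u ∈ I ∧ b - y * u ∈ I ∧ c - z * u ∈ I

/-- Vanishing of `H^2`. -/
def V2 (I : Ideal R) : Prop :=
  ∀ p q r, z * p - y * q + x * r ∈ I →
    ∃ a b c, p - (y * a - x * b) ∈ I ∧ q - (z * a - x * c) ∈ I ∧ r - (z * b - y * c) ∈ I

variable {x y z}

lemma V0_step {I : Ideal R} {φ : R} (hreg : ∀ w, φ * w ∈ I → w ∈ I)
    (h0 : V0 x y z I) (h1 : V1 x y z I) : V0 x y z (I ⊔ Ideal.span {φ}) := by
  intro u hx hy hz
  obtain ⟨e1, he1⟩ := mem_sup_span_iff'.mp hx
  obtain ⟨e2, he2⟩ := mem_sup_span_iff'.mp hy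
  obtain ⟨e3, he3⟩ := mem_sup_span_iff'.mp hz
  have c12 : y * e1 - x * e2 ∈ I := by
    apply hreg
    have := I.sub_mem (I.mul_mem_left x he2) (I.mul_mem_left y he1)
    rwa [show x * (y * u - φ * e2) - y * (x * u - φ * e1) = φ * (y * e1 - x * e2) by ring] at this
  have c13 : z * e1 - x * e3 ∈ I := by
    apply hreg
    have := I.sub_mem (I.mul_mem_left x he3) (I.mul_mem_left z he1)
    rwa [show x * (z * u - φ * e3) - z * (x * u - φ * e1) = φ * (z * e1 - x * e3) by ring] at this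
  have c23 : z * e2 - y * e3 ∈ I := by
    apply hreg
    have := I.sub_mem (I.mul_mem_left y he3) (I.mul_mem_left z he2)
    rwa [show y * (z * u - φ * e3) - z * (y * u - φ * e2) = φ * (z * e2 - y * e3) by ring] at this
  obtain ⟨t, ht1, ht2, ht3⟩ := h1 e1 e2 e3 c12 c13 c23
  rw [mem_sup_span_iff']
  refine ⟨t, h0 _ ?_ ?_ ?_⟩
  · have := I.add_mem he1 (I.mul_mem_left φ ht1)
    rwa [show x * u - φ * e1 + φ * (e1 - x * t) = x * (u - φ * t) by ring] at this
  · have := I.add_mem he2 (I.mul_mem_left φ ht2)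
    rwa [show y * u - φ * e2 + φ * (e2 - y * t) = y * (u - φ * t) by ring] at this
  · have := I.add_mem he3 (I.mul_mem_left φ ht3)
    rwa [show z * u - φ * e3 + φ * (e3 - z * t) = z * (u - φ * t) by ring] at this

lemma V1_step {I : Ideal R} {φ : R} (hreg : ∀ w, φ * w ∈ I → w ∈ I)
    (h1 : V1 x y z I) (h2 : V2 x y z I) : V1 x y z (I ⊔ Ideal.span {φ}) := by
  intro a b c hab hac hbc
  obtain ⟨e1, he1⟩ := mem_sup_span_iff'.mp hab
  obtain ⟨e2, he2⟩ := mem_sup_span_iff'.mp hac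
  obtain ⟨e3, he3⟩ := mem_sup_span_iff'.mp hbc
  have hc : z * e1 - y * e2 + x * e3 ∈ I := by
    apply hreg
    have := I.sub_mem (I.sub_mem (I.mul_mem_left y he2) (I.mul_mem_left z he1)) (I.mul_mem_left x he3)
    rwa [show y * (z * a - x * c - φ * e2) - z * (y * a - x * b - φ * e1)
      - x * (z * b - y * c - φ * e3) = φ * (z * e1 - y * e2 + x * e3) by ring] at this
  obtain ⟨α, β, γ, h1a, h2a, h3a⟩ := h2 e1 e2 e3 hc
  obtain ⟨u, hu1, hu2, hu3⟩ := h1 (a - φ * α) (b - φ * β) (c - φ * γ)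
    (by
      have := I.add_mem he1 (I.mul_mem_left φ h1a)
      rwa [show y * a - x * b - φ * e1 + φ * (e1 - (y * α - x * β))
        = y * (a - φ * α) - x * (b - φ * β) by ring] at this)
    (by
      have := I.add_mem he2 (I.mul_mem_left φ h2a)
      rwa [show z * a - x * c - φ * e2 + φ * (e2 - (z * α - x * γ))
        = z * (a - φ * α) - x * (c - φ * γ) by ring] at this)
    (by
      have := I.add_mem he3 (I.mul_mem_left φ h3a)
      rwa [show z * b - y * c - φ * e3 + φ * (e3 - (z * β - y * γ))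
        = z * (b - φ * β) - y * (c - φ * γ) by ring] at this)
  refine ⟨u, ?_, ?_, ?_⟩
  · rw [mem_sup_span_iff']
    exact ⟨α, by rwa [show a - x * u - φ * α = a - φ * α - x * u by ring]⟩
  · rw [mem_sup_span_iff']
    exact ⟨β, by rwa [show b - y * u - φ * β = b - φ * β - y * u by ring]⟩
  · rw [mem_sup_span_iff']
    exact ⟨γ, by rwa [show c - z * u - φ * γ = c - φ * γ - z * u by ring]⟩

end General

section Dim

variable {K : Type*} [Field K] {R : Type*} [CommRing R] [Algebra K R]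
variable (K) (x y z : R)

/-- `dim H^0 ≤ 1`. -/
def R0 (I : Ideal R) : Prop :=
  ∀ u u', x * u ∈ I → y * u ∈ I → z * u ∈ I → x * u' ∈ I → y * u' ∈ I → z * u' ∈ I →
    ∃ l l' : K, (l ≠ 0 ∨ l' ≠ 0) ∧ l • u + l' • u' ∈ I

/-- `dim H^1 ≤ 1`. -/
def R1 (I : Ideal R) : Prop :=
  ∀ a b c a' b' c', y * a - x * b ∈ I → z * a - x * c ∈ I → z * b - y * c ∈ I →
    y * a' - x * b' ∈ I → z * a' - x * c' ∈ I → z * b' - y * c' ∈ I →
    ∃ l l' : K, (l ≠ 0 ∨ l' ≠ 0) ∧ ∃ u, (l • a + l' • a') - x * u ∈ I ∧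
      (l • b + l' • b') - y * u ∈ I ∧ (l • c + l' • c') - z * u ∈ I

/-- `dim H^2 ≤ 1`. -/
def R2 (I : Ideal R) : Prop :=
  ∀ p q r p' q' r', z * p - y * q + x * r ∈ I → z * p' - y * q' + x * r' ∈ I →
    ∃ l l' : K, (l ≠ 0 ∨ l' ≠ 0) ∧ ∃ a b c, (l • p + l' • p') - (y * a - x * b) ∈ I ∧
      (l • q + l' • q') - (z * a - x * c) ∈ I ∧ (l • r + l' • r') - (z * b - y * c) ∈ I

/-- `dim H^3 ≤ 1`. -/
def R3 (I : Ideal R) : Prop :=
  ∀ s s' : R, ∃ l l' : K, (l ≠ 0 ∨ l' ≠ 0) ∧ ∃ A B C, (l • s + l' • s') - (x * A + y * B + z * C) ∈ I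

variable {K x y z}

lemma R2_step {I : Ideal R} {φ : R}
    (h2 : V2 x y z I) (h3 : R3 K x y z I) : R2 K x y z (I ⊔ Ideal.span {φ}) := by
  intro p q r p' q' r' hc hc'
  obtain ⟨s, hs⟩ := mem_sup_span_iff'.mp hc
  obtain ⟨s', hs'⟩ := mem_sup_span_iff'.mp hc'
  obtain ⟨l, l', hl, A, B, C, hABC⟩ := h3 s s'
  have key : z * (l • p + l' • p' - φ * C) - y * (l • q + l' • q' + φ * B)
      + x * (l • r + l' • r' - φ * A) ∈ I := by
    have h1 := I.add_mem (I.add_mem (Ideal.mul_mem_left I (algebraMap K R l) hs)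
      (Ideal.mul_mem_left I (algebraMap K R l') hs')) (I.mul_mem_left φ hABC)
    have e : algebraMap K R l * (z * p - y * q + x * r - φ * s) +
        algebraMap K R l' * (z * p' - y * q' + x * r' - φ * s') +
        φ * (l • s + l' • s' - (x * A + y * B + z * C)) =
        z * (l • p + l' • p' - φ * C) - y * (l • q + l' • q' + φ * B)
          + x * (l • r + l' • r' - φ * A) := by
      simp only [Algebra.smul_def]
      ring
    rwa [e] at h1
  obtain ⟨a, b, c, ha, hb, hc⟩ := h2 _ _ _ key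
  refine ⟨l, l', hl, a, b, c, ?_, ?_, ?_⟩
  · rw [mem_sup_span_iff']
    exact ⟨C, by rwa [show l • p + l' • p' - (y * a - x * b) - φ * C
      = l • p + l' • p' - φ * C - (y * a - x * b) by ring]⟩
  · rw [mem_sup_span_iff']
    exact ⟨-B, by rwa [show l • q + l' • q' - (z * a - x * c) - φ * -B
      = l • q + l' • q' + φ * B - (z * a - x * c) by ring]⟩
  · rw [mem_sup_span_iff']
    exact ⟨A, by rwa [show l • r + l' • r' - (z * b - y * c) - φ * A
      = l • r + l' • r' - φ * A - (z * b - y * c) by ring]⟩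

lemma R1_step {I : Ideal R} {φ : R} (hreg : ∀ w, φ * w ∈ I → w ∈ I)
    (h1 : V1 x y z I) (h2 : R2 K x y z I) : R1 K x y z (I ⊔ Ideal.span {φ}) := by
  intro a b c a' b' c' hab hac hbc hab' hac' hbc'
  obtain ⟨e1, he1⟩ := mem_sup_span_iff'.mp hab
  obtain ⟨e2, he2⟩ := mem_sup_span_iff'.mp hac
  obtain ⟨e3, he3⟩ := mem_sup_span_iff'.mp hbc
  obtain ⟨e1', he1'⟩ := mem_sup_span_iff'.mp hab'
  obtain ⟨e2', he2'⟩ := mem_sup_span_iff'.mp hac'
  obtain ⟨e3', he3'⟩ := mem_sup_span_iff'.mp hbc'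
  have hc : z * e1 - y * e2 + x * e3 ∈ I := by
    apply hreg
    have := I.sub_mem (I.sub_mem (I.mul_mem_left y he2) (I.mul_mem_left z he1)) (I.mul_mem_left x he3)
    rwa [show y * (z * a - x * c - φ * e2) - z * (y * a - x * b - φ * e1)
      - x * (z * b - y * c - φ * e3) = φ * (z * e1 - y * e2 + x * e3) by ring] at this
  have hc' : z * e1' - y * e2' + x * e3' ∈ I := by
    apply hreg
    have := I.sub_mem (I.sub_mem (I.mul_mem_left y he2') (I.mul_mem_left z he1')) (I.mul_mem_left x he3')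
    rwa [show y * (z * a' - x * c' - φ * e2') - z * (y * a' - x * b' - φ * e1')
      - x * (z * b' - y * c' - φ * e3') = φ * (z * e1' - y * e2' + x * e3') by ring] at this
  obtain ⟨l, l', hl, α, β, γ, h1a, h2a, h3a⟩ := h2 e1 e2 e3 e1' e2' e3' hc hc'
  obtain ⟨u, hu1, hu2, hu3⟩ := h1 (l • a + l' • a' - φ * α) (l • b + l' • b' - φ * β)
      (l • c + l' • c' - φ * γ)
    (by
      have := I.add_mem (I.add_mem (Ideal.mul_mem_left I (algebraMap K R l) he1)
        (Ideal.mul_mem_left I (algebraMap K R l') he1')) (I.mul_mem_left φ h1a)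
      convert this using 1
      simp only [Algebra.smul_def]
      ring)
    (by
      have := I.add_mem (I.add_mem (Ideal.mul_mem_left I (algebraMap K R l) he2)
        (Ideal.mul_mem_left I (algebraMap K R l') he2')) (I.mul_mem_left φ h2a)
      convert this using 1
      simp only [Algebra.smul_def]
      ring)
    (by
      have := I.add_mem (I.add_mem (Ideal.mul_mem_left I (algebraMap K R l) he3)
        (Ideal.mul_mem_left I (algebraMap K R l') he3')) (I.mul_mem_left φ h3a)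
      convert this using 1
      simp only [Algebra.smul_def]
      ring)
  refine ⟨l, l', hl, u, ?_, ?_, ?_⟩
  · rw [mem_sup_span_iff']
    exact ⟨α, by rwa [show l • a + l' • a' - x * u - φ * α = l • a + l' • a' - φ * α - x * u by ring]⟩
  · rw [mem_sup_span_iff']
    exact ⟨β, by rwa [show l • b + l' • b' - y * u - φ * β = l • b + l' • b' - φ * β - y * u by ring]⟩
  · rw [mem_sup_span_iff']
    exact ⟨γ, by rwa [show l • c + l' • c' - z * u - φ * γ = l • c + l' • c' - φ * γ - z * u by ring]⟩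

lemma R0_step {I : Ideal R} {φ : R} (hreg : ∀ w, φ * w ∈ I → w ∈ I)
    (h0 : V0 x y z I) (h1 : R1 K x y z I) : R0 K x y z (I ⊔ Ideal.span {φ}) := by
  intro u u' hx hy hz hx' hy' hz'
  obtain ⟨e1, he1⟩ := mem_sup_span_iff'.mp hx
  obtain ⟨e2, he2⟩ := mem_sup_span_iff'.mp hy
  obtain ⟨e3, he3⟩ := mem_sup_span_iff'.mp hz
  obtain ⟨e1', he1'⟩ := mem_sup_span_iff'.mp hx'
  obtain ⟨e2', he2'⟩ := mem_sup_span_iff'.mp hy'
  obtain ⟨e3', he3'⟩ := mem_sup_span_iff'.mp hz'
  have c12 : y * e1 - x * e2 ∈ I := by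
    apply hreg
    have := I.sub_mem (I.mul_mem_left x he2) (I.mul_mem_left y he1)
    rwa [show x * (y * u - φ * e2) - y * (x * u - φ * e1) = φ * (y * e1 - x * e2) by ring] at this
  have c13 : z * e1 - x * e3 ∈ I := by
    apply hreg
    have := I.sub_mem (I.mul_mem_left x he3) (I.mul_mem_left z he1)
    rwa [show x * (z * u - φ * e3) - z * (x * u - φ * e1) = φ * (z * e1 - x * e3) by ring] at this
  have c23 : z * e2 - y * e3 ∈ I := by
    apply hreg
    have := I.sub_mem (I.mul_mem_left y he3) (I.mul_mem_left z he2)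
    rwa [show y * (z * u - φ * e3) - z * (y * u - φ * e2) = φ * (z * e2 - y * e3) by ring] at this
  have c12' : y * e1' - x * e2' ∈ I := by
    apply hreg
    have := I.sub_mem (I.mul_mem_left x he2') (I.mul_mem_left y he1')
    rwa [show x * (y * u' - φ * e2') - y * (x * u' - φ * e1') = φ * (y * e1' - x * e2') by ring] at this
  have c13' : z * e1' - x * e3' ∈ I := by
    apply hreg
    have := I.sub_mem (I.mul_mem_left x he3') (I.mul_mem_left z he1')
    rwa [show x * (z * u' - φ * e3') - z * (x * u' - φ * e1') = φ * (z * e1' - x * e3') by ring] at this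
  have c23' : z * e2' - y * e3' ∈ I := by
    apply hreg
    have := I.sub_mem (I.mul_mem_left y he3') (I.mul_mem_left z he2')
    rwa [show y * (z * u' - φ * e3') - z * (y * u' - φ * e2') = φ * (z * e2' - y * e3') by ring] at this
  obtain ⟨l, l', hl, t, ht1, ht2, ht3⟩ := h1 e1 e2 e3 e1' e2' e3' c12 c13 c23 c12' c13' c23'
  refine ⟨l, l', hl, ?_⟩
  rw [mem_sup_span_iff']
  refine ⟨t, h0 _ ?_ ?_ ?_⟩
  · have := I.add_mem (I.add_mem (Ideal.mul_mem_left I (algebraMap K R l) he1)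
      (Ideal.mul_mem_left I (algebraMap K R l') he1')) (I.mul_mem_left φ ht1)
    convert this using 1
    simp only [Algebra.smul_def]
    ring
  · have := I.add_mem (I.add_mem (Ideal.mul_mem_left I (algebraMap K R l) he2)
      (Ideal.mul_mem_left I (algebraMap K R l') he2')) (I.mul_mem_left φ ht2)
    convert this using 1
    simp only [Algebra.smul_def]
    ring
  · have := I.add_mem (I.add_mem (Ideal.mul_mem_left I (algebraMap K R l) he3)
      (Ideal.mul_mem_left I (algebraMap K R l') he3')) (I.mul_mem_left φ ht3)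
    convert this using 1
    simp only [Algebra.smul_def]
    ring

end Dim


section Base

variable {K : Type*} [Field K]

/-- The three variables. -/
noncomputable abbrev xx (K : Type*) [Field K] : Sr K := X 0
/-- The three variables. -/
noncomputable abbrev yy (K : Type*) [Field K] : Sr K := X 1
/-- The three variables. -/
noncomputable abbrev zz (K : Type*) [Field K] : Sr K := X 2

lemma V0_bot : V0 (xx K) (yy K) (zz K) ⊥ := by
  intro u hx _ _
  rw [Ideal.mem_bot] at *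
  exact (mul_eq_zero.mp hx).resolve_left (X_ne_zero _)

lemma X_not_dvd {i j : Fin 3} (h : i ≠ j) : ¬ (X i : Sr K) ∣ X j := by
  rw [X_dvd_X]
  exact h

lemma V1_bot : V1 (xx K) (yy K) (zz K) ⊥ := by
  intro a b c h1 h2 h3
  rw [Ideal.mem_bot] at *
  have hxa : xx K ∣ yy K * a := ⟨b, sub_eq_zero.mp h1⟩
  obtain ⟨u, rfl⟩ := ((X_prime (i := (0 : Fin 3)) (R := K)).dvd_or_dvd hxa).resolve_left
    (X_not_dvd (by decide))
  have hb : b = yy K * u := by
    apply mul_left_cancel₀ (X_ne_zero (0 : Fin 3))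
    have : yy K * (xx K * u) = xx K * b := sub_eq_zero.mp h1
    linear_combination -this
  have hc : c = zz K * u := by
    apply mul_left_cancel₀ (X_ne_zero (0 : Fin 3))
    have : zz K * (xx K * u) = xx K * c := sub_eq_zero.mp h2
    linear_combination -this
  refine ⟨u, by simp, ?_, ?_⟩
  · rw [hb]; simp
  · rw [hc]; simp

/-- Setting `x = y = 0`. -/
noncomputable def evalZ (K : Type*) [Field K] : Sr K →ₐ[K] Sr K :=
  aeval (fun i : Fin 3 => if i = 2 then X 2 else 0)

lemma evalZ_sub_mem (u : Sr K) : ∃ A B, u - evalZ K u = xx K * A + yy K * B := by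
  induction u using MvPolynomial.induction_on with
  | C a => exact ⟨0, 0, by simp [evalZ]⟩
  | add p q hp hq =>
    obtain ⟨A, B, h⟩ := hp
    obtain ⟨A', B', h'⟩ := hq
    refine ⟨A + A', B + B', ?_⟩
    rw [map_add]
    linear_combination h + h'
  | mul_X p i hp =>
    obtain ⟨A, B, h⟩ := hp
    fin_cases i
    · refine ⟨p, 0, ?_⟩
      simp [evalZ, map_mul]
      ring
    · refine ⟨0, p, ?_⟩
      simp [evalZ, map_mul]
      ring
    · refine ⟨zz K * A, zz K * B, ?_⟩
      have h3 : evalZ K (X 2) = zz K := by simp [evalZ]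
      rw [map_mul]
      change p * zz K - evalZ K p * evalZ K (X 2) = _
      rw [h3]
      linear_combination (zz K) * h

lemma V2_bot : V2 (xx K) (yy K) (zz K) ⊥ := by
  intro p q r h
  rw [Ideal.mem_bot] at h
  have h0 : evalZ K p = 0 := by
    have h1 := congrArg (evalZ K) h
    simp only [map_add, map_sub, map_mul, map_zero] at h1
    have hx : evalZ K (xx K) = 0 := by simp [evalZ]
    have hy : evalZ K (yy K) = 0 := by simp [evalZ]
    have hz : evalZ K (zz K) = zz K := by simp [evalZ]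
    rw [hx, hy, hz] at h1
    simp only [zero_mul, sub_zero, add_zero] at h1
    exact (mul_eq_zero.mp h1).resolve_left (X_ne_zero _)
  obtain ⟨A, B, hAB⟩ := evalZ_sub_mem p
  rw [h0, sub_zero] at hAB
  -- `p = y * B + x * A`, take `a = B`, `b = -A`
  have hq : xx K ∣ zz K * B - q := by
    have hdvd : xx K ∣ yy K * (zz K * B - q) := ⟨zz K * (-A) - r, by
      rw [hAB] at h
      linear_combination h⟩
    exact ((X_prime (i := (0 : Fin 3)) (R := K)).dvd_or_dvd hdvd).resolve_left (X_not_dvd (by decide))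
  obtain ⟨c, hc⟩ := hq
  refine ⟨B, -A, c, ?_, ?_, ?_⟩
  · rw [Ideal.mem_bot, hAB]; ring
  · rw [Ideal.mem_bot]; linear_combination -hc
  · rw [Ideal.mem_bot]
    apply mul_left_cancel₀ (X_ne_zero (0 : Fin 3))
    rw [hAB] at h
    have hq' : q = zz K * B - xx K * c := by linear_combination -hc
    rw [hq'] at h
    linear_combination h

lemma constant_decomp (u : Sr K) : ∃ A B D, u - C (coeff 0 u) = xx K * A + yy K * B + zz K * D := by
  induction u using MvPolynomial.induction_on with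
  | C a => exact ⟨0, 0, 0, by simp⟩
  | add p q hp hq =>
    obtain ⟨A, B, D, h⟩ := hp
    obtain ⟨A', B', D', h'⟩ := hq
    refine ⟨A + A', B + B', D + D', ?_⟩
    rw [coeff_add, map_add]
    linear_combination h + h'
  | mul_X p i hp =>
    have h0 : coeff 0 (p * X i) = 0 := by simp [coeff_mul_X']
    rw [h0, map_zero, sub_zero]
    fin_cases i
    · exact ⟨p, 0, 0, by simp; ring⟩
    · exact ⟨0, p, 0, by simp; ring⟩
    · exact ⟨0, 0, p, by simp; ring⟩

lemma R3_bot : R3 K (xx K) (yy K) (zz K) ⊥ := by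
  intro s s'
  obtain ⟨A, B, D, h⟩ := constant_decomp s
  obtain ⟨A', B', D', h'⟩ := constant_decomp s'
  by_cases hc : coeff 0 s = 0 ∧ coeff 0 s' = 0
  · refine ⟨1, 0, Or.inl one_ne_zero, A, B, D, ?_⟩
    rw [hc.1, map_zero, sub_zero] at h
    rw [Ideal.mem_bot, h]
    simp
  · refine ⟨coeff 0 s', - coeff 0 s, ?_, coeff 0 s' • A - coeff 0 s • A',
      coeff 0 s' • B - coeff 0 s • B', coeff 0 s' • D - coeff 0 s • D', ?_⟩
    · by_contra hcon
      push Not at hcon
      exact hc ⟨by simpa using hcon.2, hcon.1⟩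
    · rw [Ideal.mem_bot]
      simp only [smul_eq_C_mul, map_neg]
      linear_combination (C (coeff 0 s')) * h - (C (coeff 0 s)) * h'

/-- All the Koszul facts for a regular sequence of length three. -/
theorem koszul_chain {φ₁ φ₂ φ₃ : Sr K} (h₁ : φ₁ ≠ 0)
    (h₂ : ∀ w, φ₂ * w ∈ Ideal.span {φ₁} → w ∈ Ideal.span {φ₁})
    (h₃ : ∀ w, φ₃ * w ∈ Ideal.span {φ₁} ⊔ Ideal.span {φ₂} → w ∈ Ideal.span {φ₁} ⊔ Ideal.span {φ₂}) :
    R0 K (xx K) (yy K) (zz K) (Ideal.span {φ₁} ⊔ Ideal.span {φ₂} ⊔ Ideal.span {φ₃}) := by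
  have hb : ∀ w, φ₁ * w ∈ (⊥ : Ideal (Sr K)) → w ∈ (⊥ : Ideal (Sr K)) := by
    intro w hw
    rw [Ideal.mem_bot] at *
    exact (mul_eq_zero.mp hw).resolve_left h₁
  have a0 : V0 (xx K) (yy K) (zz K) (Ideal.span {φ₁}) := by
    have := V0_step hb V0_bot V1_bot
    rwa [bot_sup_eq] at this
  have a1 : V1 (xx K) (yy K) (zz K) (Ideal.span {φ₁}) := by
    have := V1_step hb V1_bot V2_bot
    rwa [bot_sup_eq] at this
  have a2 : R2 K (xx K) (yy K) (zz K) (Ideal.span {φ₁}) := by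
    have := R2_step (φ := φ₁) V2_bot R3_bot
    rwa [bot_sup_eq] at this
  exact R0_step h₃ (V0_step h₂ a0 a1) (R1_step h₂ a1 a2)

/-- Depth at least one modulo one element. -/
theorem V0_one {φ₁ : Sr K} (h₁ : φ₁ ≠ 0) :
    V0 (xx K) (yy K) (zz K) (Ideal.span {φ₁}) := by
  have hb : ∀ w, φ₁ * w ∈ (⊥ : Ideal (Sr K)) → w ∈ (⊥ : Ideal (Sr K)) := by
    intro w hw
    rw [Ideal.mem_bot] at *
    exact (mul_eq_zero.mp hw).resolve_left h₁
  have := V0_step hb V0_bot V1_bot
  rwa [bot_sup_eq] at this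

/-- Depth at least one modulo two elements forming a regular sequence. -/
theorem V0_two {φ₁ φ₂ : Sr K} (h₁ : φ₁ ≠ 0)
    (h₂ : ∀ w, φ₂ * w ∈ Ideal.span {φ₁} → w ∈ Ideal.span {φ₁}) :
    V0 (xx K) (yy K) (zz K) (Ideal.span {φ₁} ⊔ Ideal.span {φ₂}) := by
  have hb : ∀ w, φ₁ * w ∈ (⊥ : Ideal (Sr K)) → w ∈ (⊥ : Ideal (Sr K)) := by
    intro w hw
    rw [Ideal.mem_bot] at *
    exact (mul_eq_zero.mp hw).resolve_left h₁
  have a0 : V0 (xx K) (yy K) (zz K) (Ideal.span {φ₁}) := by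
    have := V0_step hb V0_bot V1_bot
    rwa [bot_sup_eq] at this
  have a1 : V1 (xx K) (yy K) (zz K) (Ideal.span {φ₁}) := by
    have := V1_step hb V1_bot V2_bot
    rwa [bot_sup_eq] at this
  exact V0_step h₂ a0 a1

end Base

end Vale.Agent.Lib.P200
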