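import Vale.Agent.Lib.P200.Tables

/-!
# Macaulay-type growth bounds modulo a form of degree at most three
-/

namespace Vale.Agent.Lib.P200

open MvPolynomial Module

variable {K : Type*} [Field K] [IsAlgClosed K]

lemma exists_nzd_linear {I : Ideal (Sr K)} (h0 : V0 (xx K) (yy K) (zz K) I) :
    ∃ ℓ ∈ Sd K 1, ∀ w, ℓ * w ∈ I → w ∈ I :=
  exists_nzd_of_avoid (Sd K 1) (fun _ h𝔭 hall =>
    not_all_X_mem_of_V0 h0 h𝔭 (fun i => hall _ (X_mem_Sd_one i)))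

omit [IsAlgClosed K] in
lemma form_homog (P : Fin 3 → K) (i j : Fin 3) :
    (P i • (X j : Sr K) - P j • X i).IsHomogeneous 1 :=
  IsHomogeneous.sub ((homogeneousSubmodule (Fin 3) K 1).smul_mem _ (isHomogeneous_X K _))
    ((homogeneousSubmodule (Fin 3) K 1).smul_mem _ (isHomogeneous_X K _))

theorem growth_one {p : Sr K} (h0 : p ≠ 0) {k : ℕ} {W : Submodule K (Sr K)}
    (hW : Grd (Ideal.span {p}) k W) (hq : 1 ≤ qd (Ideal.span {p}) k W) :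
    qd (Ideal.span {p}) k W + 1 ≤ qd (Ideal.span {p}) (k + 1) (up (Ideal.span {p}) k W) := by
  obtain ⟨ℓ, hℓ, hreg⟩ := exists_nzd_linear (V0_one h0)
  obtain ⟨w₀, hw₀, hw₀I⟩ := mem_of_qd_pos hW hq
  refine growth hW hℓ hreg hw₀ hw₀I ?_
  intro w _ P hP hall
  obtain ⟨i, j, k', -, -, -, hprime, hnd⟩ := two_forms P hP
  exact core_one h0 hprime hnd (hall i j) (hall i k')

theorem growth_two {p v : Sr K} {δ t k : ℕ} (hp : p.IsHomogeneous δ) (h0 : p ≠ 0)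
    (hv : v.IsHomogeneous t) (hreg : ∀ r, v * r ∈ Ideal.span {p} → r ∈ Ideal.span {p})
    (hdeg : k + 2 < t + δ) {W : Submodule K (Sr K)}
    (hW : Grd (Ideal.span {p} ⊔ Ideal.span {v}) k W)
    (hq : 1 ≤ qd (Ideal.span {p} ⊔ Ideal.span {v}) k W) :
    qd (Ideal.span {p} ⊔ Ideal.span {v}) k W + 1 ≤
      qd (Ideal.span {p} ⊔ Ideal.span {v}) (k + 1) (up (Ideal.span {p} ⊔ Ideal.span {v}) k W) := by
  obtain ⟨ℓ, hℓ, hregℓ⟩ := exists_nzd_linear (V0_two h0 hreg)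
  obtain ⟨w₀, hw₀, hw₀I⟩ := mem_of_qd_pos hW hq
  refine growth hW hℓ hregℓ hw₀ hw₀I ?_
  intro w hw P hP hall
  obtain ⟨i, j, k', -, -, -, hprime, hnd⟩ := two_forms P hP
  exact core_two hp h0 hv hreg (hW.2 hw) hdeg hprime (form_homog P i j) (form_homog P i k') hnd
    (hall i j) (hall i k')

omit [IsAlgClosed K] in
lemma one_not_mem_span {p : Sr K} {δ : ℕ} (hp : p.IsHomogeneous δ) (h0 : p ≠ 0) (hδ : 1 ≤ δ) :
    (1 : Sr K) ∉ Ideal.span {p} := by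
  intro h
  have := eq_zero_of_mem_span_of_lt hp (isHomogeneous_one (Fin 3) K) hδ h
  exact one_ne_zero this

omit [IsAlgClosed K] in
lemma nzd_ne_zero {p v : Sr K} {δ : ℕ} (hp : p.IsHomogeneous δ) (h0 : p ≠ 0) (hδ : 1 ≤ δ)
    (hreg : ∀ r, v * r ∈ Ideal.span {p} → r ∈ Ideal.span {p}) : v ≠ 0 := by
  rintro rfl
  apply one_not_mem_span hp h0 hδ
  apply hreg
  simp

omit [IsAlgClosed K] in
/-- Passing from `(p)` to `(p, v)` when `v ∈ W` is a nonzerodivisor. -/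
lemma step_nzd {p v : Sr K} {δ k : ℕ} (hp : p.IsHomogeneous δ) (h0 : p ≠ 0) (hδ : 2 ≤ δ)
    {W : Submodule K (Sr K)} (hW : Grd (Ideal.span {p}) k W) (hvW : v ∈ W)
    (hreg : ∀ r, v * r ∈ Ideal.span {p} → r ∈ Ideal.span {p}) :
    Grd (Ideal.span {p} ⊔ Ideal.span {v}) k W ∧
    qd (Ideal.span {p}) k W = qd (Ideal.span {p} ⊔ Ideal.span {v}) k W + 1 ∧
    qd (Ideal.span {p}) (k + 1) (up (Ideal.span {p}) k W) =
      qd (Ideal.span {p} ⊔ Ideal.span {v}) (k + 1) (up (Ideal.span {p} ⊔ Ideal.span {v}) k W) + 3 := by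
  have hI := isHomog_span hp
  have hv : v.IsHomogeneous k := hW.2 hvW
  have hv0 : v ≠ 0 := nzd_ne_zero hp h0 (by omega) hreg
  obtain ⟨hG, h1⟩ := qd_change hI hv hv0 hreg hW (le_refl k) (by
    intro r hr
    rw [Nat.sub_self] at hr
    have hc : r = C (coeff 0 r) := (totalDegree_eq_zero_iff_eq_C).mp (by
      by_cases hr0 : r = 0
      · simp [hr0]
      · exact (mem_Sd.mp hr).totalDegree hr0)
    rw [hc, mul_comm, ← smul_eq_C_mul]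
    exact W.smul_mem _ hvW)
  rw [Nat.sub_self, cd_span_zero hp (by omega)] at h1
  have hU := up_grd (I := Ideal.span {p}) hW.2
  obtain ⟨_, h2⟩ := qd_change hI hv hv0 hreg hU (by omega : k ≤ k + 1) (by
    intro r hr
    rw [show k + 1 - k = 1 by omega] at hr
    rw [mul_comm]
    exact Submodule.mem_sup_left (Submodule.mul_mem_mul hr hvW))
  rw [show k + 1 - k = 1 by omega, cd_span_one' hp hδ] at h2
  rw [up_change hI hv hvW]
  exact ⟨hG, h1, h2⟩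

/-- `M1`: growth modulo a linear form. -/
theorem M1 {p : Sr K} (h0 : p ≠ 0) {k : ℕ} {W : Submodule K (Sr K)}
    (hW : Grd (Ideal.span {p}) k W) (hq : 1 ≤ qd (Ideal.span {p}) k W) :
    qd (Ideal.span {p}) k W + 1 ≤ qd (Ideal.span {p}) (k + 1) (up (Ideal.span {p}) k W) :=
  growth_one h0 hW hq

omit [IsAlgClosed K] in
lemma div_bound {p₁ : Sr K} {δ₁ k : ℕ} (h₁ : p₁.IsHomogeneous δ₁) {W : Submodule K (Sr K)}
    (hle : W ≤ Sd K k) (hdiv : ∀ x ∈ W, p₁ ∣ x) (hW : ∃ w ∈ W, w ≠ 0) : δ₁ ≤ k := by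
  by_contra hlt
  obtain ⟨w, hw, hw0⟩ := hW
  apply hw0
  exact eq_zero_of_mem_span_of_lt h₁ (hle hw) (by omega)
    (Ideal.mem_span_singleton.mpr (hdiv w hw))

omit [IsAlgClosed K] in
lemma ne_zero_of_not_mem {I : Ideal (Sr K)} {w : Sr K} (h : w ∉ I) : w ≠ 0 := by
  rintro rfl
  exact h I.zero_mem

omit [IsAlgClosed K] in
/-- If `p' ` has degree zero then a common factor `p₁` of `W` makes `W ≤ (p₁ p')`. -/
lemma absurd_unit_factor {p₁ p' : Sr K} {W : Submodule K (Sr K)} (hp' : p'.IsHomogeneous 0)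
    (hp'0 : p' ≠ 0) (hdiv : ∀ x ∈ W, p₁ ∣ x) {w : Sr K} (hw : w ∈ W)
    (hwI : w ∉ Ideal.span {p₁ * p'}) : False := by
  apply hwI
  obtain ⟨u, hu⟩ := isUnit_of_totalDegree_zero hp'0 (hp'.totalDegree hp'0)
  rw [Ideal.mem_span_singleton]
  obtain ⟨c, rfl⟩ := hdiv w hw
  have h3 : p₁ * p' * (↑u⁻¹ * c) = p₁ * c := by
    rw [← hu]
    calc p₁ * ↑u * (↑u⁻¹ * c) = p₁ * c * (↑u * ↑u⁻¹) := by ring
      _ = p₁ * c := by simp
  exact ⟨_, h3.symm⟩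

/-- `M2`: growth modulo a quadric. -/
theorem M2 {p : Sr K} (hp : p.IsHomogeneous 2) (h0 : p ≠ 0) {k : ℕ} {W : Submodule K (Sr K)}
    (hW : Grd (Ideal.span {p}) k W) (hq : 1 ≤ qd (Ideal.span {p}) k W) :
    qd (Ideal.span {p}) k W + 1 ≤ qd (Ideal.span {p}) (k + 1) (up (Ideal.span {p}) k W) ∧
    (k + 1 ≤ qd (Ideal.span {p}) k W →
      qd (Ideal.span {p}) k W + 2 ≤ qd (Ideal.span {p}) (k + 1) (up (Ideal.span {p}) k W)) := by
  obtain ⟨w₀, hw₀, hw₀I⟩ := mem_of_qd_pos hW hq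
  rcases nzd_or_fixed h0 W with ⟨v, hvW, hreg⟩ | ⟨p₁, hprime, ⟨p', rfl⟩, hdiv⟩
  · obtain ⟨hG, h1, h2⟩ := step_nzd hp h0 (by omega) hW hvW hreg
    obtain ⟨ℓ, hℓ, hregℓ⟩ := exists_nzd_linear (V0_two h0 hreg)
    have h3 := qd_le_qd_up hG hℓ hregℓ
    omega
  · obtain ⟨δ₁, δ', h1, hsum, hδ₁, hδ'⟩ := prime_factor_homog hp h0 hprime rfl
    have hp₁0 : p₁ ≠ 0 := left_ne_zero_of_mul h0
    have hp'0 : p' ≠ 0 := right_ne_zero_of_mul h0
    have hk : δ₁ ≤ k := div_bound hδ₁ hW.2 hdiv ⟨w₀, hw₀, ne_zero_of_not_mem hw₀I⟩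
    have hδ'0 : δ' ≠ 0 := by
      rintro rfl
      exact absurd_unit_factor hδ' hp'0 hdiv hw₀ hw₀I
    have hδ'1 : δ' = 1 := by omega
    have hδ₁1 : δ₁ = 1 := by omega
    subst hδ'1
    subst hδ₁1
    obtain ⟨W₁, hG, e1, e2⟩ := reduce_fixed hδ₁ hp₁0 hW hdiv hk
    rw [e1, e2]
    rw [e1] at hq
    have h3 := M1 hp'0 hG hq
    have h4 := qd_le_cd hG
    rw [cd_span_one hδ' hp'0] at h4
    refine ⟨h3, ?_⟩
    intro hc
    omega

/-- Case of a nonzerodivisor in `W`, degree three. -/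
theorem M3_nzd {p v : Sr K} (hp : p.IsHomogeneous 3) (h0 : p ≠ 0) {k : ℕ} {W : Submodule K (Sr K)}
    (hW : Grd (Ideal.span {p}) k W) (hvW : v ∈ W)
    (hreg : ∀ r, v * r ∈ Ideal.span {p} → r ∈ Ideal.span {p})
    (hq : 1 ≤ qd (Ideal.span {p}) k W) :
    qd (Ideal.span {p}) k W + 2 ≤ qd (Ideal.span {p}) (k + 1) (up (Ideal.span {p}) k W) ∧
    (2 ≤ qd (Ideal.span {p}) k W →
      qd (Ideal.span {p}) k W + 3 ≤ qd (Ideal.span {p}) (k + 1) (up (Ideal.span {p}) k W)) := by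
  obtain ⟨hG, h1, h2⟩ := step_nzd hp h0 (by omega) hW hvW hreg
  constructor
  · obtain ⟨ℓ, hℓ, hregℓ⟩ := exists_nzd_linear (V0_two h0 hreg)
    have h3 := qd_le_qd_up hG hℓ hregℓ
    omega
  · intro h2q
    have h3 := growth_two hp h0 (hW.2 hvW) hreg (by omega) hG (by omega)
    omega

/-- `M3`: growth modulo a cubic, the Macaulay bound for `x^3`. -/
theorem M3 {p : Sr K} (hp : p.IsHomogeneous 3) (h0 : p ≠ 0) {k : ℕ} (hk1 : 1 ≤ k)
    {W : Submodule K (Sr K)}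
    (hW : Grd (Ideal.span {p}) k W) (hq : 1 ≤ qd (Ideal.span {p}) k W) :
    qd (Ideal.span {p}) k W + 1 ≤ qd (Ideal.span {p}) (k + 1) (up (Ideal.span {p}) k W) ∧
    (k ≤ qd (Ideal.span {p}) k W →
      qd (Ideal.span {p}) k W + 2 ≤ qd (Ideal.span {p}) (k + 1) (up (Ideal.span {p}) k W)) ∧
    (2 * k ≤ qd (Ideal.span {p}) k W →
      qd (Ideal.span {p}) k W + 3 ≤ qd (Ideal.span {p}) (k + 1) (up (Ideal.span {p}) k W)) := by
  obtain ⟨w₀, hw₀, hw₀I⟩ := mem_of_qd_pos hW hq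
  rcases nzd_or_fixed h0 W with ⟨v, hvW, hreg⟩ | ⟨p₁, hprime, ⟨p', rfl⟩, hdiv⟩
  · obtain ⟨h1, h2⟩ := M3_nzd hp h0 hW hvW hreg hq
    refine ⟨by omega, fun _ => h1, fun h => h2 (by omega)⟩
  · obtain ⟨δ₁, δ', h1, hsum, hδ₁, hδ'⟩ := prime_factor_homog hp h0 hprime rfl
    have hp₁0 : p₁ ≠ 0 := left_ne_zero_of_mul h0
    have hp'0 : p' ≠ 0 := right_ne_zero_of_mul h0
    have hk : δ₁ ≤ k := div_bound hδ₁ hW.2 hdiv ⟨w₀, hw₀, ne_zero_of_not_mem hw₀I⟩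
    have hδ'0 : δ' ≠ 0 := by
      rintro rfl
      exact absurd_unit_factor hδ' hp'0 hdiv hw₀ hw₀I
    obtain ⟨W₁, hG, e1, e2⟩ := reduce_fixed hδ₁ hp₁0 hW hdiv hk
    rw [e1, e2]
    rw [e1] at hq
    have h4 := qd_le_cd hG
    have hcases : δ' = 1 ∨ δ' = 2 := by omega
    rcases hcases with rfl | rfl
    · have hδ₁2 : δ₁ = 2 := by omega
      subst hδ₁2
      have h3 := M1 hp'0 hG hq
      rw [cd_span_one hδ' hp'0] at h4
      refine ⟨h3, fun hc => ?_, fun hc => ?_⟩ <;> omega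
    · have hδ₁1 : δ₁ = 1 := by omega
      subst hδ₁1
      obtain ⟨h3, h5⟩ := M2 hδ' hp'0 hG hq
      rw [cd_span_two hδ' hp'0] at h4
      refine ⟨h3, fun hc => h5 (by omega), fun hc => ?_⟩
      omega

end Vale.Agent.Lib.P200
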