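import Vale.Agent.Lib.P200.CI

/-!
# The main step: into the middle degree
-/

namespace Vale.Agent.Lib.P200

open MvPolynomial Module

variable {K : Type*} [Field K]

lemma qd_pos_of_mem {I : Ideal (Sr K)} {k : ℕ} {W : Submodule K (Sr K)} (hW : Grd I k W)
    {w : Sr K} (hw : w ∈ W) (hwI : w ∉ I) : 1 ≤ qd I k W := by
  have hfd := hW.fd
  have hlt : slice I k < W := by
    refine lt_of_le_of_ne hW.1 ?_
    intro h
    rw [← h] at hw
    exact hwI hw.1
  have := Submodule.finrank_lt_finrank_of_lt hlt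
  have h2 := hW.add_qd
  have h3 : Nd I k = finrank K (slice I k) := rfl
  omega

lemma one_not_mem_two {f y : Sr K} {k : ℕ} (hf : f.IsHomogeneous 3) (f0 : f ≠ 0)
    (hy : y.IsHomogeneous k) (hk : 1 ≤ k) : (1 : Sr K) ∉ Ideal.span {f} ⊔ Ideal.span {y} := by
  intro h
  obtain ⟨r, -, h0, hm⟩ := homog_lift (isHomog_span hf) hy (isHomogeneous_one (Fin 3) K) h
  rw [h0 (by omega), mul_zero, sub_zero] at hm
  exact one_not_mem_span hf f0 (by omega) hm.1

lemma span_eq_map_Sd_zero (u : Sr K) : (Sd K 0).map (mulBy u) = Submodule.span K {u} := by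
  apply le_antisymm
  · rintro _ ⟨r, hr, rfl⟩
    have hc : r = C (coeff 0 r) := (totalDegree_eq_zero_iff_eq_C).mp (by
      by_cases hr0 : r = 0
      · simp [hr0]
      · exact (mem_Sd.mp hr).totalDegree hr0)
    rw [Submodule.mem_span_singleton]
    refine ⟨coeff 0 r, ?_⟩
    change _ = u * r
    rw [hc]
    simp [smul_eq_C_mul, mul_comm]
  · rw [Submodule.span_singleton_le_iff_mem]
    exact ⟨1, isHomogeneous_one (Fin 3) K, by simp⟩

lemma qd_mono {I : Ideal (Sr K)} {k : ℕ} {A B : Submodule K (Sr K)} (hA : Grd I k A) (hB : Grd I k B)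
    (hle : A ≤ B) : qd I k A ≤ qd I k B := by
  have hfd := hB.fd
  have := Submodule.finrank_mono hle
  have h1 := hA.add_qd
  have h2 := hB.add_qd
  omega

namespace RegSeq

variable {f v w : Sr K} {t : ℕ} (R : RegSeq f v w t)

include R

/-- A nontrivial combination of `v` and `w` has no common prime factor with `f`. -/
lemma no_common_prime {p₁ : Sr K} (hp₁ : Prime p₁) (hd : p₁ ∣ f) {α β : K} (hαβ : α ≠ 0 ∨ β ≠ 0) :
    ¬ p₁ ∣ α • v + β • w := by
  obtain ⟨p', hfe⟩ := hd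
  obtain ⟨δ₁, δ', h1, hsum, hδ₁, hδ'⟩ := prime_factor_homog R.hf R.f0 hp₁ hfe
  have hp'0 : p' ≠ 0 := by
    rintro rfl
    rw [mul_zero] at hfe
    exact R.f0 hfe
  have hδ'3 : δ' < 3 := by omega
  rintro ⟨r, hr⟩
  by_cases hβ : β = 0
  · have hα : α ≠ 0 := by
      rcases hαβ with h | h
      · exact h
      · exact absurd hβ h
    rw [hβ, zero_smul, add_zero] at hr
    have hv' : v = p₁ * (α⁻¹ • r) := by
      rw [mul_smul_comm, ← hr, smul_smul, inv_mul_cancel₀ hα, one_smul]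
    have hmem : p' ∈ Ideal.span {f} := by
      apply R.rv
      rw [Ideal.mem_span_singleton']
      refine ⟨α⁻¹ • r, ?_⟩
      rw [hfe, hv']
      ring
    exact hp'0 (eq_zero_of_mem_span_of_lt R.hf hδ' hδ'3 hmem)
  · have hw' : w = β⁻¹ • (p₁ * r - α • v) := by
      rw [← hr, add_sub_cancel_left, smul_smul, inv_mul_cancel₀ hβ, one_smul]
    have hmem : p' ∈ Ideal.span {f} ⊔ Ideal.span {v} := by
      apply R.rw
      rw [mem_sup_span_iff]
      refine ⟨- (β⁻¹ • α • p'), ?_⟩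
      have he : w * p' - v * -(β⁻¹ • α • p') = (β⁻¹ • r) * f := by
        rw [hw', hfe]
        simp only [smul_eq_C_mul, map_inv₀]
        ring
      rw [he]
      exact Ideal.mul_mem_left _ _ (Ideal.mem_span_singleton_self f)
    obtain ⟨s, hs, hs0, hsm⟩ := homog_lift R.homog1 R.hv hδ' hmem
    have hz : p' - v * s = 0 :=
      eq_zero_of_mem_span_of_lt R.hf hsm.2 hδ'3 hsm.1
    have hpe : p' = v * s := sub_eq_zero.mp hz
    -- then `v ∣ f`
    have hs1 : p₁ * s ∈ Ideal.span {f} := by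
      apply R.rv
      rw [Ideal.mem_span_singleton']
      refine ⟨1, ?_⟩
      rw [hfe, hpe]
      ring
    obtain ⟨c, hc⟩ := Ideal.mem_span_singleton'.mp hs1
    have hs0' : p₁ * s ≠ 0 := by
      intro h
      have hs00 : s = 0 := (mul_eq_zero.mp h).resolve_left hp₁.ne_zero
      rw [hs00, mul_zero] at hpe
      exact hp'0 hpe
    have hvc : v * c = 1 := by
      apply mul_right_cancel₀ hs0'
      rw [one_mul]
      nth_rewrite 2 [← hc]
      rw [hfe, hpe]
      ring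
    have hv0 := R.v0
    have hdeg := congrArg totalDegree hvc
    rw [totalDegree_mul_of_isDomain hv0 (right_ne_zero_of_mul_eq_one hvc), totalDegree_one,
      R.hv.totalDegree hv0] at hdeg
    have := R.ht
    omega

/-- `v, w` stay independent modulo `f`, in degree `t`. -/
lemma combo_not_mem {α β : K} (hαβ : α ≠ 0 ∨ β ≠ 0) : α • v + β • w ∉ Ideal.span {f} := by
  intro hmem
  have hnu : ¬ IsUnit f := by
    intro hu
    have h0 := R.f0
    have h1 := R.hf.totalDegree h0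
    obtain ⟨c, hc⟩ := hu.exists_right_inv
    have hdeg := congrArg totalDegree hc
    rw [totalDegree_mul_of_isDomain h0 (right_ne_zero_of_mul_eq_one hc), totalDegree_one] at hdeg
    omega
  obtain ⟨p₁, hp₁, hd⟩ := WfDvdMonoid.exists_irreducible_factor hnu R.f0
  have hpp : Prime p₁ := hp₁.prime
  exact R.no_common_prime hpp hd hαβ (hd.trans (Ideal.mem_span_singleton.mp hmem))

/-- The span of `v` and `w`. -/
noncomputable def Gspan (v w : Sr K) : Submodule K (Sr K) := Submodule.span K {v, w}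

end RegSeq

lemma mem_Gspan {v w u : Sr K} : u ∈ RegSeq.Gspan v w ↔ ∃ α β : K, u = α • v + β • w := by
  unfold RegSeq.Gspan
  rw [Submodule.mem_span_pair]
  constructor
  · rintro ⟨a, b, rfl⟩
    exact ⟨a, b, rfl⟩
  · rintro ⟨a, b, rfl⟩
    exact ⟨a, b, rfl⟩

namespace RegSeq

variable {f v w : Sr K} {t : ℕ} (R : RegSeq f v w t)

include R

lemma Gspan_le : Gspan v w ≤ Sd K t := by
  unfold Gspan
  rw [Submodule.span_le]
  rintro x (rfl | rfl)
  · exact R.hv
  · exact R.hw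

lemma finrank_Gspan : finrank K (Gspan v w) = 2 := by
  have hli : LinearIndependent K ![v, w] := by
    rw [LinearIndependent.pair_iff]
    intro a b hab
    by_contra hcon
    have h1 : a ≠ 0 ∨ b ≠ 0 := by
      by_contra h2
      push Not at h2
      exact hcon h2
    apply R.combo_not_mem h1
    rw [hab]
    exact Ideal.zero_mem _
  have h2 := finrank_span_eq_card hli
  have h3 : Set.range ![v, w] = {v, w} := by
    ext x
    simp [Fin.exists_fin_two, eq_comm]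
    exact or_comm
  rw [h3] at h2
  have h4 : finrank K (Submodule.span K {v, w}) = 2 := by simpa using h2
  exact h4


/-- Second nonzerodivisor in a subspace whose `S_1`-multiples reach `v` and `w`. -/
lemma two_nzd [Infinite K] {X' : Submodule K (Sr K)} {y : Sr K} {k : ℕ}
    (hyX : y ∈ X') (hy : ∀ r, y * r ∈ Ideal.span {f} → r ∈ Ideal.span {f})
    (hv : v ∈ up (Ideal.span {f}) k X') (hw : w ∈ up (Ideal.span {f}) k X') :
    ∃ y₁ ∈ X', ∀ r, y₁ * r ∈ Ideal.span {f} ⊔ Ideal.span {y} → r ∈ Ideal.span {f} ⊔ Ideal.span {y} := by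
  apply exists_nzd_of_avoid
  intro 𝔭 h𝔭 hall
  have hass : IsAssociatedPrime 𝔭 (Sr K ⧸ (Ideal.span {f} ⊔ Ideal.span {y})) := h𝔭
  have hpr : 𝔭.IsPrime := hass.isPrime
  have hle : Ideal.span {f} ⊔ Ideal.span {y} ≤ 𝔭 := by
    rw [isAssociatedPrime_iff] at hass
    obtain ⟨_, x, hx⟩ := hass
    obtain ⟨u, rfl⟩ := Ideal.Quotient.mk_surjective x
    intro i hi
    rw [hx, Submodule.mem_colon_singleton, Submodule.mem_bot]
    have : i • (Ideal.Quotient.mk (Ideal.span {f} ⊔ Ideal.span {y}) u)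
        = Ideal.Quotient.mk _ (i * u) := rfl
    rw [this, Ideal.Quotient.eq_zero_iff_mem]
    exact Ideal.mul_mem_right _ _ hi
  have hf𝔭 : f ∈ 𝔭 := hle (Ideal.mem_sup_left (Ideal.mem_span_singleton_self f))
  have hupP : up (Ideal.span {f}) k X' ≤ 𝔭.restrictScalars K := by
    unfold up
    apply sup_le
    · rw [Submodule.mul_le]
      intro ℓ _ x hx
      exact 𝔭.mul_mem_left _ (hall x hx)
    · intro u hu
      exact ((Ideal.span_singleton_le_iff_mem _).mpr hf𝔭) hu.1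
  have hallX := R.all_X_mem_of_le_prime hpr hf𝔭 (hupP hv) (hupP hw)
  exact not_all_X_mem_of_V0 (V0_two R.f0 hy) h𝔭 hallX

lemma nzd_of_combo [Infinite K] {X' : Submodule K (Sr K)} {k : ℕ} {α β : K} (hαβ : α ≠ 0 ∨ β ≠ 0)
    (hmem : α • v + β • w ∈ up (Ideal.span {f}) k X') :
    ∃ y ∈ X', ∀ r, y * r ∈ Ideal.span {f} → r ∈ Ideal.span {f} := by
  rcases nzd_or_fixed R.f0 X' with h | ⟨p₁, hp₁, hd, hall⟩
  · exact h
  · exfalso
    apply R.no_common_prime hp₁ hd hαβ
    have hle : up (Ideal.span {f}) k X' ≤ (Ideal.span {p₁}).restrictScalars K := by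
      unfold up
      apply sup_le
      · rw [Submodule.mul_le]
        intro ℓ _ x hx
        exact Ideal.mul_mem_left _ _ (Ideal.mem_span_singleton.mpr (hall x hx))
      · intro u hu
        have : Ideal.span {f} ≤ Ideal.span {p₁} := by
          rw [Ideal.span_singleton_le_span_singleton]
          exact hd
        exact this hu.1
    exact Ideal.mem_span_singleton.mp (hle hmem)

/-- The trichotomy for the position of `⟨v, w⟩` relative to `S_1 X'`. -/
theorem Jcases [Infinite K] {k : ℕ} {X' : Submodule K (Sr K)} (hk : k + 1 = t)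
    (hX : Grd (Ideal.span {f}) k X') :
    (qd (Ideal.span {f}) (k + 1) (up (Ideal.span {f}) k X' ⊔ Gspan v w) =
        qd (Ideal.span {f}) (k + 1) (up (Ideal.span {f}) k X') + 2) ∨
    ((∃ y ∈ X', ∀ r, y * r ∈ Ideal.span {f} → r ∈ Ideal.span {f}) ∧
      qd (Ideal.span {f}) (k + 1) (up (Ideal.span {f}) k X' ⊔ Gspan v w) =
        qd (Ideal.span {f}) (k + 1) (up (Ideal.span {f}) k X') + 1) ∨
    ((∃ y ∈ X', (∀ r, y * r ∈ Ideal.span {f} → r ∈ Ideal.span {f}) ∧
        ∃ y₁ ∈ X', ∀ r, y₁ * r ∈ Ideal.span {f} ⊔ Ideal.span {y} → r ∈ Ideal.span {f} ⊔ Ideal.span {y}) ∧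
      Gspan v w ≤ up (Ideal.span {f}) k X' ∧
      qd (Ideal.span {f}) (k + 1) (up (Ideal.span {f}) k X' ⊔ Gspan v w) =
        qd (Ideal.span {f}) (k + 1) (up (Ideal.span {f}) k X')) := by
  subst hk
  set U := up (Ideal.span {f}) k X' with hU
  have hUg : Grd (Ideal.span {f}) (k + 1) U := up_grd hX.2
  have hfdU := hUg.fd
  have hGfd : FiniteDimensional K (Gspan v w) :=
    Submodule.finiteDimensional_of_le R.Gspan_le
  have hsum := Submodule.finrank_sup_add_finrank_inf_eq U (Gspan v w)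
  rw [R.finrank_Gspan] at hsum
  have hUG : Grd (Ideal.span {f}) (k + 1) (U ⊔ Gspan v w) :=
    ⟨le_trans hUg.1 le_sup_left, sup_le hUg.2 R.Gspan_le⟩
  have h1 := hUg.add_qd
  have h2 := hUG.add_qd
  by_cases hj0 : finrank K ↥(U ⊓ Gspan v w) = 0
  · left
    omega
  · right
    have hne : U ⊓ Gspan v w ≠ ⊥ := by
      intro h
      rw [h] at hj0
      simp at hj0
    obtain ⟨g, hg, hg0⟩ := Submodule.exists_mem_ne_zero_of_ne_bot hne
    obtain ⟨α, β, rfl⟩ := mem_Gspan.mp hg.2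
    have hαβ : α ≠ 0 ∨ β ≠ 0 := by
      by_contra h
      push Not at h
      apply hg0
      rw [h.1, h.2]
      simp
    obtain ⟨y, hyX, hy⟩ := R.nzd_of_combo hαβ hg.1
    have hle2 : finrank K ↥(U ⊓ Gspan v w) ≤ 2 := by
      rw [← R.finrank_Gspan]
      exact Submodule.finrank_mono inf_le_right
    by_cases hj1 : finrank K ↥(U ⊓ Gspan v w) = 1
    · left
      exact ⟨⟨y, hyX, hy⟩, by omega⟩
    · right
      have hj2 : finrank K ↥(U ⊓ Gspan v w) = 2 := by omega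
      have hGU : Gspan v w ≤ U := by
        have h3 : U ⊓ Gspan v w = Gspan v w :=
          Submodule.eq_of_le_of_finrank_le inf_le_right (by rw [hj2, R.finrank_Gspan])
        exact inf_eq_right.mp h3
      have hvm : v ∈ Gspan v w := Submodule.subset_span (by simp)
      have hwm : w ∈ Gspan v w := Submodule.subset_span (by simp)
      obtain ⟨y₁, hy₁X, hy₁⟩ := R.two_nzd hyX hy (hGU hvm) (hGU hwm)
      refine ⟨⟨y, hyX, hy, y₁, hy₁X, hy₁⟩, hGU, ?_⟩
      rw [sup_eq_left.mpr hGU]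

/-- Claim Y: growth of `Y ⊆ R_{t-1}` modulo `⟨v, w⟩`. -/
theorem claimY [IsAlgClosed K] {k : ℕ} {Y : Submodule K (Sr K)} (hk : k + 1 = t) (hk1 : 1 ≤ k)
    (hY : Grd (Ideal.span {f}) k Y) (hq : 1 ≤ qd (Ideal.span {f}) k Y) :
    qd (Ideal.span {f}) k Y + 3 ≤
      qd (Ideal.span {f}) (k + 1) (up (Ideal.span {f}) k Y ⊔ Gspan v w) := by
  rcases R.Jcases hk hY with h | ⟨⟨y, hyY, hy⟩, h⟩ | ⟨⟨y, hyY, hy, y₁, hy₁Y, hy₁⟩, -, h⟩
  · have := growth_one R.f0 hY hq
    omega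
  · have := (M3_nzd R.hf R.f0 hY hyY hy hq).1
    omega
  · obtain ⟨hG, h1, -⟩ := step_nzd R.hf R.f0 (by omega) hY hyY hy
    have hy₁I : y₁ ∉ Ideal.span {f} ⊔ Ideal.span {y} := by
      intro hmem
      apply one_not_mem_two R.hf R.f0 (hY.2 hyY) hk1
      apply hy₁
      rw [mul_one]
      exact hmem
    have h2 := qd_pos_of_mem hG hy₁Y hy₁I
    have := (M3_nzd R.hf R.f0 hY hyY hy hq).2 (by omega)
    omega

lemma slice3_lt {d : ℕ} (hd : d < t) :
    slice (Ideal.span {f} ⊔ Ideal.span {v} ⊔ Ideal.span {w}) d = slice (Ideal.span {f}) d := by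
  rw [slice_sup_span_of_lt R.homog2 R.hw hd, slice_sup_span_of_lt R.homog1 R.hv hd]

lemma slice3_eq :
    slice (Ideal.span {f} ⊔ Ideal.span {v} ⊔ Ideal.span {w}) t =
      slice (Ideal.span {f}) t ⊔ Gspan v w := by
  rw [slice_sup_span R.homog2 R.hw (le_refl t), slice_sup_span R.homog1 R.hv (le_refl t)]
  rw [Nat.sub_self, span_eq_map_Sd_zero, span_eq_map_Sd_zero]
  unfold Gspan
  rw [Submodule.span_insert, sup_assoc]

lemma Nd3_eq :
    Nd (Ideal.span {f} ⊔ Ideal.span {v} ⊔ Ideal.span {w}) t = Nd (Ideal.span {f}) t + 2 := by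
  have h3 := R.cd3_eq
  have h4 := R.cd1 t R.ht
  have h5 := Nd_le_Dd (Ideal.span {f}) t
  have h6 := Nd_le_Dd (Ideal.span {f} ⊔ Ideal.span {v} ⊔ Ideal.span {w}) t
  unfold cd at h3 h4
  omega

lemma up3_eq {k : ℕ} (hk : k + 1 = t) (Y : Submodule K (Sr K)) :
    up (Ideal.span {f} ⊔ Ideal.span {v} ⊔ Ideal.span {w}) k Y =
      up (Ideal.span {f}) k Y ⊔ Gspan v w := by
  unfold up
  subst hk
  rw [R.slice3_eq, sup_assoc]

/-- Relation of `qd` for the complete intersection and the cubic, in degree `t`. -/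
lemma qd3_eq {k : ℕ} (hk : k + 1 = t) (Y : Submodule K (Sr K)) (hY : Y ≤ Sd K k) :
    qd (Ideal.span {f} ⊔ Ideal.span {v} ⊔ Ideal.span {w}) (k + 1)
      (up (Ideal.span {f} ⊔ Ideal.span {v} ⊔ Ideal.span {w}) k Y) + 2 =
    qd (Ideal.span {f}) (k + 1) (up (Ideal.span {f}) k Y ⊔ Gspan v w) := by
  subst hk
  rw [R.up3_eq rfl]
  have hU : Grd (Ideal.span {f}) (k + 1) (up (Ideal.span {f}) k Y) := up_grd hY
  have hG1 : Grd (Ideal.span {f}) (k + 1) (up (Ideal.span {f}) k Y ⊔ Gspan v w) :=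
    ⟨le_trans hU.1 le_sup_left, sup_le hU.2 R.Gspan_le⟩
  have hG2 : Grd (Ideal.span {f} ⊔ Ideal.span {v} ⊔ Ideal.span {w}) (k + 1)
      (up (Ideal.span {f}) k Y ⊔ Gspan v w) := by
    refine ⟨?_, hG1.2⟩
    rw [R.slice3_eq]
    exact sup_le_sup_right hU.1 _
  have h1 := hG1.add_qd
  have h2 := hG2.add_qd
  have h3 := R.Nd3_eq
  omega

/-- The duality argument: no loss of dimension at the middle degree of `(3,t,t)`. -/
theorem dualD2 [IsAlgClosed K] {k : ℕ} (hk : k + 1 = t) (hk1 : 1 ≤ k) {W : Submodule K (Sr K)}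
    (hW : Grd (Ideal.span {f} ⊔ Ideal.span {v} ⊔ Ideal.span {w}) (k + 1) W)
    (hne : qd (Ideal.span {f} ⊔ Ideal.span {v} ⊔ Ideal.span {w}) (k + 1) W ≠
      cd (Ideal.span {f} ⊔ Ideal.span {v} ⊔ Ideal.span {w}) (k + 1)) :
    qd (Ideal.span {f} ⊔ Ideal.span {v} ⊔ Ideal.span {w}) (k + 1) W ≤
      qd (Ideal.span {f} ⊔ Ideal.span {v} ⊔ Ideal.span {w}) (k + 2)
        (up (Ideal.span {f} ⊔ Ideal.span {v} ⊔ Ideal.span {w}) (k + 1) W) := by
  subst hk
  set F := Ideal.span {f} ⊔ Ideal.span {v} ⊔ Ideal.span {w} with hF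
  have G := R.gorData
  rw [← hF] at G
  set W' := up F (k + 1) W with hW'
  have hW'g : Grd F (k + 2) W' := up_grd hW.2
  have hle' : Sd K 1 * W ≤ W' := le_sup_left
  set Y := perp F k W' with hYd
  have hYg : Grd F k Y := perp_grd F k W'
  have e1 := qd_perp G (show (k + 2) + k = 2 * (k + 1) by omega) hW'g
  have e2 := qd_perp G (show (k + 1) + (k + 1) = 2 * (k + 1) by omega) hW
  rw [← hYd] at e1
  set Z := perp F (k + 1) W with hZd
  have hZg : Grd F (k + 1) Z := perp_grd F (k + 1) W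
  have hupY : up F k Y ≤ Z := up_perp_le hle'
  have hUYg : Grd F (k + 1) (up F k Y) := up_grd hYg.2
  have h3 := qd_mono hUYg hZg hupY
  have c1 : cd F k = 3 * k := by
    rw [hF, R.cd3_lt (by omega), R.cd1 k hk1]
  have c2 : cd F (k + 1) + 2 = 3 * (k + 1) := R.cd3_eq
  -- `Y` modulo the cubic
  have hsl : slice F k = slice (Ideal.span {f}) k := R.slice3_lt (by omega)
  have hY1 : Grd (Ideal.span {f}) k Y := ⟨by rw [← hsl]; exact hYg.1, hYg.2⟩
  have hqY : qd F k Y = qd (Ideal.span {f}) k Y := by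
    unfold qd Nd
    rw [hsl]
  have hq3 := R.qd3_eq rfl Y hYg.2
  rw [← hF] at hq3
  by_cases hy : 1 ≤ qd (Ideal.span {f}) k Y
  · have hcl := R.claimY rfl hk1 hY1 hy
    omega
  · have hle := qd_le_cd hW
    omega

end RegSeq

lemma Sd_one_mul_Sd (k : ℕ) : Sd K 1 * Sd K k = Sd K (k + 1) := by
  apply le_antisymm (Sd_one_mul_le le_rfl)
  have h1 := homogeneousSubmodule_one_pow (σ := Fin 3) (R := K) (k + 1)
  have h2 := homogeneousSubmodule_one_pow (σ := Fin 3) (R := K) k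
  rw [pow_succ'] at h1
  rw [h2] at h1
  exact h1.ge

/-- The case in which `W` contains a regular sequence of two forms of degree `t`. -/
theorem j2_step [IsAlgClosed K] {f y y₁ : Sr K} {t : ℕ} (ht : 2 ≤ t) (hf : f.IsHomogeneous 3)
    (f0 : f ≠ 0) {W : Submodule K (Sr K)} (hW : Grd (Ideal.span {f}) t W) (hy : y ∈ W)
    (hyr : ∀ r, y * r ∈ Ideal.span {f} → r ∈ Ideal.span {f}) (hy₁ : y₁ ∈ W)
    (hy₁r : ∀ r, y₁ * r ∈ Ideal.span {f} ⊔ Ideal.span {y} → r ∈ Ideal.span {f} ⊔ Ideal.span {y})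
    (hne : qd (Ideal.span {f}) t W ≠ 3 * t) :
    qd (Ideal.span {f}) t W + 4 ≤ qd (Ideal.span {f}) (t + 1) (up (Ideal.span {f}) t W) := by
  obtain ⟨k, rfl⟩ : ∃ k, t = k + 1 := ⟨t - 1, by omega⟩
  have hk1 : 1 ≤ k := by omega
  have R' : RegSeq f y y₁ (k + 1) := ⟨by omega, hf, f0, hW.2 hy, hW.2 hy₁, hyr, hy₁r⟩
  have hGle : RegSeq.Gspan y y₁ ≤ W := by
    unfold RegSeq.Gspan
    rw [Submodule.span_le]
    rintro x (rfl | rfl)
    · exact hy
    · exact hy₁
  have hWF : Grd (Ideal.span {f} ⊔ Ideal.span {y} ⊔ Ideal.span {y₁}) (k + 1) W :=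
    ⟨by rw [R'.slice3_eq]; exact sup_le hW.1 hGle, hW.2⟩
  have hNd := R'.Nd3_eq
  have h1 := hW.add_qd
  have h2 := hWF.add_qd
  have hcd := R'.cd3_eq
  have hne' : qd (Ideal.span {f} ⊔ Ideal.span {y} ⊔ Ideal.span {y₁}) (k + 1) W ≠
      cd (Ideal.span {f} ⊔ Ideal.span {y} ⊔ Ideal.span {y₁}) (k + 1) := by omega
  have hd := R'.dualD2 rfl hk1 hWF hne'
  have hup : up (Ideal.span {f} ⊔ Ideal.span {y} ⊔ Ideal.span {y₁}) (k + 1) W =
      up (Ideal.span {f}) (k + 1) W := by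
    rw [up_change R'.homog2 R'.hw hy₁, up_change R'.homog1 R'.hv hy]
  rw [hup] at hd
  have hU : Grd (Ideal.span {f}) (k + 1 + 1) (up (Ideal.span {f}) (k + 1) W) := up_grd hW.2
  have hmem : ∀ u ∈ W, ∀ r ∈ Sd K (k + 1 + 1 - (k + 1)), u * r ∈ up (Ideal.span {f}) (k + 1) W := by
    intro u hu r hr
    rw [show k + 1 + 1 - (k + 1) = 1 by omega] at hr
    rw [mul_comm]
    exact mem_up_of hr hu
  obtain ⟨hG1, e1⟩ := qd_change R'.homog1 R'.hv R'.v0 R'.rv hU (by omega) (hmem y hy)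
  obtain ⟨hG2, e2⟩ := qd_change R'.homog2 R'.hw R'.w0 R'.rw hG1 (by omega) (hmem y₁ hy₁)
  rw [show k + 1 + 1 - (k + 1) = 1 by omega] at e1 e2
  have c1 : cd (Ideal.span {f}) 1 = 3 := by simpa using R'.cd1 1 le_rfl
  have c2 : cd (Ideal.span {f} ⊔ Ideal.span {y}) 1 = 3 := by
    rw [R'.cd2_lt (by omega), c1]
  have hd' : qd (Ideal.span {f} ⊔ Ideal.span {y} ⊔ Ideal.span {y₁}) (k + 1) W ≤
      qd (Ideal.span {f} ⊔ Ideal.span {y} ⊔ Ideal.span {y₁}) (k + 1 + 1)
        (up (Ideal.span {f}) (k + 1) W) := hd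
  omega

/-- The main step, from degree `t` into the middle degree `t + 1` of the type `(3, t+1, t+1)`. -/
theorem mainStep [IsAlgClosed K] {f g h : Sr K} {t : ℕ} (R : RegSeq f g h (t + 1)) (ht : 2 ≤ t)
    {W : Submodule K (Sr K)} (hW : Grd (Ideal.span {f}) t W) (hq : 1 ≤ qd (Ideal.span {f}) t W) :
    qd (Ideal.span {f}) t W + 3 ≤
        qd (Ideal.span {f}) (t + 1) (up (Ideal.span {f}) t W ⊔ RegSeq.Gspan g h) ∧
    (t ≤ qd (Ideal.span {f}) t W → qd (Ideal.span {f}) t W ≠ 3 * t →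
      qd (Ideal.span {f}) t W + 4 ≤
        qd (Ideal.span {f}) (t + 1) (up (Ideal.span {f}) t W ⊔ RegSeq.Gspan g h)) ∧
    (qd (Ideal.span {f}) t W = 3 * t →
      3 * t + 3 ≤ qd (Ideal.span {f}) (t + 1) (up (Ideal.span {f}) t W ⊔ RegSeq.Gspan g h)) := by
  have hf := R.hf
  have f0 := R.f0
  have hfull : qd (Ideal.span {f}) t W = 3 * t →
      3 * t + 3 ≤ qd (Ideal.span {f}) (t + 1) (up (Ideal.span {f}) t W ⊔ RegSeq.Gspan g h) := by
    intro he
    have c1 := R.cd1 t (by omega)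
    have hWe : W = Sd K t := by
      refine Submodule.eq_of_le_of_finrank_le hW.2 ?_
      have h1 := hW.add_qd
      have h2 := Nd_le_Dd (Ideal.span {f}) t
      have h3 : Dd K t = finrank K (Sd K t) := rfl
      unfold cd at c1
      omega
    have hUe : up (Ideal.span {f}) t W ⊔ RegSeq.Gspan g h = Sd K (t + 1) := by
      apply le_antisymm
      · exact sup_le (up_grd hW.2).2 R.Gspan_le
      · rw [← Sd_one_mul_Sd, ← hWe]
        exact le_trans le_sup_left le_sup_left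
    rw [hUe]
    have c2 := R.cd1 (t + 1) (by omega)
    have h5 := (Grd_top (Ideal.span {f}) (t + 1)).add_qd
    have h6 := Nd_le_Dd (Ideal.span {f}) (t + 1)
    have h7 : Dd K (t + 1) = finrank K (Sd K (t + 1)) := rfl
    unfold cd at c2
    omega
  rcases R.Jcases rfl hW with h0 | ⟨⟨y, hyY, hy⟩, h0⟩ | ⟨⟨y, hyY, hy, y₁, hy₁Y, hy₁⟩, -, h0⟩
  · obtain ⟨m1, m2, -⟩ := M3 hf f0 (by omega : 1 ≤ t) hW hq
    refine ⟨by omega, fun h2 _ => ?_, hfull⟩
    have := m2 h2
    omega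
  · obtain ⟨m1, m2⟩ := M3_nzd hf f0 hW hyY hy hq
    refine ⟨by omega, fun h2 _ => ?_, hfull⟩
    have := m2 (by omega)
    omega
  · obtain ⟨hG, h1, -⟩ := step_nzd hf f0 (by omega) hW hyY hy
    have hy₁I : y₁ ∉ Ideal.span {f} ⊔ Ideal.span {y} := by
      intro hmem
      apply one_not_mem_two hf f0 (hW.2 hyY) (by omega)
      apply hy₁
      rw [mul_one]
      exact hmem
    have h2 := qd_pos_of_mem hG hy₁Y hy₁I
    have m2 := (M3_nzd hf f0 hW hyY hy hq).2 (by omega)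
    refine ⟨by omega, fun _ h3 => ?_, hfull⟩
    have := j2_step ht hf f0 hW hyY hy hy₁Y hy₁ h3
    omega

end Vale.Agent.Lib.P200
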