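import Vale.Agent.Lib.P200.MainStep

/-!
# The numerical table for all degrees, over an algebraically closed field
-/

namespace Vale.Agent.Lib.P200

open MvPolynomial Module

variable {K : Type*} [Field K]

/-- The table of lower bounds for the next value of the Hilbert function. -/
def tb (a d q : ℕ) : ℕ :=
  if q = 0 then 0
  else if d = 0 then 3
  else if d + 2 ≤ a then
    (if q + 1 ≤ d then q + 1 else if q + 1 ≤ 2 * d then q + 2 else q + 3)
  else if d + 1 = a then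
    (if q + 1 ≤ d then q + 1 else if q ≠ 3 * d then q + 2 else 3 * d + 1)
  else if d = a then
    (if q + 2 ≤ 2 * a then q + 1 else if q + 3 ≤ 3 * a then q else 3 * a - 3)
  else if d + 2 ≤ 2 * a then
    (if q + d ≤ 2 * a then q
     else if q + 2 * d ≤ 4 * a then q - 1
     else if q < 3 * (2 * a - d) then q - 2
     else 3 * (2 * a - d) - 3)
  else if d + 1 = 2 * a then 1
  else 0

lemma slice_le_slice_of_le {I J : Ideal (Sr K)} (h : I ≤ J) (d : ℕ) : slice I d ≤ slice J d :=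
  slice_mono h d

namespace RegSeq

variable {f g h : Sr K} {a : ℕ} (R : RegSeq f g h a)

include R

lemma qd_three_eq_of_lt {k : ℕ} (hk : k < a) (Y : Submodule K (Sr K)) :
    qd (Ideal.span {f} ⊔ Ideal.span {g} ⊔ Ideal.span {h}) k Y = qd (Ideal.span {f}) k Y := by
  unfold qd Nd
  rw [R.slice3_lt hk]

lemma pair_zero [IsAlgClosed K] (ha : 2 ≤ a) {Y Z : Submodule K (Sr K)}
    (hY : Grd (Ideal.span {f} ⊔ Ideal.span {g} ⊔ Ideal.span {h}) 0 Y)
    (hZ : Grd (Ideal.span {f} ⊔ Ideal.span {g} ⊔ Ideal.span {h}) 1 Z)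
    (hup : Sd K 1 * Y ≤ Z)
    (hq : 1 ≤ qd (Ideal.span {f} ⊔ Ideal.span {g} ⊔ Ideal.span {h}) 0 Y) :
    3 ≤ qd (Ideal.span {f} ⊔ Ideal.span {g} ⊔ Ideal.span {h}) 1 Z := by
  obtain ⟨w, hwY, hwF⟩ := mem_of_qd_pos hY hq
  have hw0 : w ≠ 0 := by
    rintro rfl
    exact hwF (Ideal.zero_mem _)
  have hwd : w.totalDegree = 0 := (mem_Sd.mp (hY.2 hwY)).totalDegree hw0
  obtain ⟨c, hc⟩ : ∃ c : K, w = C c := ⟨_, totalDegree_eq_zero_iff_eq_C.mp hwd⟩
  have hc0 : c ≠ 0 := by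
    rintro rfl
    rw [map_zero] at hc
    exact hw0 hc
  have hle : Sd K 1 ≤ Z := by
    intro ℓ hℓ
    apply hup
    have he : ℓ = (ℓ * C c⁻¹) * w := by
      rw [hc, mul_assoc, ← map_mul, inv_mul_cancel₀ hc0, map_one, mul_one]
    rw [he]
    refine Submodule.mul_mem_mul ?_ hwY
    have : (ℓ * C c⁻¹).IsHomogeneous (1 + 0) :=
      (mem_Sd.mp hℓ).mul (isHomogeneous_C _ _)
    exact this
  have hZe : Z = Sd K 1 := le_antisymm hZ.2 hle
  rw [hZe]
  have c1 := R.cd3_lt (show 1 < a by omega)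
  have c2 := R.cd1 1 le_rfl
  have h3 : qd (Ideal.span {f} ⊔ Ideal.span {g} ⊔ Ideal.span {h}) 1 (Sd K 1) =
      cd (Ideal.span {f} ⊔ Ideal.span {g} ⊔ Ideal.span {h}) 1 := rfl
  rw [h3, c1, c2]

lemma pair_lower [IsAlgClosed K] {k : ℕ} (hk1 : 1 ≤ k) (hk : k + 2 ≤ a) {Y Z : Submodule K (Sr K)}
    (hY : Grd (Ideal.span {f} ⊔ Ideal.span {g} ⊔ Ideal.span {h}) k Y)
    (hZ : Grd (Ideal.span {f} ⊔ Ideal.span {g} ⊔ Ideal.span {h}) (k + 1) Z)
    (hup : Sd K 1 * Y ≤ Z)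
    (hq : 1 ≤ qd (Ideal.span {f} ⊔ Ideal.span {g} ⊔ Ideal.span {h}) k Y) :
    qd (Ideal.span {f} ⊔ Ideal.span {g} ⊔ Ideal.span {h}) k Y + 1 ≤
      qd (Ideal.span {f} ⊔ Ideal.span {g} ⊔ Ideal.span {h}) (k + 1) Z ∧
    (k ≤ qd (Ideal.span {f} ⊔ Ideal.span {g} ⊔ Ideal.span {h}) k Y →
      qd (Ideal.span {f} ⊔ Ideal.span {g} ⊔ Ideal.span {h}) k Y + 2 ≤
        qd (Ideal.span {f} ⊔ Ideal.span {g} ⊔ Ideal.span {h}) (k + 1) Z) ∧
    (2 * k ≤ qd (Ideal.span {f} ⊔ Ideal.span {g} ⊔ Ideal.span {h}) k Y →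
      qd (Ideal.span {f} ⊔ Ideal.span {g} ⊔ Ideal.span {h}) k Y + 3 ≤
        qd (Ideal.span {f} ⊔ Ideal.span {g} ⊔ Ideal.span {h}) (k + 1) Z) := by
  rw [R.qd_three_eq_of_lt (by omega : k < a) Y, R.qd_three_eq_of_lt (by omega : k + 1 < a) Z] at *
  have hY1 : Grd (Ideal.span {f}) k Y := ⟨by rw [← R.slice3_lt (by omega : k < a)]; exact hY.1, hY.2⟩
  have hZ1 : Grd (Ideal.span {f}) (k + 1) Z :=
    ⟨by rw [← R.slice3_lt (by omega : k + 1 < a)]; exact hZ.1, hZ.2⟩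
  have hU : up (Ideal.span {f}) k Y ≤ Z := sup_le hup hZ1.1
  have hm := qd_mono (up_grd hY1.2) hZ1 hU
  obtain ⟨m1, m2, m3⟩ := M3 R.hf R.f0 hk1 hY1 hq
  exact ⟨by omega, fun h2 => by have := m2 h2; omega, fun h2 => by have := m3 h2; omega⟩

lemma pair_main [IsAlgClosed K] {k : ℕ} (R' : RegSeq f g h (k + 1)) (hk2 : 2 ≤ k) {Y Z : Submodule K (Sr K)}
    (hY : Grd (Ideal.span {f} ⊔ Ideal.span {g} ⊔ Ideal.span {h}) k Y)
    (hZ : Grd (Ideal.span {f} ⊔ Ideal.span {g} ⊔ Ideal.span {h}) (k + 1) Z)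
    (hup : Sd K 1 * Y ≤ Z)
    (hq : 1 ≤ qd (Ideal.span {f} ⊔ Ideal.span {g} ⊔ Ideal.span {h}) k Y) :
    qd (Ideal.span {f} ⊔ Ideal.span {g} ⊔ Ideal.span {h}) k Y + 1 ≤
      qd (Ideal.span {f} ⊔ Ideal.span {g} ⊔ Ideal.span {h}) (k + 1) Z ∧
    (k ≤ qd (Ideal.span {f} ⊔ Ideal.span {g} ⊔ Ideal.span {h}) k Y →
      qd (Ideal.span {f} ⊔ Ideal.span {g} ⊔ Ideal.span {h}) k Y ≠ 3 * k →
      qd (Ideal.span {f} ⊔ Ideal.span {g} ⊔ Ideal.span {h}) k Y + 2 ≤
        qd (Ideal.span {f} ⊔ Ideal.span {g} ⊔ Ideal.span {h}) (k + 1) Z) ∧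
    (qd (Ideal.span {f} ⊔ Ideal.span {g} ⊔ Ideal.span {h}) k Y = 3 * k →
      3 * k + 1 ≤ qd (Ideal.span {f} ⊔ Ideal.span {g} ⊔ Ideal.span {h}) (k + 1) Z) := by
  rw [R'.qd_three_eq_of_lt (by omega : k < k + 1) Y] at *
  have hY1 : Grd (Ideal.span {f}) k Y :=
    ⟨by rw [← R'.slice3_lt (by omega : k < k + 1)]; exact hY.1, hY.2⟩
  have hsl := R'.slice3_eq
  have hZ1 : Grd (Ideal.span {f}) (k + 1) Z := by
    refine ⟨le_trans ?_ hZ.1, hZ.2⟩
    exact slice_mono (le_trans le_sup_left le_sup_left) _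
  have hG : RegSeq.Gspan g h ≤ Z := by
    refine le_trans ?_ hZ.1
    rw [hsl]
    exact le_sup_right
  have hU : up (Ideal.span {f}) k Y ⊔ RegSeq.Gspan g h ≤ Z := sup_le (sup_le hup hZ1.1) hG
  have hUg : Grd (Ideal.span {f}) (k + 1) (up (Ideal.span {f}) k Y ⊔ RegSeq.Gspan g h) :=
    ⟨le_trans le_sup_right le_sup_left, sup_le (up_grd hY1.2).2 R'.Gspan_le⟩
  have hm := qd_mono hUg hZ1 hU
  have e1 := hZ1.add_qd
  have e2 := hZ.add_qd
  have e3 := R'.Nd3_eq
  obtain ⟨m1, m2, m3⟩ := mainStep R' hk2 hY1 hq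
  exact ⟨by omega, fun h2 h3 => by have := m2 h2 h3; omega, fun h2 => by have := m3 h2; omega⟩

/-- The table for the lower half of the degrees. -/
theorem pair_low [IsAlgClosed K] (ha : 3 ≤ a) {k : ℕ} (hk : k < a) {Y Z : Submodule K (Sr K)}
    (hY : Grd (Ideal.span {f} ⊔ Ideal.span {g} ⊔ Ideal.span {h}) k Y)
    (hZ : Grd (Ideal.span {f} ⊔ Ideal.span {g} ⊔ Ideal.span {h}) (k + 1) Z)
    (hup : Sd K 1 * Y ≤ Z) :
    tb a k (qd (Ideal.span {f} ⊔ Ideal.span {g} ⊔ Ideal.span {h}) k Y) ≤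
      qd (Ideal.span {f} ⊔ Ideal.span {g} ⊔ Ideal.span {h}) (k + 1) Z := by
  by_cases hq : qd (Ideal.span {f} ⊔ Ideal.span {g} ⊔ Ideal.span {h}) k Y = 0
  · rw [hq]
    simp [tb]
  have hq1 : 1 ≤ qd (Ideal.span {f} ⊔ Ideal.span {g} ⊔ Ideal.span {h}) k Y := by omega
  by_cases hk0 : k = 0
  · subst hk0
    have := R.pair_zero (by omega) hY hZ hup hq1
    simpa [tb, hq] using this
  by_cases hk2 : k + 2 ≤ a
  · obtain ⟨m1, m2, m3⟩ := R.pair_lower (by omega) hk2 hY hZ hup hq1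
    unfold tb
    rw [if_neg hq, if_neg hk0, if_pos hk2]
    split_ifs with h1 h2
    · exact m1
    · exact m2 (by omega)
    · exact m3 (by omega)
  · have hk1 : k + 1 = a := by omega
    subst hk1
    obtain ⟨m1, m2, m3⟩ := R.pair_main R (by omega) hY hZ hup hq1
    unfold tb
    rw [if_neg hq, if_neg hk0, if_neg hk2, if_pos rfl]
    split_ifs with h1 h2
    · exact m1
    · exact m2 (by omega) h2
    · exact m3 (by omega)

end RegSeq

lemma tb_zero (a d : ℕ) : tb a d 0 = 0 := by simp [tb]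

lemma tb_of_zero {a q : ℕ} (hq : q ≠ 0) : tb a 0 q = 3 := by simp [tb, hq]

lemma tb_of_lower {a k q : ℕ} (hq : q ≠ 0) (hk : k ≠ 0) (h : k + 2 ≤ a) :
    tb a k q = if q + 1 ≤ k then q + 1 else if q + 1 ≤ 2 * k then q + 2 else q + 3 := by
  unfold tb
  rw [if_neg hq, if_neg hk, if_pos h]

lemma tb_of_mid {a k q : ℕ} (hq : q ≠ 0) (hk : k ≠ 0) (h : k + 1 = a) :
    tb a k q = if q + 1 ≤ k then q + 1 else if q ≠ 3 * k then q + 2 else 3 * k + 1 := by
  unfold tb
  rw [if_neg hq, if_neg hk, if_neg (by omega), if_pos h]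

lemma tb_of_eq {a q : ℕ} (hq : q ≠ 0) (ha : 1 ≤ a) :
    tb a a q = if q + 2 ≤ 2 * a then q + 1 else if q + 3 ≤ 3 * a then q else 3 * a - 3 := by
  unfold tb
  rw [if_neg hq, if_neg (by omega), if_neg (by omega), if_neg (by omega), if_pos rfl]

lemma tb_of_upper {a d q : ℕ} (hq : q ≠ 0) (h1 : a < d) (h2 : d + 2 ≤ 2 * a) :
    tb a d q = if q + d ≤ 2 * a then q
      else if q + 2 * d ≤ 4 * a then q - 1
      else if q < 3 * (2 * a - d) then q - 2
      else 3 * (2 * a - d) - 3 := by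
  unfold tb
  rw [if_neg hq, if_neg (by omega), if_neg (by omega), if_neg (by omega), if_neg (by omega),
    if_pos h2]

lemma tb_of_last {a d q : ℕ} (hq : q ≠ 0) (h1 : 2 ≤ a) (h2 : d + 1 = 2 * a) :
    tb a d q = 1 := by
  unfold tb
  rw [if_neg hq, if_neg (by omega), if_neg (by omega), if_neg (by omega), if_neg (by omega),
    if_neg (by omega), if_pos h2]

/-- The numerical core of the duality, at the degree `a`. -/
lemma tb_dual_eq {a q q' u v : ℕ} (ha : 3 ≤ a)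
    (c1 : u + q' = 3 * (a - 1)) (c2 : v + q = 3 * a - 2)
    (hv : tb a (a - 1) u ≤ v) : tb a a q ≤ q' := by
  by_cases hq : q = 0
  · subst hq
    rw [tb_zero]
    omega
  rw [tb_of_eq hq (by omega)]
  by_cases hu : u = 0
  · subst hu
    split_ifs <;> omega
  rw [tb_of_mid hu (by omega) (by omega)] at hv
  split_ifs at hv ⊢ <;> omega

/-- The numerical core of the duality, in the degrees above `a`. -/
lemma tb_dual_upper {a D k q q' u v : ℕ} (h1 : a < D) (hk : D + k + 1 = 2 * a) (hk1 : k ≠ 0)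
    (c1 : u + q' = 3 * k) (c2 : v + q = 3 * (k + 1))
    (hv : tb a k u ≤ v) : tb a D q ≤ q' := by
  by_cases hq : q = 0
  · subst hq
    rw [tb_zero]
    omega
  rw [tb_of_upper hq h1 (by omega)]
  by_cases hu : u = 0
  · subst hu
    split_ifs <;> omega
  rw [tb_of_lower hu hk1 (by omega)] at hv
  split_ifs at hv ⊢ <;> omega

/-- The numerical core of the duality, in the degree `2 a - 1`. -/
lemma tb_dual_last {a D q q' u v : ℕ} (ha : 2 ≤ a) (hk : D + 1 = 2 * a)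
    (c1 : u + q' = 1) (c2 : v + q = 3)
    (hv : tb a 0 u ≤ v) : tb a D q ≤ q' := by
  by_cases hq : q = 0
  · subst hq
    rw [tb_zero]
    omega
  rw [tb_of_last hq ha hk]
  by_cases hu : u = 0
  · omega
  rw [tb_of_zero hu] at hv
  omega

namespace RegSeq

variable {f g h : Sr K} {a : ℕ} (R : RegSeq f g h a)

include R

/-- The table, for every homogeneous ideal containing the complete intersection, over an
algebraically closed field. -/
theorem table [IsAlgClosed K] (ha : 3 ≤ a) {I : Ideal (Sr K)}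
    (hI : Ideal.span {f} ⊔ Ideal.span {g} ⊔ Ideal.span {h} ≤ I) (d : ℕ) :
    tb a d (qd (Ideal.span {f} ⊔ Ideal.span {g} ⊔ Ideal.span {h}) d (slice I d)) ≤
      qd (Ideal.span {f} ⊔ Ideal.span {g} ⊔ Ideal.span {h}) (d + 1) (slice I (d + 1)) := by
  set F := Ideal.span {f} ⊔ Ideal.span {g} ⊔ Ideal.span {h} with hF
  have hW : ∀ n, Grd F n (slice I n) := fun n => ⟨slice_mono hI n, slice_le_Sd _ _⟩
  have hup : ∀ n, Sd K 1 * slice I n ≤ slice I (n + 1) := by
    intro n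
    rw [Submodule.mul_le]
    intro ℓ hℓ u hu
    refine ⟨I.mul_mem_left _ hu.1, ?_⟩
    have := (mem_Sd.mp hℓ).mul (mem_Sd.mp hu.2)
    rwa [add_comm] at this
  by_cases hd : d < a
  · exact R.pair_low ha hd (hW d) (hW (d + 1)) (hup d)
  by_cases hd2 : d + 1 ≤ 2 * a
  · have G := R.gorData
    rw [← hF] at G
    obtain ⟨k, hk⟩ : ∃ k, d + k + 1 = 2 * a := ⟨2 * a - d - 1, by omega⟩
    have hYg := perp_grd F k (slice I (d + 1))
    have hZg := perp_grd F (k + 1) (slice I d)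
    have e1 := qd_perp G (show (d + 1) + k = 2 * a by omega) (hW (d + 1))
    have e2 := qd_perp G (show d + (k + 1) = 2 * a by omega) (hW d)
    have hu : up F k (perp F k (slice I (d + 1))) ≤ perp F (k + 1) (slice I d) :=
      up_perp_le (hup d)
    have hle : Sd K 1 * perp F k (slice I (d + 1)) ≤ perp F (k + 1) (slice I d) :=
      le_trans le_sup_left hu
    have hk' : k < a := by omega
    have hp := R.pair_low ha hk' hYg hZg hle
    by_cases hda : d = a
    · subst hda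
      have hk2 : k = d - 1 := by omega
      subst hk2
      have c1 : cd F (d - 1) = 3 * (d - 1) := by
        rw [hF, R.cd3_lt (by omega), R.cd1 _ (by omega)]
      have c2 : cd F (d - 1 + 1) = 3 * d - 2 := by
        have := R.cd3_eq
        rw [show d - 1 + 1 = d by omega, hF]
        omega
      rw [c1] at e1
      rw [c2] at e2
      exact tb_dual_eq ha e1 e2 hp
    by_cases hk0 : k = 0
    · subst hk0
      have c1 : cd F 0 = 1 := by
        rw [hF, R.cd3_lt (by omega)]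
        exact R.cd1_zero
      have c2 : cd F (0 + 1) = 3 := by
        rw [hF, R.cd3_lt (by omega)]
        simpa using R.cd1 1 le_rfl
      rw [c1] at e1
      rw [c2] at e2
      exact tb_dual_last (by omega) (by omega) e1 e2 hp
    · have c1 : cd F k = 3 * k := by
        rw [hF, R.cd3_lt (by omega), R.cd1 _ (by omega)]
      have c2 : cd F (k + 1) = 3 * (k + 1) := by
        rw [hF, R.cd3_lt (by omega), R.cd1 _ (by omega)]
      rw [c1] at e1
      rw [c2] at e2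
      exact tb_dual_upper (by omega) hk hk0 e1 e2 hp
  · have hq : tb a d (qd F d (slice I d)) = 0 := by
      unfold tb
      by_cases hq : qd F d (slice I d) = 0
      · simp [hq]
      · rw [if_neg hq, if_neg (by omega), if_neg (by omega), if_neg (by omega), if_neg (by omega),
          if_neg (by omega), if_neg (by omega)]
    rw [hq]
    exact Nat.zero_le _

end RegSeq

end Vale.Agent.Lib.P200
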