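import Vale.Agent.Lib.P200.Core

/-!
# Lower bounds on growth in `K[x,y,z]/(p)`, `deg p ≤ 3` (Macaulay-type tables)
-/

namespace Vale.Agent.Lib.P200

open MvPolynomial Module

variable {K : Type*} [Field K]

/-! ### Change of ideal -/

lemma qd_change {I : Ideal (Sr K)} (hI : IsHomog I) {v : Sr K} {δ n : ℕ}
    (hv : v.IsHomogeneous δ) (h0 : v ≠ 0) (hreg : ∀ w, v * w ∈ I → w ∈ I)
    {X' : Submodule K (Sr K)} (hX : Grd I n X') (hn : δ ≤ n)
    (hvX : ∀ r ∈ Sd K (n - δ), v * r ∈ X') :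
    Grd (I ⊔ Ideal.span {v}) n X' ∧
      qd I n X' = qd (I ⊔ Ideal.span {v}) n X' + cd I (n - δ) := by
  have hG : Grd (I ⊔ Ideal.span {v}) n X' := by
    refine ⟨?_, hX.2⟩
    rw [slice_sup_span hI hv hn]
    refine sup_le hX.1 ?_
    rintro _ ⟨r, hr, rfl⟩
    exact hvX r hr
  refine ⟨hG, ?_⟩
  have h1 := Nd_sup_span hI hv h0 hreg hn
  have h2 := Nd_le_Dd I (n - δ)
  have h3 := hG.add_qd
  have h4 := hX.add_qd
  unfold cd
  omega

lemma up_change {I : Ideal (Sr K)} (hI : IsHomog I) {v : Sr K} {k : ℕ}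
    (hv : v.IsHomogeneous k) {W : Submodule K (Sr K)} (hvW : v ∈ W) :
    up (I ⊔ Ideal.span {v}) k W = up I k W := by
  unfold up
  apply le_antisymm
  · refine sup_le le_sup_left ?_
    rw [slice_sup_span hI hv (by omega : k ≤ k + 1)]
    refine sup_le (le_trans le_sup_right (le_refl _)) ?_
    rintro _ ⟨r, hr, rfl⟩
    have hr' : r ∈ Sd K 1 := by
      rwa [show k + 1 - k = 1 by omega] at hr
    have : mulBy v r = r * v := by
      simp [mul_comm]
    rw [this]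
    exact Submodule.mem_sup_left (Submodule.mul_mem_mul hr' hvW)
  · exact sup_le le_sup_left (le_trans (slice_mono le_sup_left _) le_sup_right)

lemma mem_of_qd_pos {I : Ideal (Sr K)} {k : ℕ} {W : Submodule K (Sr K)} (hW : Grd I k W)
    (hq : 1 ≤ qd I k W) : ∃ w ∈ W, w ∉ I := by
  by_contra hcon
  push Not at hcon
  have hle : W ≤ slice I k := fun w hw => ⟨hcon w hw, hW.2 hw⟩
  have : finrank K W ≤ Nd I k := by
    have := hW.fd
    exact Submodule.finrank_mono hle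
  unfold qd at hq
  omega

lemma qd_le_cd {I : Ideal (Sr K)} {k : ℕ} {W : Submodule K (Sr K)} (hW : Grd I k W) :
    qd I k W ≤ cd I k := by
  unfold qd cd
  have : finrank K W ≤ Dd K k := Submodule.finrank_mono hW.2
  omega

/-! ### Hilbert functions of principal ideals -/

lemma Nd_bot (d : ℕ) : Nd (⊥ : Ideal (Sr K)) d = 0 := by
  have : slice (⊥ : Ideal (Sr K)) d = ⊥ := by
    ext u
    simp only [mem_slice, Ideal.mem_bot, Submodule.mem_bot]
    constructor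
    · exact fun h => h.1
    · rintro rfl
      exact ⟨rfl, isHomogeneous_zero _ _ _⟩
  unfold Nd
  rw [this]
  simp

lemma Nd_span_of_le {p : Sr K} {δ d : ℕ} (hp : p.IsHomogeneous δ) (h0 : p ≠ 0) (hd : δ ≤ d) :
    Nd (Ideal.span {p}) d = Dd K (d - δ) := by
  have h1 := Nd_sup_span isHomog_bot hp h0 (fun w hw => by
    rw [Ideal.mem_bot] at *
    exact (mul_eq_zero.mp hw).resolve_left h0) hd
  rw [bot_sup_eq, Nd_bot, Nd_bot] at h1
  omega

lemma Nd_span_of_lt {p : Sr K} {δ d : ℕ} (hp : p.IsHomogeneous δ) (hd : d < δ) :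
    Nd (Ideal.span {p}) d = 0 := by
  have h1 := slice_sup_span_of_lt isHomog_bot hp hd
  rw [bot_sup_eq] at h1
  unfold Nd
  rw [h1]
  exact Nd_bot d

lemma Dd_zero : Dd K 0 = 1 := by rw [Dd_eq]
lemma Dd_one : Dd K 1 = 3 := by rw [Dd_eq]
lemma Dd_two : Dd K 2 = 6 := by rw [Dd_eq]

lemma cd_span_one {p : Sr K} (hp : p.IsHomogeneous 1) (h0 : p ≠ 0) (j : ℕ) :
    cd (Ideal.span {p}) j = j + 1 := by
  unfold cd
  cases j with
  | zero =>
    rw [Nd_span_of_lt hp (by omega), Dd_zero]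
  | succ j =>
    rw [Nd_span_of_le hp h0 (by omega), show j + 1 - 1 = j by omega, Dd_succ]
    omega

lemma cd_span_two {p : Sr K} (hp : p.IsHomogeneous 2) (h0 : p ≠ 0) (j : ℕ) :
    cd (Ideal.span {p}) j = 2 * j + 1 := by
  unfold cd
  match j with
  | 0 => rw [Nd_span_of_lt hp (by omega), Dd_zero]
  | 1 => rw [Nd_span_of_lt hp (by omega), Dd_one]
  | j + 2 =>
    rw [Nd_span_of_le hp h0 (by omega), show j + 2 - 2 = j by omega,
      show j + 2 = (j + 1) + 1 by omega, Dd_succ, Dd_succ]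
    omega

lemma cd_span_three {p : Sr K} (hp : p.IsHomogeneous 3) (h0 : p ≠ 0) (j : ℕ) (hj : 1 ≤ j) :
    cd (Ideal.span {p}) j = 3 * j := by
  unfold cd
  match j, hj with
  | 1, _ => rw [Nd_span_of_lt hp (by omega), Dd_one]
  | 2, _ => rw [Nd_span_of_lt hp (by omega), Dd_two]
  | j + 3, _ =>
    rw [Nd_span_of_le hp h0 (by omega), show j + 3 - 3 = j by omega,
      show j + 3 = (j + 1 + 1) + 1 by omega, Dd_succ, Dd_succ, Dd_succ]
    omega

lemma cd_span_zero {p : Sr K} {δ : ℕ} (hp : p.IsHomogeneous δ) (hδ : 1 ≤ δ) :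
    cd (Ideal.span {p}) 0 = 1 := by
  unfold cd
  rw [Nd_span_of_lt hp (by omega), Dd_zero]

lemma cd_span_one' {p : Sr K} {δ : ℕ} (hp : p.IsHomogeneous δ) (hδ : 2 ≤ δ) :
    cd (Ideal.span {p}) 1 = 3 := by
  unfold cd
  rw [Nd_span_of_lt hp (by omega), Dd_one]

/-! ### Division by a fixed factor -/

lemma exists_homog_quot {p₁ x : Sr K} {δ n : ℕ} (h₁ : p₁.IsHomogeneous δ) (h₁0 : p₁ ≠ 0)
    (hx : x.IsHomogeneous (δ + n)) (hd : p₁ ∣ x) : ∃ y, y.IsHomogeneous n ∧ x = p₁ * y := by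
  obtain ⟨y, rfl⟩ := hd
  refine ⟨y, ?_, rfl⟩
  have h1 := homogeneousComponent_mul_left h₁ n y
  rw [homogeneousComponent_of_mem (hx : _ ∈ homogeneousSubmodule (Fin 3) K _), if_pos rfl] at h1
  have h2 := mul_left_cancel₀ h₁0 h1
  rw [h2]
  exact homogeneousComponent_isHomogeneous _ _

lemma slice_span_mul {p₁ p' : Sr K} {δ : ℕ} (h₁ : p₁.IsHomogeneous δ) (h₁0 : p₁ ≠ 0) (m : ℕ) :
    slice (Ideal.span {p₁ * p'}) (δ + m) = (slice (Ideal.span {p'}) m).map (mulBy p₁) := by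
  apply le_antisymm
  · intro u hu
    obtain ⟨s, rfl⟩ := Ideal.mem_span_singleton'.mp hu.1
    obtain ⟨y, hy, hye⟩ := exists_homog_quot h₁ h₁0 hu.2 ⟨p' * s, by ring⟩
    refine ⟨y, ⟨?_, hy⟩, hye.symm⟩
    have h3 : y = s * p' := by
      apply mul_left_cancel₀ h₁0
      rw [← hye]
      ring
    rw [h3]
    exact Ideal.mul_mem_left _ _ (Ideal.mem_span_singleton_self p')
  · rintro _ ⟨y, hy, rfl⟩
    obtain ⟨s, rfl⟩ := Ideal.mem_span_singleton'.mp hy.1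
    refine ⟨?_, h₁.mul hy.2⟩
    change mulBy p₁ (s * p') ∈ Ideal.span {p₁ * p'}
    rw [Ideal.mem_span_singleton']
    exact ⟨s, by simp; ring⟩

lemma Nd_span_mul {p₁ p' : Sr K} {δ : ℕ} (h₁ : p₁.IsHomogeneous δ) (h₁0 : p₁ ≠ 0) (m : ℕ) :
    Nd (Ideal.span {p₁ * p'}) (δ + m) = Nd (Ideal.span {p'}) m := by
  unfold Nd
  rw [slice_span_mul h₁ h₁0, finrank_map_mulBy h₁0]

lemma reduce_fixed {p₁ p' : Sr K} {δ₁ k : ℕ} (h₁ : p₁.IsHomogeneous δ₁) (h₁0 : p₁ ≠ 0)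
    {W : Submodule K (Sr K)} (hW : Grd (Ideal.span {p₁ * p'}) k W) (hdiv : ∀ x ∈ W, p₁ ∣ x)
    (hk : δ₁ ≤ k) :
    ∃ W₁, Grd (Ideal.span {p'}) (k - δ₁) W₁ ∧
      qd (Ideal.span {p₁ * p'}) k W = qd (Ideal.span {p'}) (k - δ₁) W₁ ∧
      qd (Ideal.span {p₁ * p'}) (k + 1) (up (Ideal.span {p₁ * p'}) k W) =
        qd (Ideal.span {p'}) (k - δ₁ + 1) (up (Ideal.span {p'}) (k - δ₁) W₁) := by
  obtain ⟨m, rfl⟩ := Nat.exists_eq_add_of_le hk
  rw [Nat.add_sub_cancel_left]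
  let W₁ : Submodule K (Sr K) := (W.comap (mulBy p₁)) ⊓ Sd K m
  have hWmap : W = W₁.map (mulBy p₁) := by
    apply le_antisymm
    · intro x hx
      obtain ⟨y, hy, rfl⟩ := exists_homog_quot h₁ h₁0 (hW.2 hx) (hdiv x hx)
      exact ⟨y, ⟨hx, hy⟩, rfl⟩
    · rintro _ ⟨y, hy, rfl⟩
      exact hy.1
  have hG : Grd (Ideal.span {p'}) m W₁ := by
    refine ⟨?_, inf_le_right⟩
    intro u hu
    refine ⟨?_, hu.2⟩
    change p₁ * u ∈ W
    apply hW.1
    rw [slice_span_mul h₁ h₁0]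
    exact ⟨u, hu, rfl⟩
  have hGfd := hG.fd
  have hfr : finrank K W = finrank K W₁ := by
    rw [hWmap, finrank_map_mulBy h₁0]
  have hupmap : up (Ideal.span {p₁ * p'}) (δ₁ + m) W = (up (Ideal.span {p'}) m W₁).map (mulBy p₁) := by
    unfold up
    rw [Submodule.map_sup, show δ₁ + m + 1 = δ₁ + (m + 1) by omega, slice_span_mul h₁ h₁0]
    congr 1
    apply le_antisymm
    · rw [Submodule.mul_le]
      intro a ha x hx
      rw [hWmap] at hx
      obtain ⟨y, hy, rfl⟩ := hx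
      exact ⟨a * y, Submodule.mul_mem_mul ha hy, by simp [mul_left_comm]⟩
    · rw [Submodule.map_le_iff_le_comap, Submodule.mul_le]
      intro a ha y hy
      have : mulBy p₁ (a * y) = a * (p₁ * y) := by simp [mul_left_comm]
      rw [Submodule.mem_comap, this]
      exact Submodule.mul_mem_mul ha hy.1
  refine ⟨W₁, hG, ?_, ?_⟩
  · unfold qd
    rw [hfr, Nd_span_mul h₁ h₁0]
  · unfold qd
    rw [hupmap, finrank_map_mulBy h₁0, show δ₁ + m + 1 = δ₁ + (m + 1) by omega, Nd_span_mul h₁ h₁0]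

/-! ### Avoidance for principal ideals -/

lemma exists_avoid_finset [Infinite K] (X' : Submodule K (Sr K)) (A : Finset (Ideal (Sr K)))
    (hav : ∀ 𝔭 ∈ A, ¬ (∀ x ∈ X', x ∈ 𝔭)) : ∃ v ∈ X', ∀ 𝔭 ∈ A, v ∉ 𝔭 := by
  classical
  let fam : Finset (Subspace K X') := A.image (fun 𝔭 => (𝔭.restrictScalars K).comap X'.subtype)
  have htop : (⊤ : Subspace K X') ∉ fam := by
    intro hmem
    rw [Finset.mem_image] at hmem
    obtain ⟨𝔭, h𝔭, he⟩ := hmem
    apply hav 𝔭 h𝔭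
    intro x hx
    have : (⟨x, hx⟩ : X') ∈ (𝔭.restrictScalars K).comap X'.subtype := by
      rw [he]; trivial
    exact this
  have hne := Subspace.biUnion_ne_univ_of_top_notMem htop
  obtain ⟨v, hv⟩ : ∃ v : X', v ∉ ⋃ p ∈ fam, (p : Set X') := by
    by_contra hcon
    push Not at hcon
    exact hne (Set.eq_univ_of_forall hcon)
  refine ⟨v, v.2, ?_⟩
  intro 𝔭 h𝔭 hv𝔭
  apply hv
  simp only [Set.mem_iUnion]
  exact ⟨_, Finset.mem_image.mpr ⟨𝔭, h𝔭, rfl⟩, hv𝔭⟩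

/-- Either a subspace contains a nonzerodivisor mod `p`, or all its elements share a prime factor
of `p`. -/
lemma nzd_or_fixed [Infinite K] {p : Sr K} (h0 : p ≠ 0) (X' : Submodule K (Sr K)) :
    (∃ v ∈ X', ∀ w, v * w ∈ Ideal.span {p} → w ∈ Ideal.span {p}) ∨
      (∃ p₁, Prime p₁ ∧ p₁ ∣ p ∧ ∀ x ∈ X', p₁ ∣ x) := by
  classical
  by_cases hcase : ∃ p₁ ∈ UniqueFactorizationMonoid.factors p, ∀ x ∈ X', p₁ ∣ x
  · obtain ⟨p₁, hm, hall⟩ := hcase
    exact Or.inr ⟨p₁, UniqueFactorizationMonoid.prime_of_factor p₁ hm,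
      UniqueFactorizationMonoid.dvd_of_mem_factors hm, hall⟩
  · left
    push Not at hcase
    let A : Finset (Ideal (Sr K)) :=
      (UniqueFactorizationMonoid.factors p).toFinset.image (fun q => Ideal.span {q})
    obtain ⟨v, hv, hvA⟩ := exists_avoid_finset X' A (by
      intro 𝔭 h𝔭
      rw [Finset.mem_image] at h𝔭
      obtain ⟨q, hq, rfl⟩ := h𝔭
      obtain ⟨x, hx, hxq⟩ := hcase q (Multiset.mem_toFinset.mp hq)
      intro hall
      exact hxq (Ideal.mem_span_singleton.mp (hall x hx)))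
    refine ⟨v, hv, ?_⟩
    have hrel : IsRelPrime p v := by
      rw [UniqueFactorizationMonoid.isRelPrime_iff_no_prime_factors h0]
      intro d hdp hdv hd
      obtain ⟨q, hq, hdq⟩ := UniqueFactorizationMonoid.exists_mem_factors_of_dvd h0 hd.irreducible hdp
      apply hvA (Ideal.span {q}) (Finset.mem_image.mpr ⟨q, Multiset.mem_toFinset.mpr hq, rfl⟩)
      rw [Ideal.mem_span_singleton]
      exact hdq.symm.dvd.trans hdv
    intro w hw
    rw [Ideal.mem_span_singleton] at hw ⊢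
    exact hrel.dvd_of_dvd_mul_left hw

/-- A prime factor of a nonzero homogeneous form is homogeneous, of positive degree. -/
lemma prime_factor_homog {p p₁ p' : Sr K} {δ : ℕ} (hp : p.IsHomogeneous δ) (h0 : p ≠ 0)
    (hprime : Prime p₁) (he : p = p₁ * p') :
    ∃ δ₁ δ', 1 ≤ δ₁ ∧ δ₁ + δ' = δ ∧ p₁.IsHomogeneous δ₁ ∧ p'.IsHomogeneous δ' := by
  subst he
  have h1 : p₁ ≠ 0 := left_ne_zero_of_mul h0
  have h2 : p' ≠ 0 := right_ne_zero_of_mul h0
  obtain ⟨δ₁, hδ₁⟩ := isHomogeneous_of_mul hp h0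
  obtain ⟨δ', hδ'⟩ := isHomogeneous_of_mul (by rwa [mul_comm]) (by rwa [mul_comm] : p' * p₁ ≠ 0)
  have h3 : δ₁ + δ' = δ := by
    have h4 := hδ₁.mul hδ'
    exact h4.inj_right hp h0
  refine ⟨δ₁, δ', ?_, h3, hδ₁, hδ'⟩
  by_contra hlt
  have hzero : δ₁ = 0 := by omega
  subst hzero
  have : p₁.totalDegree = 0 := hδ₁.totalDegree h1
  exact hprime.not_unit (isUnit_of_totalDegree_zero h1 this)

end Vale.Agent.Lib.P200
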